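import Vale.Agent.P267.H315.Equiv2
import Vale.Agent.P267.H221.Sys

/-!
# P267, RRK-GLOB: the kernels of `P` and `S` in two charts (operator form, on `V0`, `V1`, `V2`)

`aP0 K v = K_2 v_1 - K_3 v_0`, `(aP1 K u)_j = K_j u`, `(aS1 S v)_j = S_j2 v_1 - S_j3 v_0`.
-/

set_option linter.unusedSectionVars false

open scoped ContDiff ComplexConjugate Matrix Manifold

noncomputable section

namespace Vale.Agent.P267.H315

open Vale.Agent.P267.RR Vale.Agent.P267.FL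

section alg

variable {F : Type} [NormedAddCommGroup F] [NormedSpace ℂ F]

/-- `v ↦ K_2 v_1 - K_3 v_0` -/
def aP0 (K : Fin 4 → F →L[ℂ] F) : (Fin 2 → F) →L[ℂ] F :=
  (K 2).comp (ContinuousLinearMap.proj (R := ℂ) (φ := fun _ : Fin 2 => F) 1) -
    (K 3).comp (ContinuousLinearMap.proj (R := ℂ) (φ := fun _ : Fin 2 => F) 0)

/-- `u ↦ (K_0 u, K_1 u)` -/
def aP1 (K : Fin 4 → F →L[ℂ] F) : F →L[ℂ] (Fin 2 → F) :=
  ContinuousLinearMap.pi fun j : Fin 2 => K (c2 j)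

/-- `v ↦ (S_j2 v_1 - S_j3 v_0)_j` -/
def aS1 (S : Fin 4 → Fin 4 → F →L[ℂ] F) : (Fin 2 → F) →L[ℂ] (Fin 2 → F) :=
  ContinuousLinearMap.pi fun j : Fin 2 => aP0 (S (c2 j))

@[simp] theorem aP0_apply (K : Fin 4 → F →L[ℂ] F) (v : Fin 2 → F) :
    aP0 K v = K 2 (v 1) - K 3 (v 0) := rfl

@[simp] theorem aP1_apply (K : Fin 4 → F →L[ℂ] F) (u : F) (j : Fin 2) :
    aP1 K u j = K (c2 j) u := rfl

@[simp] theorem aS1_apply (S : Fin 4 → Fin 4 → F →L[ℂ] F) (v : Fin 2 → F) (j : Fin 2) :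
    aS1 S v j = S (c2 j) 2 (v 1) - S (c2 j) 3 (v 0) := rfl

variable {J Jw : Fin 2 → Fin 2 → ℂ} {ez ew : F →L[ℂ] F}

/-- the transformation rule of `K`, applied to a vector -/
theorem K_app {K K' : Fin 4 → F →L[ℂ] F}
    (h : ∀ j, dt Jw • ∑ j', CJ J Jw j' j • (K' j' * ew) = ez * K j) (j : Fin 4) (v : F) :
    dt Jw • ∑ j', CJ J Jw j' j • K' j' (ew v) = ez (K j v) := by
  have h1 := congrArg (fun L : F →L[ℂ] F => L v) (h j)
  simp only [_root_.smul_apply, _root_.sum_apply] at h1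
  exact h1

theorem cmp_P0 {K K' : Fin 4 → F →L[ℂ] F}
    (h : ∀ j, dt Jw • ∑ j', CJ J Jw j' j • (K' j' * ew) = ez * K j) {v v' : Fin 2 → F}
    (hv : ∀ j, ∑ p, conj (Jw p j) • v' p = ew (v j)) :
    dd Jw • aP0 K' v' = ez (aP0 K v) := by
  have h2 := K_app h 2 (v 1)
  have h3 := K_app h 3 (v 0)
  rw [← hv] at h2 h3
  simp only [Fin.sum_univ_two, Fin.sum_univ_four, CJ, map_add, map_smul, Matrix.cons_val_zero,
    Matrix.cons_val_one, Matrix.cons_val, zero_smul, zero_add, add_zero] at h2 h3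
  rw [aP0_apply, aP0_apply, map_sub, ← h2, ← h3, dd, dt]
  simp only [map_sub, map_mul]
  module

theorem cmp_P1 {K K' : Fin 4 → F →L[ℂ] F}
    (h : ∀ j, dt Jw • ∑ j', CJ J Jw j' j • (K' j' * ew) = ez * K j) {u u' : F}
    (hu : conj (dt Jw) • u' = ew u) (j : Fin 2) :
    ∑ p, conj (J p j) • (dd Jw • aP1 K' u') p = ez (aP1 K u j) := by
  have h1 := K_app h (c2 j) u
  rw [← hu] at h1
  rw [aP1_apply, ← h1]
  simp only [Fin.sum_univ_two, Fin.sum_univ_four, Pi.smul_apply, aP1_apply, dd]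
  fin_cases j <;> simp [c2, CJ, map_smul] <;> module

/-- the transformation rule of `S`, applied to a vector -/
theorem S_app {S S' : Fin 4 → Fin 4 → F →L[ℂ] F}
    (h : ∀ j k, dt Jw • ∑ j', ∑ k', (CJ J Jw j' j * CJ J Jw k' k) • (S' j' k' * ew) = ez * S j k)
    (j k : Fin 4) (v : F) :
    dt Jw • ∑ j', ∑ k', (CJ J Jw j' j * CJ J Jw k' k) • S' j' k' (ew v) = ez (S j k v) := by
  have h1 := congrArg (fun L : F →L[ℂ] F => L v) (h j k)
  simp only [_root_.smul_apply, _root_.sum_apply] at h1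
  exact h1

theorem cmp_S0 {S S' : Fin 4 → Fin 4 → F →L[ℂ] F} (hd : ∀ j, S' j j = 0)
    (ha : ∀ j k, S' j k = - S' k j)
    (h : ∀ j k, dt Jw • ∑ j', ∑ k', (CJ J Jw j' j * CJ J Jw k' k) • (S' j' k' * ew) = ez * S j k)
    (v : F) : dd Jw • S' 2 3 (ew v) = ez (S 2 3 v) := by
  have h1 := S_app h 2 3 v
  rw [← h1]
  simp only [Fin.sum_univ_four, hd, ha 3 2]
  simp [CJ, dd, dt]
  module

theorem cmp_S1 {S S' : Fin 4 → Fin 4 → F →L[ℂ] F}
    (h : ∀ j k, dt Jw • ∑ j', ∑ k', (CJ J Jw j' j * CJ J Jw k' k) • (S' j' k' * ew) = ez * S j k)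
    {v v' : Fin 2 → F} (hv : ∀ j, ∑ p, conj (Jw p j) • v' p = ew (v j)) (j : Fin 2) :
    ∑ p, conj (J p j) • (dd Jw • aS1 S' v') p = ez (aS1 S v j) := by
  have h2 := S_app h (c2 j) 2 (v 1)
  have h3 := S_app h (c2 j) 3 (v 0)
  rw [← hv] at h2 h3
  rw [aS1_apply, map_sub, ← h2, ← h3]
  simp only [Fin.sum_univ_two, Fin.sum_univ_four, Pi.smul_apply, aS1_apply, dd, dt]
  fin_cases j <;> simp [c2, CJ, map_smul, map_add] <;> module

theorem cmp_S2 {S S' : Fin 4 → Fin 4 → F →L[ℂ] F} (hd : ∀ j, S' j j = 0)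
    (ha : ∀ j k, S' j k = - S' k j)
    (h : ∀ j k, dt Jw • ∑ j', ∑ k', (CJ J Jw j' j * CJ J Jw k' k) • (S' j' k' * ew) = ez * S j k)
    {u u' : F} (hu : conj (dt Jw) • u' = ew u) :
    conj (dt J) • (dd Jw • S' 0 1 u') = ez (S 0 1 u) := by
  have h1 := S_app h 0 1 u
  rw [← hu] at h1
  rw [← h1]
  simp only [Fin.sum_univ_four, hd, ha 1 0]
  simp [CJ, dd, dt]
  module

end alg

/-! ### in the charts of `FinAt` -/

variable {X : Type*} [TopologicalSpace X] [ChartedSpace C2 X] {A : FinAt X}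

theorem dd_J (c c' : Fin A.N) (w : C2) :
    ((‖(A.J c c' w).det‖ ^ 2 : ℝ) : ℂ) = dd (A.J c c' w) := by
  have h1 : dt (A.J c c' w) = (A.J c c' w).det := (Matrix.det_fin_two _).symm
  change _ = dt (A.J c c' w) * conj (dt (A.J c c' w))
  rw [h1, Complex.mul_conj']
  push_cast
  rfl

variable [IsManifold 𝓘(ℂ, C2) ω X] {r : ℕ} (B : Bun A r) {c c' : Fin A.N} {z w : C2}
  {D D' : KData ((Fin r → ℂ) →L[ℂ] (Fin r → ℂ))}

variable (hz : z ∈ A.ov c c') (hw : w ∈ A.ov c c')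
  (h : KData.Compat D D' (z, w) (A.tau c c' z, A.tau c c' w) (A.J c c' z) (A.J c c' w)
    (mL (B.E c c' z)) (mL (B.E c c' w))) (f : ℝ → ℂ)

include h

include hw in
theorem P0_cmp (v : Fin 2 → Fin r → ℂ) :
    ((‖(A.J c c' w).det‖ ^ 2 : ℝ) : ℂ) •
      aP0 (fun j => D'.Kf f j (A.tau c c' z, A.tau c c' w)) (B.sb1.T c c' w v) =
      B.sb0.T c c' z (aP0 (fun j => D.Kf f j (z, w)) v) := by
  rw [dd_J]
  exact cmp_P0 (fun j => h.Kf f j) ((Bun.compat1_iff hw _ _ _).1 rfl)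

include hz hw in
theorem P1_cmp (u : Fin r → ℂ) :
    ((‖(A.J c c' w).det‖ ^ 2 : ℝ) : ℂ) •
      aP1 (fun j => D'.Kf f j (A.tau c c' z, A.tau c c' w)) (B.sb2.T c c' w u) =
      B.sb1.T c c' z (aP1 (fun j => D.Kf f j (z, w)) u) := by
  rw [dd_J]
  refine (Bun.compat1_iff hz _ _ _).2 fun j => ?_
  refine cmp_P1 (fun j => h.Kf f j) ?_ j
  have := (Bun.compat2_iff hw (B.E c c' w) u (B.sb2.T c c' w u)).1 rfl
  rw [Matrix.det_fin_two] at this
  exact this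

theorem S0_cmp (v : Fin r → ℂ) :
    ((‖(A.J c c' w).det‖ ^ 2 : ℝ) : ℂ) •
      (D'.Sf f 2 3 (A.tau c c' z, A.tau c c' w)) (B.sb0.T c c' w v) =
      B.sb0.T c c' z (D.Sf f 2 3 (z, w) v) := by
  rw [dd_J]
  exact cmp_S0 (S := fun j k => D.Sf f j k (z, w))
    (S' := fun j k => D'.Sf f j k (A.tau c c' z, A.tau c c' w))
    (fun j => D'.Sf_self f j _) (fun j k => D'.Sf_anti f j k _) (fun j k => h.Sf f j k) v

include hz hw in
theorem S1_cmp (v : Fin 2 → Fin r → ℂ) :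
    ((‖(A.J c c' w).det‖ ^ 2 : ℝ) : ℂ) •
      aS1 (fun j k => D'.Sf f j k (A.tau c c' z, A.tau c c' w)) (B.sb1.T c c' w v) =
      B.sb1.T c c' z (aS1 (fun j k => D.Sf f j k (z, w)) v) := by
  rw [dd_J]
  refine (Bun.compat1_iff hz _ _ _).2 fun j => ?_
  exact cmp_S1 (fun j k => h.Sf f j k) ((Bun.compat1_iff hw _ _ _).1 rfl) j

include hz hw in
theorem S2_cmp (u : Fin r → ℂ) :
    ((‖(A.J c c' w).det‖ ^ 2 : ℝ) : ℂ) •
      (D'.Sf f 0 1 (A.tau c c' z, A.tau c c' w)) (B.sb2.T c c' w u) =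
      B.sb2.T c c' z (D.Sf f 0 1 (z, w) u) := by
  rw [dd_J]
  refine (Bun.compat2_iff hz _ _ _).2 ?_
  have h1 := cmp_S2 (S := fun j k => D.Sf f j k (z, w))
    (S' := fun j k => D'.Sf f j k (A.tau c c' z, A.tau c c' w))
    (fun j => D'.Sf_self f j _) (fun j k => D'.Sf_anti f j k _) (fun j k => h.Sf f j k)
    (u := u) (u' := B.sb2.T c c' w u) (by
      have := (Bun.compat2_iff hw (B.E c c' w) u (B.sb2.T c c' w u)).1 rfl
      rw [Matrix.det_fin_two] at this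
      exact this)
  rw [Matrix.det_fin_two]
  exact h1

end Vale.Agent.P267.H315
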