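import Vale.Agent.P267.H315.KerUse

/-!
# P267, RRK-EQ: the kernels `S_jk`, `K_j` under a change of chart and of frame
-/

open scoped ContDiff ComplexConjugate

noncomputable section

namespace Vale.Agent.P267.H315

section chain

variable {E : Type*} [NormedAddCommGroup E] [NormedSpace ℂ E]
  {F : Type*} [NormedAddCommGroup F] [NormedSpace ℂ F]
  {W : Type*} [NormedAddCommGroup W] [NormedSpace ℂ W]

lemma dbv_add_dir (v w : E) (f : E → W) (x : E) : dbv (v + w) f x = dbv v f x + dbv w f x := by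
  simp only [dbv, smul_add, map_add]
  module

lemma dbv_smul_dir (c : ℂ) (v : E) (f : E → W) (x : E) : dbv (c • v) f x = conj c • dbv v f x := by
  have h1 (u : E) : fderiv ℝ f x (c • u) =
      (c.re : ℂ) • fderiv ℝ f x u + (c.im : ℂ) • fderiv ℝ f x (Complex.I • u) := by
    rw [Complex.coe_smul, Complex.coe_smul, ← map_smul, ← map_smul, ← map_add]
    congr 1
    conv_lhs => rw [← Complex.re_add_im c]
    rw [add_smul, mul_smul, Complex.coe_smul, Complex.coe_smul]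
  have h2 : Complex.I • c • v = c • Complex.I • v := smul_comm _ _ _
  have h3 : Complex.I • Complex.I • v = - v := by
    rw [smul_smul, Complex.I_mul_I]; simp
  have h4 : conj c = (c.re : ℂ) - c.im * Complex.I := by
    apply Complex.ext <;> simp
  rw [dbv, dbv, h2, h1, h1, h3, map_neg, h4]
  have h6 : (Complex.I * Complex.I + 1) • fderiv ℝ f x (Complex.I • v) = 0 := by
    rw [Complex.I_mul_I]; simp
  linear_combination (norm := module) ((c.im : ℂ) / 2) • h6

lemma dbv_comp {Ψ : E → F} {f : F → W} {x : E} {L : E →L[ℂ] F} (hΨ : HasFDerivAt Ψ L x)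
    (hf : DifferentiableAt ℝ f (Ψ x)) (v : E) :
    dbv v (fun y => f (Ψ y)) x = dbv (L v) f (Ψ x) := by
  have h1 : HasFDerivAt Ψ (L.restrictScalars ℝ) x := hΨ.restrictScalars ℝ
  have h2 : fderiv ℝ (fun y => f (Ψ y)) x = (fderiv ℝ f (Ψ x)).comp (L.restrictScalars ℝ) :=
    (hf.hasFDerivAt.comp x h1).fderiv
  rw [dbv, dbv, h2]
  simp

/-- a holomorphic function -/
lemma dbv_hol {f : E → W} {x : E} (hf : DifferentiableAt ℂ f x) (v : E) : dbv v f x = 0 := by
  have h1 : fderiv ℝ f x = (fderiv ℂ f x).restrictScalars ℝ :=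
    (hf.hasFDerivAt.restrictScalars ℝ).fderiv
  rw [dbv, h1]
  simp only [ContinuousLinearMap.coe_restrictScalars', map_smul, smul_smul, Complex.I_mul_I]
  simp

end chain

/-! ### The matrix of the change of coordinates, conjugated -/

/-- `conj (∂x'_{j'}/∂x_j)` where `x = (z, w)`, `x' = (ψ(z), ψ(w))`, `J = Dψ(z)`, `Jw = Dψ(w)`. -/
def CJ (J Jw : Fin 2 → Fin 2 → ℂ) : Fin 4 → Fin 4 → ℂ :=
  ![![conj (J 0 0), conj (J 0 1), 0, 0], ![conj (J 1 0), conj (J 1 1), 0, 0],
    ![0, 0, conj (Jw 0 0), conj (Jw 0 1)], ![0, 0, conj (Jw 1 0), conj (Jw 1 1)]]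

/-- `det J` -/
def dt (J : Fin 2 → Fin 2 → ℂ) : ℂ := J 0 0 * J 1 1 - J 0 1 * J 1 0

lemma sum_ep (J Jw : Fin 2 → Fin 2 → ℂ) (j k : Fin 4) :
    ∑ j', ∑ k', CJ J Jw j' j * CJ J Jw k' k * ep j' k' = ep j k * conj (dt J) := by
  fin_cases j <;> fin_cases k <;>
    simp [Fin.sum_univ_four, ep, CJ, dt] <;> ring

section alg

variable {A : Type*} [NormedRing A] [NormedAlgebra ℂ A]

lemma wd_trans {J : Fin 2 → Fin 2 → ℂ} {X Bj : Fin 2 → ℂ} {Y Gk : Fin 2 → A}
    (hX : ∀ c, Bj c = ∑ a, X a * J a c) (hY : ∀ c, Gk c = ∑ a, J a c • Y a) :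
    wd Bj Gk = dt J • wd X Y := by
  simp only [wd, dt, hX, hY, Fin.sum_univ_two]
  module

lemma wc_trans {J : Fin 2 → Fin 2 → ℂ} {X Y Bj Bk : Fin 2 → ℂ}
    (hX : ∀ c, Bj c = ∑ a, X a * J a c) (hY : ∀ c, Bk c = ∑ a, Y a * J a c) :
    wc Bj Bk = dt J * wc X Y := by
  simp only [wc, dt, hX, hY, Fin.sum_univ_two]
  ring

lemma wd_mul_left (e : A) (x : Fin 2 → ℂ) (c : Fin 2 → A) : e * wd x c = wd x (fun a => e * c a) := by
  simp only [wd, mul_sub, mul_smul_comm]

lemma wd_mul_right (e : A) (x : Fin 2 → ℂ) (c : Fin 2 → A) : wd x c * e = wd x (fun a => c a * e) := by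
  simp only [wd, sub_mul, smul_mul_assoc]

lemma wd_sum {ι κ : Type*} (s : Finset ι) (t : Finset κ) (p : ι → ℂ) (q : κ → ℂ)
    (x : ι → Fin 2 → ℂ) (c : κ → Fin 2 → A) :
    ∑ i ∈ s, ∑ k ∈ t, (p i * q k) • wd (x i) (c k) =
      wd (fun a => ∑ i ∈ s, p i * x i a) (fun a => ∑ k ∈ t, q k • c k a) := by
  have key (a b : Fin 2) : (∑ i ∈ s, p i * x i a) • (∑ k ∈ t, q k • c k b) =
      ∑ i ∈ s, ∑ k ∈ t, (p i * q k) • (x i a • c k b) := by
    rw [Finset.sum_smul]
    refine Finset.sum_congr rfl fun i _ => ?_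
    rw [Finset.smul_sum]
    refine Finset.sum_congr rfl fun k _ => ?_
    module
  simp only [wd, key, smul_sub, Finset.sum_sub_distrib]

lemma wc_sum {ι κ : Type*} (s : Finset ι) (t : Finset κ) (p : ι → ℂ) (q : κ → ℂ)
    (x : ι → Fin 2 → ℂ) (y : κ → Fin 2 → ℂ) :
    ∑ i ∈ s, ∑ k ∈ t, (p i * q k) * wc (x i) (y k) =
      wc (fun a => ∑ i ∈ s, p i * x i a) (fun a => ∑ k ∈ t, q k * y k a) := by
  have key (a b : Fin 2) : (∑ i ∈ s, p i * x i a) * (∑ k ∈ t, q k * y k b) =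
      ∑ i ∈ s, ∑ k ∈ t, (p i * q k) * (x i a * y k b) := by
    rw [Finset.sum_mul]
    refine Finset.sum_congr rfl fun i _ => ?_
    rw [Finset.mul_sum]
    refine Finset.sum_congr rfl fun k _ => ?_
    ring
  simp only [wc, key, mul_sub, Finset.sum_sub_distrib]

end alg

/-! ### Compatible data -/

namespace KData

variable {A : Type*} [NormedRing A] [NormedAlgebra ℂ A]

/-- The data `D` at `y` and `D'` at `y'` correspond to each other under a change of chart with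
Jacobian matrices `J` (at `z`), `Jw` (at `w`) and a change of frame `ez`, `ew`
(`u' = e u` for the components of sections). -/
structure Compat (D D' : KData A) (y y' : VV) (J Jw : Fin 2 → Fin 2 → ℂ) (ez ew : A) : Prop where
  s : ∀ a, D'.s a y' = ∑ c, J a c * D.s c y
  b : ∀ c, D.b c y = ∑ a, D'.b a y' * J a c
  m : dt Jw • (D'.m y' * ew) = dt J • (ez * D.m y)
  ka : ∀ a, (dt J * conj (dt J)) * D'.ka a y' = ∑ c, J a c * D.ka c y
  Ph : (dt J * conj (dt J)) • (D'.Ph y' * ez) = ez * D.Ph y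
  B : ∀ j c, D.B j c y = ∑ a, (∑ j', CJ J Jw j' j * D'.B j' a y') * J a c
  Ga : ∀ j c, ez * D.Ga j c y = ∑ a, J a c • ∑ j', CJ J Jw j' j • (D'.Ga j' a y' * ez)

namespace Compat

variable {D D' : KData A} {y y' : VV} {J Jw : Fin 2 → Fin 2 → ℂ} {ez ew : A}
  (h : Compat D D' y y' J Jw ez ew)

include h

lemma rr : D'.rr y' = D.rr y := by
  simp only [KData.rr, h.s, h.b, Fin.sum_univ_two]
  ring

lemma bka : (dt J * conj (dt J)) * (D'.b 0 y' * D'.ka 0 y' + D'.b 1 y' * D'.ka 1 y') =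
    D.b 0 y * D.ka 0 y + D.b 1 y * D.ka 1 y := by
  have h0 := h.ka 0
  have h1 := h.ka 1
  simp only [h.b, Fin.sum_univ_two] at h0 h1 ⊢
  linear_combination (D'.b 0 y') * h0 + (D'.b 1 y') * h1

lemma wdBG (j k : Fin 4) : dt J • ∑ j', ∑ k', (CJ J Jw j' j * CJ J Jw k' k) •
      (wd (fun a => D'.B j' a y') (fun a => D'.Ga k' a y') * ez) =
    ez * wd (fun a => D.B j a y) (fun a => D.Ga k a y) := by
  simp only [wd_mul_right]
  rw [wd_sum, wd_mul_left]
  exact (wd_trans (fun c => h.B j c) (fun c => h.Ga k c)).symm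

lemma wdBG' (j k : Fin 4) : dt J • ∑ j', ∑ k', (CJ J Jw j' j * CJ J Jw k' k) •
      (wd (fun a => D'.B k' a y') (fun a => D'.Ga j' a y') * ez) =
    ez * wd (fun a => D.B k a y) (fun a => D.Ga j a y) := by
  rw [← h.wdBG k j, Finset.sum_comm]
  congr 1
  refine Finset.sum_congr rfl fun i _ => Finset.sum_congr rfl fun k _ => ?_
  rw [mul_comm]

lemma wcBB (j k : Fin 4) : dt J * ∑ j', ∑ k', (CJ J Jw j' j * CJ J Jw k' k) *
      wc (fun a => D'.B j' a y') (fun a => D'.B k' a y') =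
    wc (fun a => D.B j a y) (fun a => D.B k a y) := by
  rw [wc_sum]
  exact (wc_trans (fun c => h.B j c) (fun c => h.B k c)).symm

theorem T {F0 F1 F2 F0' F1' F2' : VV → ℂ} (e0 : F0' y' = F0 y) (e1 : F1' y' = F1 y)
    (e2 : F2' y' = F2 y) (j k : Fin 4) :
    dt J • ∑ j', ∑ k', (CJ J Jw j' j * CJ J Jw k' k) • (D'.T F0' F1' F2' j' k' y' * ez) =
      ez * D.T F0 F1 F2 j k y := by
  have hep := sum_ep J Jw j k
  have key : ∀ j' k', (CJ J Jw j' j * CJ J Jw k' k) • (D'.T F0' F1' F2' j' k' y' * ez) =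
      (CJ J Jw j' j * CJ J Jw k' k * ep j' k') • (F0 y • (D'.Ph y' * ez))
      + (CJ J Jw j' j * CJ J Jw k' k * ep j' k') •
          ((F1 y * (D'.b 0 y' * D'.ka 0 y' + D'.b 1 y' * D'.ka 1 y')) • ez)
      - F1 y • ((CJ J Jw j' j * CJ J Jw k' k) •
          (wd (fun a => D'.B j' a y') (fun a => D'.Ga k' a y') * ez))
      + F1 y • ((CJ J Jw j' j * CJ J Jw k' k) •
          (wd (fun a => D'.B k' a y') (fun a => D'.Ga j' a y') * ez))
      - ((CJ J Jw j' j * CJ J Jw k' k) *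
          wc (fun a => D'.B j' a y') (fun a => D'.B k' a y')) • (F2 y • ez) := by
    intro j' k'
    simp only [KData.T, P, Q, N, e0, e1, e2, sub_mul, add_mul, smul_mul_assoc, one_mul]
    module
  simp only [key, Finset.sum_add_distrib, Finset.sum_sub_distrib, ← Finset.smul_sum,
    ← Finset.sum_smul]
  have h1 := h.wdBG j k
  have h2 := h.wdBG' j k
  have h3 := h.wcBB j k
  have h4 := h.bka
  have h5 := h.Ph
  rw [hep]
  simp only [KData.T, P, Q, N, mul_add, mul_sub, mul_smul_comm, mul_one, ← h1, ← h2, ← h3, ← h4,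
    ← h5]
  module

/-- **Equivariance of `S`.** -/
theorem S {F0 F1 F2 F0' F1' F2' : VV → ℂ} (e0 : F0' y' = F0 y) (e1 : F1' y' = F1 y)
    (e2 : F2' y' = F2 y) (j k : Fin 4) :
    dt Jw • ∑ j', ∑ k', (CJ J Jw j' j * CJ J Jw k' k) • (D'.S F0' F1' F2' j' k' y' * ew) =
      ez * D.S F0 F1 F2 j k y := by
  have hT := h.T e0 e1 e2 j k
  have key : ∀ j' k', dt Jw • ((CJ J Jw j' j * CJ J Jw k' k) •
      (D'.S F0' F1' F2' j' k' y' * ew)) =
      (dt J • ((CJ J Jw j' j * CJ J Jw k' k) • (D'.T F0' F1' F2' j' k' y' * ez))) * D.m y := by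
    intro j' k'
    have := congrArg (fun u => (CJ J Jw j' j * CJ J Jw k' k) • (D'.T F0' F1' F2' j' k' y' * u)) h.m
    simp only [mul_smul_comm] at this
    simp only [KData.S, smul_mul_assoc, mul_assoc]
    rw [smul_comm, this, smul_comm]
  simp only [Finset.smul_sum] at hT ⊢
  simp only [key, ← Finset.sum_mul, hT]
  rw [KData.S, mul_assoc]

theorem L {H0 H1 H0' H1' : VV → ℂ} (e0 : H0' y' = H0 y) (e1 : H1' y' = H1 y) (j : Fin 4) :
    dt J • ∑ j', CJ J Jw j' j • (D'.L H0' H1' j' y' * ez) = ez * D.L H0 H1 j y := by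
  have key : ∀ j', CJ J Jw j' j • (D'.L H0' H1' j' y' * ez) =
      - (H0 y • (CJ J Jw j' j • (wd (fun a => D'.b a y') (fun a => D'.Ga j' a y') * ez)))
      - (CJ J Jw j' j * wc (fun a => D'.b a y') (fun a => D'.B j' a y')) • (H1 y • ez) := by
    intro j'
    simp only [KData.L, e0, e1, sub_mul, neg_mul, smul_mul_assoc, one_mul]
    module
  have h1 : dt J • ∑ j', CJ J Jw j' j • (wd (fun a => D'.b a y') (fun a => D'.Ga j' a y') * ez) =
      ez * wd (fun a => D.b a y) (fun a => D.Ga j a y) := by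
    simp only [wd_mul_right]
    have := wd_sum (A := A) {()} Finset.univ (fun _ => 1) (fun j' => CJ J Jw j' j)
      (fun _ a => D'.b a y') (fun k a => D'.Ga k a y' * ez)
    simp only [Finset.sum_singleton, one_mul] at this
    rw [this, wd_mul_left]
    exact (wd_trans (fun c => h.b c) (fun c => h.Ga j c)).symm
  have h2 : dt J * ∑ j', CJ J Jw j' j * wc (fun a => D'.b a y') (fun a => D'.B j' a y') =
      wc (fun a => D.b a y) (fun a => D.B j a y) := by
    have := wc_sum {()} Finset.univ (fun _ => 1) (fun j' => CJ J Jw j' j)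
      (fun _ a => D'.b a y') (fun k a => D'.B k a y')
    simp only [Finset.sum_singleton, one_mul] at this
    rw [this]
    exact (wc_trans (fun c => h.b c) (fun c => h.B j c)).symm
  simp only [key, Finset.sum_sub_distrib, Finset.sum_neg_distrib, ← Finset.smul_sum,
    ← Finset.sum_smul]
  simp only [KData.L, mul_sub, mul_neg, mul_smul_comm, mul_one, ← h1, ← h2]
  module

/-- **Equivariance of `K`.** -/
theorem K {H0 H1 H0' H1' : VV → ℂ} (e0 : H0' y' = H0 y) (e1 : H1' y' = H1 y) (j : Fin 4) :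
    dt Jw • ∑ j', CJ J Jw j' j • (D'.K H0' H1' j' y' * ew) = ez * D.K H0 H1 j y := by
  have hL := h.L e0 e1 j
  have key : ∀ j', dt Jw • (CJ J Jw j' j • (D'.K H0' H1' j' y' * ew)) =
      (dt J • (CJ J Jw j' j • (D'.L H0' H1' j' y' * ez))) * D.m y := by
    intro j'
    have := congrArg (fun u => CJ J Jw j' j • (D'.L H0' H1' j' y' * u)) h.m
    simp only [mul_smul_comm] at this
    simp only [KData.K, smul_mul_assoc, mul_assoc]
    rw [smul_comm, this, smul_comm]
  simp only [Finset.smul_sum] at hL ⊢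
  simp only [key, ← Finset.sum_mul, hL]
  rw [KData.K, mul_assoc]

theorem Sf (f : ℝ → ℂ) (j k : Fin 4) :
    dt Jw • ∑ j', ∑ k', (CJ J Jw j' j * CJ J Jw k' k) • (D'.Sf f j' k' y' * ew) =
      ez * D.Sf f j k y :=
  h.S (by rw [fr, fr, h.rr]) (by rw [fr, fr, h.rr]) (by rw [fr, fr, h.rr]) j k

theorem Kf (f : ℝ → ℂ) (j : Fin 4) :
    dt Jw • ∑ j', CJ J Jw j' j • (D'.Kf f j' y' * ew) = ez * D.Kf f j y :=
  h.K (by rw [fr, fr, h.rr]) (by rw [fr, fr, h.rr]) j

end Compat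

end KData

end Vale.Agent.P267.H315
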