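import Vale.Agent.P267.H315.Equiv
import Mathlib.Analysis.Calculus.FDeriv.Analytic
import Mathlib.Analysis.Complex.CauchyIntegral

/-!
# P267, RRK-EQ: chain rule for a holomorphic change of coordinates in both variables, the relation
for `B_j`, and the integrands of the operators
-/

open scoped ContDiff ComplexConjugate

noncomputable section

namespace Vale.Agent.P267.H315

/-- The Jacobian matrix `∂ψ_a/∂z_c`. -/
def jc (ψ : V → V) (z : V) (a c : Fin 2) : ℂ := fderiv ℂ ψ z (Pi.single c 1) a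

variable {W : Type*} [NormedAddCommGroup W] [NormedSpace ℂ W]

lemma clm_single (L : V →L[ℂ] V) (c : Fin 2) :
    L (Pi.single c 1) = (L (Pi.single c 1) 0) • (Pi.single 0 1 : V) +
      (L (Pi.single c 1) 1) • (Pi.single 1 1 : V) := by
  funext a
  fin_cases a <;> simp

/-- the chain rule for `(z, w) ↦ (ψ₁(z), ψ₂(w))` -/
lemma db_chain {ψ₁ ψ₂ : V → V} {y : VV} (h1 : DifferentiableAt ℂ ψ₁ y.1)
    (h2 : DifferentiableAt ℂ ψ₂ y.2) {f : VV → W}
    (hf : DifferentiableAt ℝ f (ψ₁ y.1, ψ₂ y.2)) (j : Fin 4) :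
    db j (fun x => f (ψ₁ x.1, ψ₂ x.2)) y =
      ∑ j', CJ (jc ψ₁ y.1) (jc ψ₂ y.2) j' j • db j' f (ψ₁ y.1, ψ₂ y.2) := by
  have hΨ : HasFDerivAt (fun x : VV => (ψ₁ x.1, ψ₂ x.2))
      (((fderiv ℂ ψ₁ y.1).comp (ContinuousLinearMap.fst ℂ V V)).prod
        ((fderiv ℂ ψ₂ y.2).comp (ContinuousLinearMap.snd ℂ V V))) y :=
    (h1.hasFDerivAt.comp y hasFDerivAt_fst).prodMk (h2.hasFDerivAt.comp y hasFDerivAt_snd)
  have hd := dbv_comp hΨ hf (dir j)
  have l (c : Fin 2) : ((fderiv ℂ ψ₁ y.1 (Pi.single c 1), (0 : V)) : VV) =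
      jc ψ₁ y.1 0 c • dir 0 + jc ψ₁ y.1 1 c • dir 1 := by
    rw [clm_single (fderiv ℂ ψ₁ y.1) c]; simp [dir, jc]
  have r (c : Fin 2) : (((0 : V), fderiv ℂ ψ₂ y.2 (Pi.single c 1)) : VV) =
      jc ψ₂ y.2 0 c • dir 2 + jc ψ₂ y.2 1 c • dir 3 := by
    rw [clm_single (fderiv ℂ ψ₂ y.2) c]; simp [dir, jc]
  rw [db, hd, Fin.sum_univ_four]
  fin_cases j
  · have e : (((fderiv ℂ ψ₁ y.1).comp (ContinuousLinearMap.fst ℂ V V)).prod
        ((fderiv ℂ ψ₂ y.2).comp (ContinuousLinearMap.snd ℂ V V))) (dir 0) =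
        (fderiv ℂ ψ₁ y.1 (Pi.single 0 1), 0) := by simp [dir]
    change dbv ((((fderiv ℂ ψ₁ y.1).comp (ContinuousLinearMap.fst ℂ V V)).prod
        ((fderiv ℂ ψ₂ y.2).comp (ContinuousLinearMap.snd ℂ V V))) (dir 0)) f _ = _
    rw [e, l, dbv_add_dir, dbv_smul_dir, dbv_smul_dir]
    simp [CJ, db]
  · have e : (((fderiv ℂ ψ₁ y.1).comp (ContinuousLinearMap.fst ℂ V V)).prod
        ((fderiv ℂ ψ₂ y.2).comp (ContinuousLinearMap.snd ℂ V V))) (dir 1) =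
        (fderiv ℂ ψ₁ y.1 (Pi.single 1 1), 0) := by simp [dir]
    change dbv ((((fderiv ℂ ψ₁ y.1).comp (ContinuousLinearMap.fst ℂ V V)).prod
        ((fderiv ℂ ψ₂ y.2).comp (ContinuousLinearMap.snd ℂ V V))) (dir 1)) f _ = _
    rw [e, l, dbv_add_dir, dbv_smul_dir, dbv_smul_dir]
    simp [CJ, db]
  · have e : (((fderiv ℂ ψ₁ y.1).comp (ContinuousLinearMap.fst ℂ V V)).prod
        ((fderiv ℂ ψ₂ y.2).comp (ContinuousLinearMap.snd ℂ V V))) (dir 2) =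
        (0, fderiv ℂ ψ₂ y.2 (Pi.single 0 1)) := by simp [dir]
    change dbv ((((fderiv ℂ ψ₁ y.1).comp (ContinuousLinearMap.fst ℂ V V)).prod
        ((fderiv ℂ ψ₂ y.2).comp (ContinuousLinearMap.snd ℂ V V))) (dir 2)) f _ = _
    rw [e, r, dbv_add_dir, dbv_smul_dir, dbv_smul_dir]
    simp [CJ, db]
  · have e : (((fderiv ℂ ψ₁ y.1).comp (ContinuousLinearMap.fst ℂ V V)).prod
        ((fderiv ℂ ψ₂ y.2).comp (ContinuousLinearMap.snd ℂ V V))) (dir 3) =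
        (0, fderiv ℂ ψ₂ y.2 (Pi.single 1 1)) := by simp [dir]
    change dbv ((((fderiv ℂ ψ₁ y.1).comp (ContinuousLinearMap.fst ℂ V V)).prod
        ((fderiv ℂ ψ₂ y.2).comp (ContinuousLinearMap.snd ℂ V V))) (dir 3)) f _ = _
    rw [e, r, dbv_add_dir, dbv_smul_dir, dbv_smul_dir]
    simp [CJ, db]

/-- a function of `z` alone which is holomorphic -/
lemma db_hol_fst {f : V → W} {y : VV} (hf : DifferentiableAt ℂ f y.1) (j : Fin 4) :
    db j (fun x : VV => f x.1) y = 0 := by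
  have : DifferentiableAt ℂ (fun x : VV => f x.1) y := hf.comp y differentiableAt_fst
  exact dbv_hol this _

variable {A : Type*} [NormedRing A] [NormedAlgebra ℂ A]

omit [NormedRing A] [NormedAlgebra ℂ A] in
/-- The relation for `B_j` follows from those for `b` and `α_j`. -/
theorem KData.compat_B {D D' : KData A} {ψ : V → V} {J : V → Fin 2 → Fin 2 → ℂ} {y : VV}
    (h1 : DifferentiableAt ℂ ψ y.1) (h2 : DifferentiableAt ℂ ψ y.2)
    (hJ : ∀ a c, DifferentiableAt ℂ (fun z => J z a c) y.1) (hJ' : J y.1 = jc ψ y.1)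
    (hb : ∀ᶠ x : VV in nhds y, ∀ c, D.b c x = ∑ a, D'.b a (ψ x.1, ψ x.2) * J x.1 a c)
    (db' : ∀ a, DifferentiableAt ℝ (D'.b a) (ψ y.1, ψ y.2))
    (hal : ∀ j a d, ∑ j', CJ (jc ψ y.1) (jc ψ y.2) j' j *
        ∑ c, D'.al j' a c (ψ y.1, ψ y.2) * J y.1 c d = ∑ c, J y.1 a c * D.al j c d y)
    (j : Fin 4) (c : Fin 2) :
    D.B j c y = ∑ a, (∑ j', CJ (jc ψ y.1) (jc ψ y.2) j' j * D'.B j' a (ψ y.1, ψ y.2)) *
      jc ψ y.1 a c := by
  have hΨ : DifferentiableAt ℝ (fun x : VV => (ψ x.1, ψ x.2)) y :=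
    (((h1.comp y differentiableAt_fst).prodMk (h2.comp y differentiableAt_snd)) :
      DifferentiableAt ℂ (fun x : VV => (ψ x.1, ψ x.2)) y).restrictScalars ℝ
  have hc (a : Fin 2) : DifferentiableAt ℝ (fun x : VV => D'.b a (ψ x.1, ψ x.2)) y :=
    DifferentiableAt.comp (g := D'.b a) (f := fun x : VV => (ψ x.1, ψ x.2)) y (db' a) hΨ
  have hJr (a c : Fin 2) : DifferentiableAt ℝ (fun x : VV => J x.1 a c) y :=
    (DifferentiableAt.comp (g := fun z => J z a c) (f := fun x : VV => x.1) y (hJ a c)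
      differentiableAt_fst).restrictScalars ℝ
  have e1 (c : Fin 2) : db j (D.b c) y =
      ∑ a, (∑ j', CJ (jc ψ y.1) (jc ψ y.2) j' j * db j' (D'.b a) (ψ y.1, ψ y.2)) * J y.1 a c := by
    have h3 : D.b c =ᶠ[nhds y] fun x => ∑ a, D'.b a (ψ x.1, ψ x.2) * J x.1 a c :=
      hb.mono fun x hx => hx c
    rw [db, dbv_congr h3, dbv_sum _ fun a _ => (hc a).fun_mul (hJr a c)]
    refine Finset.sum_congr rfl fun a _ => ?_
    rw [dbv_mul (hc a) (hJr a c)]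
    have h4 : dbv (dir j) (fun x : VV => J x.1 a c) y = 0 := db_hol_fst (hJ a c) j
    have h5 := db_chain h1 h2 (db' a) j
    rw [db] at h5
    rw [h4, h5]
    simp
  rw [B, e1]
  simp only [hb.self_of_nhds]
  have key : ∀ a, ∑ d, (J y.1 a d) * D.al j d c y = _ := fun a => (hal j a c).symm
  simp only [Fin.sum_univ_two, Fin.sum_univ_four, B, ← hJ'] at key ⊢
  linear_combination (D'.b 0 (ψ y.1, ψ y.2)) * key 0 + (D'.b 1 (ψ y.1, ψ y.2)) * key 1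

/-! ### The integrands of the operators

`(S u)_0 = ∫ S_23 u`, `(S u)_j = ∫ (S_j2 u_1 - S_j3 u_0)`, `(S u)_01 = ∫ S_01 u_01`;
`(K u)_0 = ∫ (K_2 u_1 - K_3 u_0)`, `(K u)_j = ∫ K_j u_01`.
-/

namespace KData

lemma T_anti (D : KData A) (F0 F1 F2 : VV → ℂ) (j k : Fin 4) (x : VV) :
    D.T F0 F1 F2 j k x = - D.T F0 F1 F2 k j x := by
  have e : ep j k = - ep k j := by fin_cases j <;> fin_cases k <;> simp [ep]
  simp only [T, P, Q, N, e, wc, wd]
  module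

lemma T_self (D : KData A) (F0 F1 F2 : VV → ℂ) (j : Fin 4) (x : VV) :
    D.T F0 F1 F2 j j x = 0 := by
  have e : ep j j = 0 := by fin_cases j <;> simp [ep]
  simp only [T, P, Q, N, e, wc, wd]
  module

lemma Sf_anti (D : KData A) (f : ℝ → ℂ) (j k : Fin 4) (x : VV) :
    D.Sf f j k x = - D.Sf f k j x := by
  rw [Sf, Sf, S, S, T_anti, neg_mul]

lemma Sf_self (D : KData A) (f : ℝ → ℂ) (j : Fin 4) (x : VV) : D.Sf f j j x = 0 := by
  rw [Sf, S, T_self, zero_mul]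

/-- the index `j` (of `z̄_j`) as an index in `Fin 4` -/
def _root_.Vale.Agent.P267.H315.c2 (j : Fin 2) : Fin 4 := ![0, 1] j

/-- the kernel in degree one: `(S u)_j = ∫ ∑_l k1_{jl} u_l` -/
def k1 (D : KData A) (f : ℝ → ℂ) (j l : Fin 2) (x : VV) : A :=
  ![- D.Sf f (c2 j) 3 x, D.Sf f (c2 j) 2 x] l

end KData

/-- `|det|²` -/
def dd (J : Fin 2 → Fin 2 → ℂ) : ℂ := dt J * conj (dt J)

namespace KData.Compat

variable {D D' : KData A} {y y' : VV} {J Jw : Fin 2 → Fin 2 → ℂ} {ez ew : A}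

/-- degree `0` -/
theorem int0 (h : Compat D D' y y' J Jw ez ew) (f : ℝ → ℂ) :
    dd Jw • (D'.Sf f 2 3 y' * ew) = ez * D.Sf f 2 3 y := by
  rw [← h.Sf f 2 3]
  simp only [Fin.sum_univ_four, D'.Sf_self, D'.Sf_anti f 3 2]
  simp [CJ, dd, dt]
  module

/-- degree `1` -/
theorem int1 (h : Compat D D' y y' J Jw ez ew) (f : ℝ → ℂ) (j l' : Fin 2) :
    ∑ l, conj (Jw l' l) • (ez * D.k1 f j l y) =
      dd Jw • ∑ j', conj (J j' j) • (D'.k1 f j' l' y' * ew) := by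
  have h2 := h.Sf f (c2 j) 2
  have h3 := h.Sf f (c2 j) 3
  fin_cases j <;> fin_cases l' <;>
  simp [Fin.sum_univ_four, CJ, c2] at h2 h3 <;>
  simp [k1, dd, dt, c2, ← h2, ← h3] <;> module

/-- degree `2` -/
theorem int2 (h : Compat D D' y y' J Jw ez ew) (f : ℝ → ℂ) :
    (dt Jw * conj (dt J)) • (D'.Sf f 0 1 y' * ew) = ez * D.Sf f 0 1 y := by
  rw [← h.Sf f 0 1]
  simp only [Fin.sum_univ_four, D'.Sf_self, D'.Sf_anti f 1 0]
  simp [CJ, dt]
  module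

end KData.Compat

end Vale.Agent.P267.H315
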