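import Vale.Agent.P267.H315.Db

/-!
# P267, RRK: the data near the diagonal and the kernels `S_jk`, `K_j`

Coordinates `(z, w) ∈ ℂ² × ℂ²`; indices `0, 1` : `z̄_1, z̄_2`; `2, 3` : `w̄_1, w̄_2`.
`A` is the algebra of endomorphisms of the fibre of the coefficient bundle (`ℂ` for line bundles).
-/

open scoped ContDiff

noncomputable section

namespace Vale.Agent.P267.H315

/-- The directions of `z̄_1, z̄_2, w̄_1, w̄_2`. -/
def dir : Fin 4 → VV :=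
  ![(Pi.single 0 1, 0), (Pi.single 1 1, 0), (0, Pi.single 0 1), (0, Pi.single 1 1)]

/-- `∂f/∂z̄_1, ∂f/∂z̄_2, ∂f/∂w̄_1, ∂f/∂w̄_2`. -/
def db {W : Type*} [NormedAddCommGroup W] [NormedSpace ℂ W] (j : Fin 4) (f : VV → W) (x : VV) : W :=
  dbv (dir j) f x

section
variable {A : Type*} [NormedRing A] [NormedAlgebra ℂ A]

/-- `x ∧ c = x_0 c_1 - x_1 c_0`. -/
def wd (x : Fin 2 → ℂ) (c : Fin 2 → A) : A := x 0 • c 1 - x 1 • c 0

/-- `x ∧ y` for scalars. -/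
def wc (x y : Fin 2 → ℂ) : ℂ := x 0 * y 1 - x 1 * y 0

/-- The sign `ε_{jk}`: `1` for `(0,1)`, `-1` for `(1,0)`, `0` otherwise. -/
def ep (j k : Fin 4) : ℂ := if j = 0 ∧ k = 1 then 1 else if j = 1 ∧ k = 0 then -1 else 0

variable (A) in
/-- Data near the diagonal in one chart (for both variables) and one frame. -/
structure KData where
  /-- `s(z,w) ∈ T_z X` -/
  s : Fin 2 → VV → ℂ
  /-- `α_j ∈ End T_z`; `al j a c` is the entry in row `a`, column `c` -/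
  al : Fin 4 → Fin 2 → Fin 2 → VV → ℂ
  /-- `m = det(∂_w s) τ` -/
  m : VV → A
  /-- `∂̄_j m = g_j m` -/
  g : Fin 4 → VV → A
  /-- `Γ_j ∈ T_z^* ⊗ End E_z` -/
  Ga : Fin 4 → Fin 2 → VV → A
  /-- `κ` -/
  ka : Fin 2 → VV → ℂ
  /-- `Φ` -/
  Ph : VV → A
  /-- `b ∈ T_z^*` -/
  b : Fin 2 → VV → ℂ

namespace KData

variable (D : KData A)

/-- The relations between the data on a set `U` (an open neighbourhood of part of the diagonal). -/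
structure Rel (U : Set VV) : Prop where
  smooth_s : ∀ a, ContDiffOn ℝ ∞ (D.s a) U
  smooth_al : ∀ j a c, ContDiffOn ℝ ∞ (D.al j a c) U
  smooth_m : ContDiffOn ℝ ∞ D.m U
  smooth_g : ∀ j, ContDiffOn ℝ ∞ (D.g j) U
  smooth_Ga : ∀ j a, ContDiffOn ℝ ∞ (D.Ga j a) U
  smooth_ka : ∀ a, ContDiffOn ℝ ∞ (D.ka a) U
  smooth_Ph : ContDiffOn ℝ ∞ D.Ph U
  smooth_b : ∀ a, ContDiffOn ℝ ∞ (D.b a) U
  /-- `∂̄_j s = α_j s` -/
  ds : ∀ x ∈ U, ∀ j a, db j (D.s a) x = ∑ c, D.al j a c x * D.s c x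
  /-- `∂̄_j m = g_j m` -/
  dm : ∀ x ∈ U, ∀ j, db j D.m x = D.g j x * D.m x
  /-- no `w̄` components -/
  al2 : ∀ x ∈ U, ∀ j, 2 ≤ j → ∀ a c, D.al j a c x = 0
  g2 : ∀ x ∈ U, ∀ j, 2 ≤ j → D.g j x = 0
  Ga2 : ∀ x ∈ U, ∀ j, 2 ≤ j → ∀ a, D.Ga j a x = 0
  /-- holomorphic in `w` -/
  hol_al : ∀ x ∈ U, ∀ k, 2 ≤ k → ∀ j a c, db k (D.al j a c) x = 0
  hol_g : ∀ x ∈ U, ∀ k, 2 ≤ k → ∀ j, db k (D.g j) x = 0
  hol_Ga : ∀ x ∈ U, ∀ k, 2 ≤ k → ∀ j a, db k (D.Ga j a) x = 0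
  hol_ka : ∀ x ∈ U, ∀ k, 2 ≤ k → ∀ a, db k (D.ka a) x = 0
  hol_Ph : ∀ x ∈ U, ∀ k, 2 ≤ k → db k D.Ph x = 0
  /-- `g_j = tr α_j + Γ_j(s)` -/
  ga : ∀ x ∈ U, ∀ j, D.g j x =
    (D.al j 0 0 x + D.al j 1 1 x) • (1 : A) + (D.s 0 x • D.Ga j 0 x + D.s 1 x • D.Ga j 1 x)
  /-- `R_{12} = - κ ⊗ (-s_2, s_1)` -/
  curv : ∀ x ∈ U, ∀ a, (∀ c, db 0 (D.al 1 a c) x - db 1 (D.al 0 a c) x -
      ∑ e, (D.al 0 a e x * D.al 1 e c x - D.al 1 a e x * D.al 0 e c x) =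
      - D.ka a x * (![- D.s 1 x, D.s 0 x] : Fin 2 → ℂ) c)
  /-- the equation which defines `Φ` -/
  star : ∀ x ∈ U, ∀ a : Fin 2,
    - wd (Pi.single a 1) (fun c => db 0 (D.Ga 1 c) x + D.Ga 1 c x * D.g 0 x
        - db 1 (D.Ga 0 c) x - D.Ga 0 c x * D.g 1 x)
      + wd (fun c => D.al 0 a c x) (fun c => D.Ga 1 c x)
      - wd (fun c => D.al 1 a c x) (fun c => D.Ga 0 c x) - D.ka a x • (1 : A) = D.s a x • D.Ph x

/-- `⟨b, s⟩` -/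
def rr (x : VV) : ℂ := D.b 0 x * D.s 0 x + D.b 1 x * D.s 1 x

/-- `B_j = ∂̄_j b + b α_j`, component `a` -/
def B (j : Fin 4) (a : Fin 2) (x : VV) : ℂ := db j (D.b a) x + ∑ c, D.b c x * D.al j c a x

/-- coefficient of `f` in `S_{jk} / m` -/
def P (j k : Fin 4) (x : VV) : A := ep j k • D.Ph x

/-- coefficient of `f'` in `S_{jk} / m` -/
def Q (j k : Fin 4) (x : VV) : A :=
  (ep j k * (D.b 0 x * D.ka 0 x + D.b 1 x * D.ka 1 x)) • (1 : A)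
    - wd (fun a => D.B j a x) (fun a => D.Ga k a x) + wd (fun a => D.B k a x) (fun a => D.Ga j a x)

/-- minus the coefficient of `f''` in `S_{jk} / m` -/
def N (j k : Fin 4) (x : VV) : ℂ := wc (fun a => D.B j a x) (fun a => D.B k a x)

/-- `S_{jk} / m`, where `F0 = f(rr)`, `F1 = f'(rr)`, `F2 = f''(rr)` -/
def T (F0 F1 F2 : VV → ℂ) (j k : Fin 4) (x : VV) : A :=
  F0 x • D.P j k x + F1 x • D.Q j k x - (F2 x * D.N j k x) • (1 : A)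

/-- The kernel `S_{jk}`. -/
def S (F0 F1 F2 : VV → ℂ) (j k : Fin 4) (x : VV) : A := D.T F0 F1 F2 j k x * D.m x

/-- `K_j / m`, where `H0 = h(rr)`, `H1 = h'(rr)` -/
def L (H0 H1 : VV → ℂ) (j : Fin 4) (x : VV) : A :=
  - (H0 x • wd (fun a => D.b a x) (fun a => D.Ga j a x))
    - (H1 x * wc (fun a => D.b a x) (fun a => D.B j a x)) • (1 : A)

/-- The kernel `K_j`. -/
def K (H0 H1 : VV → ℂ) (j : Fin 4) (x : VV) : A := D.L H0 H1 j x * D.m x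

end KData

end

end Vale.Agent.P267.H315
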