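import Vale.Agent.P267.H315.Iface

/-!
# P267, RRK-ALG: `S` is closed, `S(f) - S(g) = ∂̄ K(h)`, value on the diagonal
-/

open scoped ContDiff

noncomputable section

namespace Vale.Agent.P267.H315

section symm
variable {E : Type*} [NormedAddCommGroup E] [NormedSpace ℂ E]
  {W : Type*} [NormedAddCommGroup W] [NormedSpace ℂ W]

lemma fderiv_dbv {f : E → W} {x : E} (hf : ContDiffAt ℝ 2 f x) (v w : E) :
    fderiv ℝ (fun y => dbv w f y) x v =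
      (1 / 2 : ℂ) • (fderiv ℝ (fderiv ℝ f) x v w + Complex.I • fderiv ℝ (fderiv ℝ f) x v (Complex.I • w)) := by
  have h1 : DifferentiableAt ℝ (fderiv ℝ f) x :=
    (hf.fderiv_right (m := 1) (by norm_num)).differentiableAt (by norm_num)
  have h2 (u : E) : HasFDerivAt (fun y => fderiv ℝ f y u)
      ((ContinuousLinearMap.apply ℝ W u).comp (fderiv ℝ (fderiv ℝ f) x)) x :=
    (ContinuousLinearMap.apply ℝ W u).hasFDerivAt.comp x h1.hasFDerivAt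
  have h3 : HasFDerivAt (fun y => dbv w f y)
      ((1 / 2 : ℂ) • ((ContinuousLinearMap.apply ℝ W w).comp (fderiv ℝ (fderiv ℝ f) x) +
        Complex.I • (ContinuousLinearMap.apply ℝ W (Complex.I • w)).comp (fderiv ℝ (fderiv ℝ f) x))) x := by
    unfold dbv
    exact ((h2 w).fun_add ((h2 (Complex.I • w)).fun_const_smul Complex.I)).fun_const_smul (1 / 2 : ℂ)
  rw [h3.fderiv]
  simp

lemma dbv_comm {f : E → W} {x : E} (hf : ContDiffAt ℝ 2 f x) (v w : E) :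
    dbv v (fun y => dbv w f y) x = dbv w (fun y => dbv v f y) x := by
  have hs : IsSymmSndFDerivAt ℝ f x := hf.isSymmSndFDerivAt (by simp)
  rw [dbv, dbv, fderiv_dbv hf, fderiv_dbv hf, fderiv_dbv hf, fderiv_dbv hf,
    hs.eq v w, hs.eq (Complex.I • v) w, hs.eq v (Complex.I • w),
    hs.eq (Complex.I • v) (Complex.I • w)]
  module

lemma ContDiffAt.dbv {f : E → W} {x : E} (hf : ContDiffAt ℝ ∞ f x) (v : E) :
    ContDiffAt ℝ ∞ (fun y => dbv v f y) x := by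
  unfold H315.dbv
  have h1 : ContDiffAt ℝ ∞ (fderiv ℝ f) x := hf.fderiv_right (m := ∞) (by simp)
  have h2 (u : E) : ContDiffAt ℝ ∞ (fun y => fderiv ℝ f y u) x := h1.clm_apply contDiffAt_const
  exact ((h2 v).add ((h2 (Complex.I • v)).const_smul Complex.I)).const_smul (1 / 2 : ℂ)

end symm

section
variable {A : Type*} [NormedRing A] [NormedAlgebra ℂ A]

/-! ### Pure algebra -/

/-- Plücker -/
lemma alg3 (Bi Bj Bk s : Fin 2 → ℂ) :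
    (Bi 0 * s 0 + Bi 1 * s 1) * wc Bj Bk - (Bj 0 * s 0 + Bj 1 * s 1) * wc Bi Bk
      + (Bk 0 * s 0 + Bk 1 * s 1) * wc Bi Bj = 0 := by
  simp only [wc]; ring

/-- the coefficient of `F1` for `(0,1,k)` -/
lemma alg1 {Bk D0Bk D1Bk DkB0 DkB1 s ka : Fin 2 → ℂ} {al0 al1 : Fin 2 → Fin 2 → ℂ}
    {Ga0 Ga1 DGa01 DGa10 : Fin 2 → A} {g0 g1 Ph : A}
    (h0 : ∀ a, D0Bk a = DkB0 a - ∑ c, Bk c * al0 c a)
    (h1 : ∀ a, D1Bk a = DkB1 a - ∑ c, Bk c * al1 c a)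
    (hs : ∀ a : Fin 2,
    - wd (Pi.single a 1) (fun c => DGa01 c + Ga1 c * g0 - DGa10 c - Ga0 c * g1)
      + wd (fun c => al0 a c) Ga1 - wd (fun c => al1 a c) Ga0 - ka a • (1 : A) = s a • Ph) :
    (wd D0Bk Ga1 + wd Bk DGa01 + wd Bk Ga1 * g0) - (wd D1Bk Ga0 + wd Bk DGa10 + wd Bk Ga0 * g1)
      + ((Bk 0 * s 0 + Bk 1 * s 1) • Ph + (Bk 0 * ka 0 + Bk 1 * ka 1) • (1 : A)
        - wd DkB0 Ga1 + wd DkB1 Ga0) = 0 := by
  have e0 := hs 0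
  have e1 := hs 1
  simp only [wd, Fin.sum_univ_two, h0, h1, Pi.single_apply] at *
  norm_num at e0 e1
  have f0 := congrArg (fun y => Bk 0 • y) e0
  have f1 := congrArg (fun y => Bk 1 • y) e1
  simp only [smul_add, smul_sub, smul_smul] at f0 f1
  simp only [sub_mul, smul_mul_assoc]
  linear_combination (norm := module) - f0 - f1

/-- the coefficient of `F2` for `(0,1,k)` -/
lemma alg2 {B0 B1 Bk D0Bk D1Bk DkB0 DkB1 D0B1 D1B0 s ka b : Fin 2 → ℂ}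
    {al0 al1 : Fin 2 → Fin 2 → ℂ} {Ga0 Ga1 : Fin 2 → A} {g0 g1 : A}
    (h0 : ∀ a, D0Bk a = DkB0 a - ∑ c, Bk c * al0 c a)
    (h1 : ∀ a, D1Bk a = DkB1 a - ∑ c, Bk c * al1 c a)
    (h2 : ∀ a, D0B1 a = D1B0 a + ∑ c, B0 c * al1 c a - ∑ c, B1 c * al0 c a
      - (b 0 * ka 0 + b 1 * ka 1) * (![- s 1, s 0] : Fin 2 → ℂ) a)
    (hg0 : g0 = (al0 0 0 + al0 1 1) • (1 : A) + (s 0 • Ga0 0 + s 1 • Ga0 1))
    (hg1 : g1 = (al1 0 0 + al1 1 1) • (1 : A) + (s 0 • Ga1 0 + s 1 • Ga1 1)) :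
    (B0 0 * s 0 + B0 1 * s 1) • wd Bk Ga1 - (B1 0 * s 0 + B1 1 * s 1) • wd Bk Ga0
      + (Bk 0 * s 0 + Bk 1 * s 1) • ((b 0 * ka 0 + b 1 * ka 1) • (1 : A) - wd B0 Ga1 + wd B1 Ga0)
      - ((wc D0B1 Bk + wc B1 D0Bk) • (1 : A) + wc B1 Bk • g0)
      + ((wc D1B0 Bk + wc B0 D1Bk) • (1 : A) + wc B0 Bk • g1)
      - (wc DkB0 B1 + wc B0 DkB1) • (1 : A) = 0 := by
  subst hg0 hg1
  simp only [wd, wc, Fin.sum_univ_two, h0, h1, h2, Matrix.cons_val_zero, Matrix.cons_val_one]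
  module

/-- the coefficient of `F2` for `(j,2,3)` -/
lemma alg2' {Bj B2 B3 DjB2 DjB3 D2Bj D3Bj D2B3 D3B2 s : Fin 2 → ℂ}
    {alj : Fin 2 → Fin 2 → ℂ} {Gaj : Fin 2 → A} {gj : A}
    (h2 : ∀ a, DjB2 a = D2Bj a - ∑ c, B2 c * alj c a)
    (h3 : ∀ a, DjB3 a = D3Bj a - ∑ c, B3 c * alj c a)
    (h23 : ∀ a, D2B3 a = D3B2 a)
    (hg : gj = (alj 0 0 + alj 1 1) • (1 : A) + (s 0 • Gaj 0 + s 1 • Gaj 1)) :
    - (B2 0 * s 0 + B2 1 * s 1) • wd B3 Gaj + (B3 0 * s 0 + B3 1 * s 1) • wd B2 Gaj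
      - ((wc DjB2 B3 + wc B2 DjB3) • (1 : A) + wc B2 B3 • gj)
      + (wc D2Bj B3 + wc Bj D2B3) • (1 : A) - (wc D3Bj B2 + wc Bj D3B2) • (1 : A) = 0 := by
  subst hg
  simp only [wd, wc, Fin.sum_univ_two, h2, h3, h23]
  module

/-- `∂̄ K` -/
lemma algK {Bi Bj DiBj DjBi s ka b : Fin 2 → ℂ} {ali alj : Fin 2 → Fin 2 → ℂ}
    {Gai Gaj DGaij DGaji : Fin 2 → A} {gi gj Ph : A} {e H0 H1 H2 : ℂ}
    (hB : ∀ a, DiBj a = DjBi a + ∑ c, Bi c * alj c a - ∑ c, Bj c * ali c a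
      - e * (b 0 * ka 0 + b 1 * ka 1) * (![- s 1, s 0] : Fin 2 → ℂ) a)
    (hgi : gi = (ali 0 0 + ali 1 1) • (1 : A) + (s 0 • Gai 0 + s 1 • Gai 1))
    (hgj : gj = (alj 0 0 + alj 1 1) • (1 : A) + (s 0 • Gaj 0 + s 1 • Gaj 1))
    (hs : ∀ a : Fin 2,
    - wd (Pi.single a 1) (fun c => DGaij c + Gaj c * gi - DGaji c - Gai c * gj)
      + wd (fun c => ali a c) Gaj - wd (fun c => alj a c) Gai - (e * ka a) • (1 : A) =
        (e * s a) • Ph) :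
    (-((H1 * (Bi 0 * s 0 + Bi 1 * s 1)) • wd b Gaj)
        - H0 • (wd (fun a => Bi a - ∑ c, b c * ali c a) Gaj + wd b DGaij)
        - (H2 * (Bi 0 * s 0 + Bi 1 * s 1) * wc b Bj
          + H1 * (wc (fun a => Bi a - ∑ c, b c * ali c a) Bj + wc b DiBj)) • (1 : A)
        - H0 • (wd b Gaj * gi) - (H1 * wc b Bj) • gi)
      - (-((H1 * (Bj 0 * s 0 + Bj 1 * s 1)) • wd b Gai)
        - H0 • (wd (fun a => Bj a - ∑ c, b c * alj c a) Gai + wd b DGaji)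
        - (H2 * (Bj 0 * s 0 + Bj 1 * s 1) * wc b Bi
          + H1 * (wc (fun a => Bj a - ∑ c, b c * alj c a) Bi + wc b DjBi)) • (1 : A)
        - H0 • (wd b Gai * gj) - (H1 * wc b Bi) • gj) =
      ((b 0 * s 0 + b 1 * s 1) * H0) • (e • Ph)
      + (H0 + (b 0 * s 0 + b 1 * s 1) * H1) •
        ((e * (b 0 * ka 0 + b 1 * ka 1)) • (1 : A) - wd Bi Gaj + wd Bj Gai)
      - ((2 * H1 + (b 0 * s 0 + b 1 * s 1) * H2) * wc Bi Bj) • (1 : A) := by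
  have e0 := hs 0
  have e1 := hs 1
  clear hs
  simp only [wd, wc, Fin.sum_univ_two, hB, Pi.single_apply] at *
  norm_num at e0 e1
  have f0 := congrArg (fun y => (H0 * b 0) • y) e0
  have f1 := congrArg (fun y => (H0 * b 1) • y) e1
  simp only [smul_add, smul_sub, smul_smul, ← mul_smul_comm] at f0 f1
  subst hgi hgj
  simp only [Matrix.cons_val_zero, Matrix.cons_val_one, mul_add, sub_mul, add_mul, smul_mul_assoc,
    mul_smul_comm, mul_one] at f0 f1 ⊢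
  linear_combination (norm := module) f0 + f1

end

end Vale.Agent.P267.H315
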