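import Vale.Agent.P267.H315.KerAlg

/-!
# P267, RRK-ALG: calculus; the theorems `closed`, `exact`, `diag`
-/

open scoped ContDiff

noncomputable section

namespace Vale.Agent.P267.H315

section
variable {A : Type*} [NormedRing A] [NormedAlgebra ℂ A]

namespace KData

variable {D : KData A} {U : Set VV}

namespace Rel

variable (h : D.Rel U) (hU : IsOpen U) {x : VV} (hx : x ∈ U)

include h hU hx

lemma cs (a : Fin 2) : ContDiffAt ℝ ∞ (D.s a) x := (h.smooth_s a).contDiffAt (hU.mem_nhds hx)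
lemma cb (a : Fin 2) : ContDiffAt ℝ ∞ (D.b a) x := (h.smooth_b a).contDiffAt (hU.mem_nhds hx)
lemma cal (j : Fin 4) (a c : Fin 2) : ContDiffAt ℝ ∞ (D.al j a c) x :=
  (h.smooth_al j a c).contDiffAt (hU.mem_nhds hx)
lemma cm : ContDiffAt ℝ ∞ D.m x := h.smooth_m.contDiffAt (hU.mem_nhds hx)
lemma cg (j : Fin 4) : ContDiffAt ℝ ∞ (D.g j) x := (h.smooth_g j).contDiffAt (hU.mem_nhds hx)
lemma cGa (j : Fin 4) (a : Fin 2) : ContDiffAt ℝ ∞ (D.Ga j a) x :=
  (h.smooth_Ga j a).contDiffAt (hU.mem_nhds hx)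
lemma cka (a : Fin 2) : ContDiffAt ℝ ∞ (D.ka a) x := (h.smooth_ka a).contDiffAt (hU.mem_nhds hx)
lemma cPh : ContDiffAt ℝ ∞ D.Ph x := h.smooth_Ph.contDiffAt (hU.mem_nhds hx)

lemma cB (j : Fin 4) (a : Fin 2) : ContDiffAt ℝ ∞ (D.B j a) x := by
  unfold B
  refine ContDiffAt.add (ContDiffAt.dbv (h.cb hU hx a) _) ?_
  exact ContDiffAt.sum fun c _ => (h.cb hU hx c).mul (h.cal hU hx j c a)

lemma ds' (a : Fin 2) : DifferentiableAt ℝ (D.s a) x := (h.cs hU hx a).differentiableAt (by simp)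
lemma db' (a : Fin 2) : DifferentiableAt ℝ (D.b a) x := (h.cb hU hx a).differentiableAt (by simp)
lemma dal' (j : Fin 4) (a c : Fin 2) : DifferentiableAt ℝ (D.al j a c) x :=
  (h.cal hU hx j a c).differentiableAt (by simp)
lemma dm' : DifferentiableAt ℝ D.m x := (h.cm hU hx).differentiableAt (by simp)
lemma dGa' (j : Fin 4) (a : Fin 2) : DifferentiableAt ℝ (D.Ga j a) x :=
  (h.cGa hU hx j a).differentiableAt (by simp)
lemma dka' (a : Fin 2) : DifferentiableAt ℝ (D.ka a) x :=
  (h.cka hU hx a).differentiableAt (by simp)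
lemma dPh' : DifferentiableAt ℝ D.Ph x := (h.cPh hU hx).differentiableAt (by simp)
lemma dB' (j : Fin 4) (a : Fin 2) : DifferentiableAt ℝ (D.B j a) x :=
  (h.cB hU hx j a).differentiableAt (by simp)

omit h hU hx in
lemma db_b (j : Fin 4) (a : Fin 2) (x : VV) :
    db j (D.b a) x = D.B j a x - ∑ c, D.b c x * D.al j c a x := by
  rw [B]; ring

lemma db_rr (j : Fin 4) : db j D.rr x = D.B j 0 x * D.s 0 x + D.B j 1 x * D.s 1 x := by
  have h1 (a : Fin 2) : db j (fun y => D.b a y * D.s a y) x =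
      db j (D.b a) x * D.s a x + D.b a x * db j (D.s a) x :=
    dbv_mul (h.db' hU hx a) (h.ds' hU hx a)
  have h2 : db j D.rr x = db j (fun y => D.b 0 y * D.s 0 y) x + db j (fun y => D.b 1 y * D.s 1 y) x :=
    dbv_add ((h.db' hU hx 0).mul (h.ds' hU hx 0)) ((h.db' hU hx 1).mul (h.ds' hU hx 1))
  rw [h2, h1, h1, db_b, db_b, h.ds x hx, h.ds x hx]
  simp only [Fin.sum_univ_two]
  ring

/-- `al`, `g`, `Ga` vanish identically near `x` for indices `≥ 2` -/
lemma db_al2 (j i : Fin 4) (hj : 2 ≤ j) (a c : Fin 2) : db i (D.al j a c) x = 0 := by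
  have : D.al j a c =ᶠ[nhds x] fun _ => 0 := by
    filter_upwards [hU.mem_nhds hx] with y hy using h.al2 y hy j hj a c
  rw [db, dbv_congr this, dbv_const]

lemma db_Ga2 (j i : Fin 4) (hj : 2 ≤ j) (a : Fin 2) : db i (D.Ga j a) x = 0 := by
  have : D.Ga j a =ᶠ[nhds x] fun _ => 0 := by
    filter_upwards [hU.mem_nhds hx] with y hy using h.Ga2 y hy j hj a
  rw [db, dbv_congr this, dbv_const]

/-- the curvature relation for all pairs -/
lemma curv' (j k : Fin 4) (a c : Fin 2) :
    db j (D.al k a c) x - db k (D.al j a c) x -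
      ∑ e, (D.al j a e x * D.al k e c x - D.al k a e x * D.al j e c x) =
      - (ep j k * D.ka a x * (![- D.s 1 x, D.s 0 x] : Fin 2 → ℂ) c) := by
  have h01 := h.curv x hx a c
  have case2 : ∀ j k : Fin 4, 2 ≤ k → db j (D.al k a c) x - db k (D.al j a c) x -
      ∑ e, (D.al j a e x * D.al k e c x - D.al k a e x * D.al j e c x) = 0 := by
    intro j k hk
    rw [h.db_al2 hU hx k j hk, h.hol_al x hx k hk]
    simp [h.al2 x hx k hk]
  have hep : ∀ j k : Fin 4, 2 ≤ k → ep j k = 0 := by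
    intro j k hk
    rw [ep, if_neg, if_neg] <;> rintro ⟨-, rfl⟩ <;> exact absurd hk (by decide)
  have hep' : ∀ j k : Fin 4, 2 ≤ j → ep j k = 0 := by
    intro j k hk
    rw [ep, if_neg, if_neg] <;> rintro ⟨rfl, -⟩ <;> exact absurd hk (by decide)
  by_cases hk : 2 ≤ k
  · rw [case2 j k hk, hep j k hk]; ring
  by_cases hj : 2 ≤ j
  · have := case2 k j hj
    rw [hep' j k hj]
    simp only [Fin.sum_univ_two] at this ⊢
    linear_combination - this
  have hj' : j = 0 ∨ j = 1 := by omega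
  have hk' : k = 0 ∨ k = 1 := by omega
  rcases hj' with rfl | rfl <;> rcases hk' with rfl | rfl
  · simp [ep]
  · have e1 : ep 0 1 = 1 := by simp [ep]
    rw [e1, h01]; ring
  · have e1 : ep 1 0 = -1 := by simp [ep]
    rw [e1]
    simp only [Fin.sum_univ_two] at h01 ⊢
    linear_combination - h01
  · simp [ep]

/-- `∂̄_j B_k - ∂̄_k B_j` -/
lemma db_B (j k : Fin 4) (a : Fin 2) :
    db j (D.B k a) x = db k (D.B j a) x + ∑ c, D.B j c x * D.al k c a x
      - ∑ c, D.B k c x * D.al j c a x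
      - ep j k * (D.b 0 x * D.ka 0 x + D.b 1 x * D.ka 1 x) *
        (![- D.s 1 x, D.s 0 x] : Fin 2 → ℂ) a := by
  have key (j k : Fin 4) : db j (D.B k a) x = db j (fun y => db k (D.b a) y) x +
      ∑ c, (db j (D.b c) x * D.al k c a x + D.b c x * db j (D.al k c a) x) := by
    have h1 : db j (D.B k a) x = db j (fun y => db k (D.b a) y) x +
        db j (fun y => ∑ c, D.b c y * D.al k c a y) x := by
      refine dbv_add ((ContDiffAt.dbv (h.cb hU hx a) _).differentiableAt (by simp)) ?_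
      exact DifferentiableAt.fun_sum fun c _ => (h.db' hU hx c).mul (h.dal' hU hx k c a)
    rw [h1]
    congr 1
    have h2 : db j (fun y => ∑ c, D.b c y * D.al k c a y) x =
        ∑ c, db j (fun y => D.b c y * D.al k c a y) x :=
      dbv_sum _ fun c _ => (h.db' hU hx c).mul (h.dal' hU hx k c a)
    rw [h2]
    exact Finset.sum_congr rfl fun c _ => dbv_mul (h.db' hU hx c) (h.dal' hU hx k c a)
  have hc : db j (fun y => db k (D.b a) y) x = db k (fun y => db j (D.b a) y) x :=
    dbv_comm ((h.cb hU hx a).of_le (WithTop.coe_le_coe.2 le_top)) _ _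
  have r0 := h.curv' hU hx j k 0 a
  have r1 := h.curv' hU hx j k 1 a
  rw [key j k, key k j, hc]
  simp only [db_b, Fin.sum_univ_two] at r0 r1 ⊢
  linear_combination (D.b 0 x) * r0 + (D.b 1 x) * r1

/-- the defining equation of `Φ` for all pairs -/
lemma star' (j k : Fin 4) (a : Fin 2) :
    - wd (Pi.single a 1) (fun c => db j (D.Ga k c) x + D.Ga k c x * D.g j x
        - db k (D.Ga j c) x - D.Ga j c x * D.g k x)
      + wd (fun c => D.al j a c x) (fun c => D.Ga k c x)
      - wd (fun c => D.al k a c x) (fun c => D.Ga j c x) - (ep j k * D.ka a x) • (1 : A) =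
      (ep j k * D.s a x) • D.Ph x := by
  have h01 := h.star x hx a
  have case2 : ∀ j k : Fin 4, 2 ≤ k → - wd (Pi.single a 1) (fun c => db j (D.Ga k c) x +
        D.Ga k c x * D.g j x - db k (D.Ga j c) x - D.Ga j c x * D.g k x)
      + wd (fun c => D.al j a c x) (fun c => D.Ga k c x)
      - wd (fun c => D.al k a c x) (fun c => D.Ga j c x) = 0 := by
    intro j k hk
    simp [wd, h.db_Ga2 hU hx k j hk, h.hol_Ga x hx k hk, h.Ga2 x hx k hk, h.g2 x hx k hk,
      h.al2 x hx k hk]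
  have hep : ∀ j k : Fin 4, 2 ≤ k → ep j k = 0 := by
    intro j k hk
    rw [ep, if_neg, if_neg] <;> rintro ⟨-, rfl⟩ <;> exact absurd hk (by decide)
  have hep' : ∀ j k : Fin 4, 2 ≤ j → ep j k = 0 := by
    intro j k hk
    rw [ep, if_neg, if_neg] <;> rintro ⟨rfl, -⟩ <;> exact absurd hk (by decide)
  by_cases hk : 2 ≤ k
  · rw [case2 j k hk, hep j k hk]; simp
  by_cases hj : 2 ≤ j
  · have := case2 k j hj
    rw [hep' j k hj]
    simp only [wd, zero_mul, zero_smul, sub_zero] at this ⊢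
    linear_combination (norm := module) - this
  have hj' : j = 0 ∨ j = 1 := by omega
  have hk' : k = 0 ∨ k = 1 := by omega
  rcases hj' with rfl | rfl <;> rcases hk' with rfl | rfl
  · simp [ep, wd]
  · have e1 : ep 0 1 = 1 := by simp [ep]
    rw [e1, one_mul, one_mul]
    exact h01
  · have e1 : ep 1 0 = -1 := by simp [ep]
    rw [e1]
    simp only [wd] at h01 ⊢
    linear_combination (norm := module) - h01
  · simp [ep, wd]

end Rel

end KData

end

end Vale.Agent.P267.H315
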