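import Vale.Agent.P267.H315.KerCalc

/-!
# P267, RRK-ALG: the theorems `closed`, `exact`, `diag`
-/

open scoped ContDiff

noncomputable section

namespace Vale.Agent.P267.H315

section
variable {A : Type*} [NormedRing A] [NormedAlgebra ℂ A]

lemma ep_of_two_le_right {j k : Fin 4} (hk : 2 ≤ k) : ep j k = 0 := by
  rw [ep, if_neg, if_neg] <;> rintro ⟨-, rfl⟩ <;> exact absurd hk (by decide)

lemma ep_of_two_le_left {j k : Fin 4} (hj : 2 ≤ j) : ep j k = 0 := by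
  rw [ep, if_neg, if_neg] <;> rintro ⟨rfl, -⟩ <;> exact absurd hj (by decide)

lemma db_wd {u : Fin 2 → VV → ℂ} {c : Fin 2 → VV → A} {x : VV} (i : Fin 4)
    (hu : ∀ a, DifferentiableAt ℝ (u a) x) (hc : ∀ a, DifferentiableAt ℝ (c a) x) :
    db i (fun y => wd (fun a => u a y) (fun a => c a y)) x =
      wd (fun a => db i (u a) x) (fun a => c a x) + wd (fun a => u a x) (fun a => db i (c a) x) := by
  simp only [wd, db]
  rw [dbv_sub ((hu 0).fun_smul (hc 1)) ((hu 1).fun_smul (hc 0)), dbv_smul (hu 0) (hc 1),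
    dbv_smul (hu 1) (hc 0)]
  abel

lemma db_wc {u v : Fin 2 → VV → ℂ} {x : VV} (i : Fin 4)
    (hu : ∀ a, DifferentiableAt ℝ (u a) x) (hv : ∀ a, DifferentiableAt ℝ (v a) x) :
    db i (fun y => wc (fun a => u a y) (fun a => v a y)) x =
      wc (fun a => db i (u a) x) (fun a => v a x) + wc (fun a => u a x) (fun a => db i (v a) x) := by
  simp only [wc, db]
  rw [dbv_sub ((hu 0).fun_mul (hv 1)) ((hu 1).fun_mul (hv 0)), dbv_mul (hu 0) (hv 1),
    dbv_mul (hu 1) (hv 0)]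
  ring

lemma db_smul' {u : VV → ℂ} {c : VV → A} {x : VV} (i : Fin 4)
    (hu : DifferentiableAt ℝ u x) (hc : DifferentiableAt ℝ c x) :
    db i (fun y => u y • c y) x = db i u x • c x + u x • db i c x := dbv_smul hu hc

lemma db_smul_one {u : VV → ℂ} {x : VV} (i : Fin 4) (hu : DifferentiableAt ℝ u x) :
    db i (fun y => u y • (1 : A)) x = db i u x • (1 : A) := by
  have h := dbv_smul (v := dir i) hu (differentiableAt_const (𝕜 := ℝ) (1 : A))
  rw [dbv_const, smul_zero, add_zero] at h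
  exact h

lemma diff_wd {u : Fin 2 → VV → ℂ} {c : Fin 2 → VV → A} {x : VV}
    (hu : ∀ a, DifferentiableAt ℝ (u a) x) (hc : ∀ a, DifferentiableAt ℝ (c a) x) :
    DifferentiableAt ℝ (fun y => wd (fun a => u a y) (fun a => c a y)) x := by
  simp only [wd]
  exact ((hu 0).smul (hc 1)).sub ((hu 1).smul (hc 0))

lemma diff_wc {u v : Fin 2 → VV → ℂ} {x : VV}
    (hu : ∀ a, DifferentiableAt ℝ (u a) x) (hv : ∀ a, DifferentiableAt ℝ (v a) x) :
    DifferentiableAt ℝ (fun y => wc (fun a => u a y) (fun a => v a y)) x := by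
  simp only [wc]
  exact ((hu 0).mul (hv 1)).sub ((hu 1).mul (hv 0))

namespace KData

variable {D : KData A} {U : Set VV}

namespace Rel

variable (h : D.Rel U) (hU : IsOpen U) {x : VV} (hx : x ∈ U)

include h hU hx

lemma dP' (j k : Fin 4) : DifferentiableAt ℝ (D.P j k) x :=
  (h.dPh' hU hx).fun_const_smul (ep j k)

lemma dQ' (j k : Fin 4) : DifferentiableAt ℝ (D.Q j k) x := by
  have e1 : DifferentiableAt ℝ (fun y => D.b 0 y * D.ka 0 y + D.b 1 y * D.ka 1 y) x :=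
    ((h.db' hU hx 0).mul (h.dka' hU hx 0)).add ((h.db' hU hx 1).mul (h.dka' hU hx 1))
  have e3 : DifferentiableAt ℝ
      (fun y => ep j k * (D.b 0 y * D.ka 0 y + D.b 1 y * D.ka 1 y)) x := e1.const_mul _
  exact ((e3.smul_const (1 : A)).sub
    (diff_wd (fun a => h.dB' hU hx j a) (fun a => h.dGa' hU hx k a))).add
    (diff_wd (fun a => h.dB' hU hx k a) (fun a => h.dGa' hU hx j a))

lemma dN' (j k : Fin 4) : DifferentiableAt ℝ (D.N j k) x := by
  unfold N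
  exact diff_wc (fun a => h.dB' hU hx j a) (fun a => h.dB' hU hx k a)

lemma db_P (i j k : Fin 4) : db i (D.P j k) x = ep j k • db i D.Ph x := by
  have h1 := dbv_smul (v := dir i) (differentiableAt_const (𝕜 := ℝ) (ep j k)) (h.dPh' hU hx)
  rw [dbv_const, zero_smul, zero_add] at h1
  exact h1

lemma db_N (i j k : Fin 4) : db i (D.N j k) x =
    wc (fun a => db i (D.B j a) x) (fun a => D.B k a x) +
      wc (fun a => D.B j a x) (fun a => db i (D.B k a) x) :=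
  db_wc i (fun a => h.dB' hU hx j a) (fun a => h.dB' hU hx k a)

lemma db_Q (i j k : Fin 4) : db i (D.Q j k) x =
    (ep j k * ((db i (D.b 0) x * D.ka 0 x + D.b 0 x * db i (D.ka 0) x) +
      (db i (D.b 1) x * D.ka 1 x + D.b 1 x * db i (D.ka 1) x))) • (1 : A)
    - (wd (fun a => db i (D.B j a) x) (fun a => D.Ga k a x) +
        wd (fun a => D.B j a x) (fun a => db i (D.Ga k a) x))
    + (wd (fun a => db i (D.B k a) x) (fun a => D.Ga j a x) +
        wd (fun a => D.B k a x) (fun a => db i (D.Ga j a) x)) := by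
  have e1 : DifferentiableAt ℝ (fun y => D.b 0 y * D.ka 0 y + D.b 1 y * D.ka 1 y) x :=
    ((h.db' hU hx 0).mul (h.dka' hU hx 0)).add ((h.db' hU hx 1).mul (h.dka' hU hx 1))
  have e2 : db i (fun y => D.b 0 y * D.ka 0 y + D.b 1 y * D.ka 1 y) x =
      (db i (D.b 0) x * D.ka 0 x + D.b 0 x * db i (D.ka 0) x) +
      (db i (D.b 1) x * D.ka 1 x + D.b 1 x * db i (D.ka 1) x) := by
    rw [db, dbv_add ((h.db' hU hx 0).fun_mul (h.dka' hU hx 0))
      ((h.db' hU hx 1).fun_mul (h.dka' hU hx 1)),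
      dbv_mul (h.db' hU hx 0) (h.dka' hU hx 0), dbv_mul (h.db' hU hx 1) (h.dka' hU hx 1)]
    rfl
  have e3 : DifferentiableAt ℝ
      (fun y => ep j k * (D.b 0 y * D.ka 0 y + D.b 1 y * D.ka 1 y)) x := e1.const_mul _
  have e4 : db i (fun y => ep j k * (D.b 0 y * D.ka 0 y + D.b 1 y * D.ka 1 y)) x =
      ep j k * db i (fun y => D.b 0 y * D.ka 0 y + D.b 1 y * D.ka 1 y) x := by
    have h1 := dbv_mul (v := dir i) (differentiableAt_const (𝕜 := ℝ) (ep j k)) e1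
    rw [dbv_const, zero_mul, zero_add] at h1
    exact h1
  have e5 : DifferentiableAt ℝ
      (fun y => (ep j k * (D.b 0 y * D.ka 0 y + D.b 1 y * D.ka 1 y)) • (1 : A)) x :=
    e3.smul (differentiableAt_const _)
  have w1 : DifferentiableAt ℝ (fun y => wd (fun a => D.B j a y) (fun a => D.Ga k a y)) x :=
    diff_wd (fun a => h.dB' hU hx j a) (fun a => h.dGa' hU hx k a)
  have w2 : DifferentiableAt ℝ (fun y => wd (fun a => D.B k a y) (fun a => D.Ga j a y)) x :=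
    diff_wd (fun a => h.dB' hU hx k a) (fun a => h.dGa' hU hx j a)
  have e6 : db i (D.Q j k) x =
      db i (fun y => (ep j k * (D.b 0 y * D.ka 0 y + D.b 1 y * D.ka 1 y)) • (1 : A)) x
      - db i (fun y => wd (fun a => D.B j a y) (fun a => D.Ga k a y)) x
      + db i (fun y => wd (fun a => D.B k a y) (fun a => D.Ga j a y)) x := by
    have a1 := dbv_add (v := dir i) (e5.sub w1) w2
    have a2 := dbv_sub (v := dir i) e5 w1
    exact a1.trans (congrArg (· + _) a2)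
  rw [e6, db_smul_one i e3, e4, e2,
    db_wd i (fun a => h.dB' hU hx j a) (fun a => h.dGa' hU hx k a),
    db_wd i (fun a => h.dB' hU hx k a) (fun a => h.dGa' hU hx j a)]

lemma db_T {F0 F1 F2 : VV → ℂ} {F3 : ℂ} (h0 : DifferentiableAt ℝ F0 x)
    (h1 : DifferentiableAt ℝ F1 x) (h2 : DifferentiableAt ℝ F2 x)
    (d0 : ∀ i, db i F0 x = F1 x * db i D.rr x) (d1 : ∀ i, db i F1 x = F2 x * db i D.rr x)
    (d2 : ∀ i, db i F2 x = F3 * db i D.rr x) (i j k : Fin 4) :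
    db i (D.T F0 F1 F2 j k) x = F0 x • db i (D.P j k) x
      + F1 x • (db i D.rr x • D.P j k x + db i (D.Q j k) x)
      + F2 x • (db i D.rr x • D.Q j k x - db i (D.N j k) x • (1 : A))
      - F3 • ((db i D.rr x * D.N j k x) • (1 : A)) := by
  have a1 : DifferentiableAt ℝ (fun y => F0 y • D.P j k y) x := h0.smul (h.dP' hU hx j k)
  have a2 : DifferentiableAt ℝ (fun y => F1 y • D.Q j k y) x := h1.smul (h.dQ' hU hx j k)
  have a3 : DifferentiableAt ℝ (fun y => F2 y * D.N j k y) x := h2.mul (h.dN' hU hx j k)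
  have a4 : DifferentiableAt ℝ (fun y => (F2 y * D.N j k y) • (1 : A)) x :=
    a3.smul (differentiableAt_const _)
  have e6 : db i (D.T F0 F1 F2 j k) x =
      db i (fun y => F0 y • D.P j k y) x + db i (fun y => F1 y • D.Q j k y) x
      - db i (fun y => (F2 y * D.N j k y) • (1 : A)) x := by
    have b1 := dbv_sub (v := dir i) (a1.add a2) a4
    have b2 := dbv_add (v := dir i) a1 a2
    exact b1.trans (congrArg (· - _) b2)
  have e7 : db i (fun y => F2 y * D.N j k y) x = db i F2 x * D.N j k x + F2 x * db i (D.N j k) x :=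
    dbv_mul h2 (h.dN' hU hx j k)
  rw [e6, db_smul_one i a3, db_smul' i h0 (h.dP' hU hx j k), db_smul' i h1 (h.dQ' hU hx j k), e7,
    d0, d1, d2]
  module

lemma dT' {F0 F1 F2 : VV → ℂ} (h0 : DifferentiableAt ℝ F0 x)
    (h1 : DifferentiableAt ℝ F1 x) (h2 : DifferentiableAt ℝ F2 x) (j k : Fin 4) :
    DifferentiableAt ℝ (D.T F0 F1 F2 j k) x := by
  unfold T
  exact ((h0.smul (h.dP' hU hx j k)).add (h1.smul (h.dQ' hU hx j k))).sub
    ((h2.mul (h.dN' hU hx j k)).smul (differentiableAt_const _))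

lemma db_S {F0 F1 F2 : VV → ℂ} (h0 : DifferentiableAt ℝ F0 x)
    (h1 : DifferentiableAt ℝ F1 x) (h2 : DifferentiableAt ℝ F2 x) (i j k : Fin 4) :
    db i (D.S F0 F1 F2 j k) x =
      (db i (D.T F0 F1 F2 j k) x + D.T F0 F1 F2 j k x * D.g i x) * D.m x := by
  have e : db i (D.S F0 F1 F2 j k) x =
      db i (D.T F0 F1 F2 j k) x * D.m x + D.T F0 F1 F2 j k x * db i D.m x :=
    dbv_mul (h.dT' hU hx h0 h1 h2 j k) (h.dm' hU hx)
  rw [e, h.dm x hx]
  simp only [add_mul, mul_assoc]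

omit hU in
/-- `∂̄_k b = B_k` for `k ≥ 2` -/
lemma db_b2 {k : Fin 4} (hk : 2 ≤ k) (a : Fin 2) : db k (D.b a) x = D.B k a x := by
  rw [B]; simp [h.al2 x hx k hk]

/-- the case `(0,1,k)` -/
lemma closed01 {F0 F1 F2 : VV → ℂ} {F3 : ℂ} (h0 : DifferentiableAt ℝ F0 x)
    (h1 : DifferentiableAt ℝ F1 x) (h2 : DifferentiableAt ℝ F2 x)
    (d0 : ∀ i, db i F0 x = F1 x * db i D.rr x) (d1 : ∀ i, db i F1 x = F2 x * db i D.rr x)
    (d2 : ∀ i, db i F2 x = F3 * db i D.rr x) {k : Fin 4} (hk : 2 ≤ k) :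
    db 0 (D.S F0 F1 F2 1 k) x - db 1 (D.S F0 F1 F2 0 k) x + db k (D.S F0 F1 F2 0 1) x = 0 := by
  rw [h.db_S hU hx h0 h1 h2, h.db_S hU hx h0 h1 h2, h.db_S hU hx h0 h1 h2, ← sub_mul, ← add_mul]
  have e01 : ep 0 1 = 1 := by simp [ep]
  have B0 (a : Fin 2) : db 0 (D.B k a) x = db k (D.B 0 a) x - ∑ c, D.B k c x * D.al 0 c a x := by
    rw [h.db_B hU hx 0 k a]; simp [h.al2 x hx k hk, ep_of_two_le_right hk]
  have B1 (a : Fin 2) : db 1 (D.B k a) x = db k (D.B 1 a) x - ∑ c, D.B k c x * D.al 1 c a x := by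
    rw [h.db_B hU hx 1 k a]; simp [h.al2 x hx k hk, ep_of_two_le_right hk]
  have B01 (a : Fin 2) := h.db_B hU hx 0 1 a
  simp only [e01, one_mul] at B01
  have A1 := alg1 (Bk := fun a => D.B k a x) (D0Bk := fun a => db 0 (D.B k a) x)
    (D1Bk := fun a => db 1 (D.B k a) x) (DkB0 := fun a => db k (D.B 0 a) x)
    (DkB1 := fun a => db k (D.B 1 a) x) (s := fun a => D.s a x) (ka := fun a => D.ka a x)
    (al0 := fun a c => D.al 0 a c x) (al1 := fun a c => D.al 1 a c x)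
    (Ga0 := fun a => D.Ga 0 a x) (Ga1 := fun a => D.Ga 1 a x)
    (DGa01 := fun a => db 0 (D.Ga 1 a) x) (DGa10 := fun a => db 1 (D.Ga 0 a) x)
    (g0 := D.g 0 x) (g1 := D.g 1 x) (Ph := D.Ph x) B0 B1 (h.star x hx)
  have A2 := alg2 (A := A) (B0 := fun a => D.B 0 a x) (B1 := fun a => D.B 1 a x)
    (Bk := fun a => D.B k a x) (D0Bk := fun a => db 0 (D.B k a) x)
    (D1Bk := fun a => db 1 (D.B k a) x) (DkB0 := fun a => db k (D.B 0 a) x)
    (DkB1 := fun a => db k (D.B 1 a) x) (D0B1 := fun a => db 0 (D.B 1 a) x)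
    (D1B0 := fun a => db 1 (D.B 0 a) x) (s := fun a => D.s a x) (ka := fun a => D.ka a x)
    (b := fun a => D.b a x) (al0 := fun a c => D.al 0 a c x) (al1 := fun a c => D.al 1 a c x)
    (Ga0 := fun a => D.Ga 0 a x) (Ga1 := fun a => D.Ga 1 a x)
    (g0 := D.g 0 x) (g1 := D.g 1 x) B0 B1 B01 (h.ga x hx 0) (h.ga x hx 1)
  have A3 := alg3 (fun a => D.B 0 a x) (fun a => D.B 1 a x) (fun a => D.B k a x) (fun a => D.s a x)
  convert zero_mul (D.m x)
  rw [h.db_T hU hx h0 h1 h2 d0 d1 d2, h.db_T hU hx h0 h1 h2 d0 d1 d2,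
    h.db_T hU hx h0 h1 h2 d0 d1 d2, h.db_P hU hx, h.db_P hU hx, h.db_P hU hx, h.hol_Ph x hx k hk,
    h.db_Q hU hx, h.db_Q hU hx, h.db_Q hU hx, h.db_N hU hx, h.db_N hU hx, h.db_N hU hx]
  simp only [T, P, Q, N, ep_of_two_le_right hk, e01, h.g2 x hx k hk, h.Ga2 x hx k hk,
    h.db_Ga2 hU hx k _ hk, h.hol_Ga x hx k hk, h.hol_ka x hx k hk, h.db_b2 hx hk,
    h.db_rr hU hx] at A1 A2 A3 ⊢
  have A3' := congrArg (fun y => (F3 * y) • (1 : A)) A3
  simp only [mul_zero, zero_smul] at A3'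
  simp only [wd, mul_zero, zero_smul, smul_zero, add_zero, zero_add, sub_zero,
    zero_mul, one_mul, one_smul, sub_mul, add_mul, smul_mul_assoc] at A1 A2 A3' ⊢
  linear_combination (norm := module) F1 x • A1 + F2 x • A2 - A3'

/-- the case `(j,2,3)` -/
lemma closed23 {F0 F1 F2 : VV → ℂ} {F3 : ℂ} (h0 : DifferentiableAt ℝ F0 x)
    (h1 : DifferentiableAt ℝ F1 x) (h2 : DifferentiableAt ℝ F2 x)
    (d0 : ∀ i, db i F0 x = F1 x * db i D.rr x) (d1 : ∀ i, db i F1 x = F2 x * db i D.rr x)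
    (d2 : ∀ i, db i F2 x = F3 * db i D.rr x) (j : Fin 4) :
    db j (D.S F0 F1 F2 2 3) x - db 2 (D.S F0 F1 F2 j 3) x + db 3 (D.S F0 F1 F2 j 2) x = 0 := by
  rw [h.db_S hU hx h0 h1 h2, h.db_S hU hx h0 h1 h2, h.db_S hU hx h0 h1 h2, ← sub_mul, ← add_mul]
  have l2 : (2 : Fin 4) ≤ 2 := le_refl _
  have l3 : (2 : Fin 4) ≤ 3 := by decide
  have B2 (a : Fin 2) : db j (D.B 2 a) x = db 2 (D.B j a) x - ∑ c, D.B 2 c x * D.al j c a x := by
    rw [h.db_B hU hx j 2 a]; simp [h.al2 x hx 2 l2, ep_of_two_le_right l2]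
  have B3 (a : Fin 2) : db j (D.B 3 a) x = db 3 (D.B j a) x - ∑ c, D.B 3 c x * D.al j c a x := by
    rw [h.db_B hU hx j 3 a]; simp [h.al2 x hx 3 l3, ep_of_two_le_right l3]
  have B23 (a : Fin 2) : db 2 (D.B 3 a) x = db 3 (D.B 2 a) x := by
    rw [h.db_B hU hx 2 3 a]; simp [h.al2 x hx 3 l3, h.al2 x hx 2 l2, ep_of_two_le_right l3]
  have A2 := alg2' (A := A) (Bj := fun a => D.B j a x) (B2 := fun a => D.B 2 a x)
    (B3 := fun a => D.B 3 a x) (DjB2 := fun a => db j (D.B 2 a) x)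
    (DjB3 := fun a => db j (D.B 3 a) x) (D2Bj := fun a => db 2 (D.B j a) x)
    (D3Bj := fun a => db 3 (D.B j a) x) (D2B3 := fun a => db 2 (D.B 3 a) x)
    (D3B2 := fun a => db 3 (D.B 2 a) x) (s := fun a => D.s a x)
    (alj := fun a c => D.al j a c x) (Gaj := fun a => D.Ga j a x) (gj := D.g j x)
    B2 B3 B23 (h.ga x hx j)
  have A3 := alg3 (fun a => D.B j a x) (fun a => D.B 2 a x) (fun a => D.B 3 a x) (fun a => D.s a x)
  convert zero_mul (D.m x)
  rw [h.db_T hU hx h0 h1 h2 d0 d1 d2, h.db_T hU hx h0 h1 h2 d0 d1 d2,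
    h.db_T hU hx h0 h1 h2 d0 d1 d2, h.db_P hU hx, h.db_P hU hx, h.db_P hU hx,
    h.db_Q hU hx, h.db_Q hU hx, h.db_Q hU hx, h.db_N hU hx, h.db_N hU hx, h.db_N hU hx]
  simp only [T, P, Q, N, ep_of_two_le_right l2, ep_of_two_le_right l3, h.g2 x hx 2 l2,
    h.g2 x hx 3 l3, h.Ga2 x hx 2 l2, h.Ga2 x hx 3 l3, h.db_Ga2 hU hx 2 _ l2,
    h.db_Ga2 hU hx 3 _ l3, h.hol_Ga x hx 2 l2, h.hol_Ga x hx 3 l3, h.db_rr hU hx, B23] at A2 A3 ⊢
  have A3' := congrArg (fun y => (F3 * y) • (1 : A)) A3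
  simp only [mul_zero, zero_smul] at A3'
  simp only [wd, mul_zero, zero_smul, smul_zero, add_zero, zero_add, sub_zero,
    zero_mul, one_mul, sub_mul, add_mul, smul_mul_assoc] at A2 A3' ⊢
  linear_combination (norm := module) F2 x • A2 - A3'

/-- **CLOSED**: `∂̄ S = 0`. -/
theorem closed {F0 F1 F2 : VV → ℂ} {F3 : ℂ} (h0 : DifferentiableAt ℝ F0 x)
    (h1 : DifferentiableAt ℝ F1 x) (h2 : DifferentiableAt ℝ F2 x)
    (d0 : ∀ i, db i F0 x = F1 x * db i D.rr x) (d1 : ∀ i, db i F1 x = F2 x * db i D.rr x)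
    (d2 : ∀ i, db i F2 x = F3 * db i D.rr x) (i j k : Fin 4) (hij : i < j) (hjk : j < k) :
    db i (D.S F0 F1 F2 j k) x - db j (D.S F0 F1 F2 i k) x + db k (D.S F0 F1 F2 i j) x = 0 := by
  have c : (i = 0 ∧ j = 1 ∧ 2 ≤ k) ∨ (i < 2 ∧ j = 2 ∧ k = 3) := by omega
  rcases c with ⟨rfl, rfl, hk⟩ | ⟨-, rfl, rfl⟩
  · exact h.closed01 hU hx h0 h1 h2 d0 d1 d2 hk
  · exact h.closed23 hU hx h0 h1 h2 d0 d1 d2 i

lemma dL' {H0 H1 : VV → ℂ} (h0 : DifferentiableAt ℝ H0 x) (h1 : DifferentiableAt ℝ H1 x)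
    (j : Fin 4) : DifferentiableAt ℝ (D.L H0 H1 j) x :=
  (h0.smul (diff_wd (fun a => h.db' hU hx a) (fun a => h.dGa' hU hx j a))).neg.sub
    ((h1.mul (diff_wc (fun a => h.db' hU hx a) (fun a => h.dB' hU hx j a))).smul_const (1 : A))

lemma db_L {H0 H1 : VV → ℂ} {H2 : ℂ} (h0 : DifferentiableAt ℝ H0 x) (h1 : DifferentiableAt ℝ H1 x)
    (d0 : ∀ i, db i H0 x = H1 x * db i D.rr x) (d1 : ∀ i, db i H1 x = H2 * db i D.rr x)
    (i j : Fin 4) :
    db i (D.L H0 H1 j) x =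
      -((H1 x * db i D.rr x) • wd (fun a => D.b a x) (fun a => D.Ga j a x))
      - H0 x • (wd (fun a => db i (D.b a) x) (fun a => D.Ga j a x) +
          wd (fun a => D.b a x) (fun a => db i (D.Ga j a) x))
      - (H2 * db i D.rr x * wc (fun a => D.b a x) (fun a => D.B j a x) +
          H1 x * (wc (fun a => db i (D.b a) x) (fun a => D.B j a x) +
            wc (fun a => D.b a x) (fun a => db i (D.B j a) x))) • (1 : A) := by
  have w1 : DifferentiableAt ℝ (fun y => wd (fun a => D.b a y) (fun a => D.Ga j a y)) x :=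
    diff_wd (fun a => h.db' hU hx a) (fun a => h.dGa' hU hx j a)
  have w2 : DifferentiableAt ℝ (fun y => wc (fun a => D.b a y) (fun a => D.B j a y)) x :=
    diff_wc (fun a => h.db' hU hx a) (fun a => h.dB' hU hx j a)
  have a1 : DifferentiableAt ℝ (fun y => H0 y • wd (fun a => D.b a y) (fun a => D.Ga j a y)) x :=
    h0.smul w1
  have a2 : DifferentiableAt ℝ (fun y => H1 y * wc (fun a => D.b a y) (fun a => D.B j a y)) x :=
    h1.mul w2
  have a3 : DifferentiableAt ℝ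
      (fun y => (H1 y * wc (fun a => D.b a y) (fun a => D.B j a y)) • (1 : A)) x := a2.smul_const _
  have e1 : db i (D.L H0 H1 j) x =
      - db i (fun y => H0 y • wd (fun a => D.b a y) (fun a => D.Ga j a y)) x
      - db i (fun y => (H1 y * wc (fun a => D.b a y) (fun a => D.B j a y)) • (1 : A)) x := by
    have b1 := dbv_sub (v := dir i) a1.neg a3
    exact b1.trans (congrArg (· - _) dbv_neg)
  have e2 : db i (fun y => H1 y * wc (fun a => D.b a y) (fun a => D.B j a y)) x =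
      db i H1 x * wc (fun a => D.b a x) (fun a => D.B j a x) +
      H1 x * db i (fun y => wc (fun a => D.b a y) (fun a => D.B j a y)) x := dbv_mul h1 w2
  rw [e1, db_smul_one i a2, db_smul' i h0 w1, e2,
    db_wd i (fun a => h.db' hU hx a) (fun a => h.dGa' hU hx j a),
    db_wc i (fun a => h.db' hU hx a) (fun a => h.dB' hU hx j a), d0, d1]
  module

lemma db_K {H0 H1 : VV → ℂ} (h0 : DifferentiableAt ℝ H0 x) (h1 : DifferentiableAt ℝ H1 x)
    (i j : Fin 4) :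
    db i (D.K H0 H1 j) x = (db i (D.L H0 H1 j) x + D.L H0 H1 j x * D.g i x) * D.m x := by
  have e : db i (D.K H0 H1 j) x =
      db i (D.L H0 H1 j) x * D.m x + D.L H0 H1 j x * db i D.m x :=
    dbv_mul (h.dL' hU hx h0 h1 j) (h.dm' hU hx)
  rw [e, h.dm x hx]
  simp only [add_mul, mul_assoc]

/-- **EXACT**: `S(f) - S(g) = ∂̄ K(h)` where `f - g = x h(x)`. Here `H0 = h(rr)`, `H1 = h'(rr)`,
`H2 = h''(rr)`, and `G0, G1, G2` are the values of `f - g`, `f' - g'`, `f'' - g''` at `rr`. -/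
theorem exact {H0 H1 : VV → ℂ} {H2 : ℂ} (h0 : DifferentiableAt ℝ H0 x)
    (h1 : DifferentiableAt ℝ H1 x)
    (d0 : ∀ i, db i H0 x = H1 x * db i D.rr x) (d1 : ∀ i, db i H1 x = H2 * db i D.rr x)
    {G0 G1 G2 : VV → ℂ} (g0 : G0 x = D.rr x * H0 x) (g1 : G1 x = H0 x + D.rr x * H1 x)
    (g2 : G2 x = 2 * H1 x + D.rr x * H2) (i j : Fin 4) :
    db i (D.K H0 H1 j) x - db j (D.K H0 H1 i) x = D.S G0 G1 G2 i j x := by
  rw [h.db_K hU hx h0 h1, h.db_K hU hx h0 h1, ← sub_mul, S]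
  congr 1
  rw [h.db_L hU hx h0 h1 d0 d1, h.db_L hU hx h0 h1 d0 d1]
  have AK := algK (A := A) (Bi := fun a => D.B i a x) (Bj := fun a => D.B j a x)
    (DiBj := fun a => db i (D.B j a) x) (DjBi := fun a => db j (D.B i a) x)
    (s := fun a => D.s a x) (ka := fun a => D.ka a x) (b := fun a => D.b a x)
    (ali := fun a c => D.al i a c x) (alj := fun a c => D.al j a c x)
    (Gai := fun a => D.Ga i a x) (Gaj := fun a => D.Ga j a x)
    (DGaij := fun a => db i (D.Ga j a) x) (DGaji := fun a => db j (D.Ga i a) x)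
    (gi := D.g i x) (gj := D.g j x) (Ph := D.Ph x) (e := ep i j) (H0 := H0 x) (H1 := H1 x)
    (H2 := H2) (fun a => h.db_B hU hx i j a) (h.ga x hx i) (h.ga x hx j)
    (fun a => h.star' hU hx i j a)
  simp only [T, P, Q, N, L, g0, g1, g2, h.db_rr hU hx, db_b, rr] at AK ⊢
  rw [← AK]
  simp only [sub_mul, neg_mul, smul_mul_assoc, one_mul]
  abel

omit h hU hx in
/-- On the diagonal. -/
theorem diag (F0 F1 F2 : VV → ℂ) (x : VV) (hb : ∀ a, D.b a x = 0)
    (B0 : ∀ a, D.B 2 a x = - D.B 0 a x) (B1 : ∀ a, D.B 3 a x = - D.B 1 a x)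
    (G2 : ∀ a, D.Ga 2 a x = 0) (G3 : ∀ a, D.Ga 3 a x = 0) :
    D.S F0 F1 F2 0 1 x + D.S F0 F1 F2 0 3 x - D.S F0 F1 F2 1 2 x + D.S F0 F1 F2 2 3 x =
      F0 x • (D.Ph x * D.m x) := by
  have e01 : ep 0 1 = 1 := by simp [ep]
  have e03 : ep 0 3 = 0 := by simp [ep]
  have e12 : ep 1 2 = 0 := by simp [ep]
  have e23 : ep 2 3 = 0 := by simp [ep]
  have : D.T F0 F1 F2 0 1 x + D.T F0 F1 F2 0 3 x - D.T F0 F1 F2 1 2 x + D.T F0 F1 F2 2 3 x =
      F0 x • D.Ph x := by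
    simp only [T, P, Q, N, wd, wc, e01, e03, e12, e23, hb, B0, B1, G2, G3]
    module
  simp only [S]
  rw [← add_mul, ← sub_mul, ← add_mul, this, smul_mul_assoc]

end Rel

end KData

end

end Vale.Agent.P267.H315
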