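import Vale.Agent.P267.H315.KerThm

/-!
# P267, RRK-ALG: the kernels `S(f)`, `K(h)` for functions `f, h : ℝ → ℂ` of the real function `rr`
-/

open scoped ContDiff

noncomputable section

namespace Vale.Agent.P267.H315

section
variable {A : Type*} [NormedRing A] [NormedAlgebra ℂ A]

/-- chain rule for `f ∘ re ∘ r` where `r` is real valued near `x` -/
lemma db_comp_re {r : VV → ℂ} {x : VV} (hr : DifferentiableAt ℝ r x)
    (him : ∀ᶠ y in nhds x, (r y).im = 0) {f : ℝ → ℂ} (hf : DifferentiableAt ℝ f (r x).re)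
    (i : Fin 4) : db i (fun y => f (r y).re) x = deriv f (r x).re * db i r x := by
  have h1 : HasFDerivAt (fun y => (r y).re) (Complex.reCLM.comp (fderiv ℝ r x)) x :=
    Complex.reCLM.hasFDerivAt.comp x hr.hasFDerivAt
  have h2 : HasFDerivAt (fun y => (r y).im) (Complex.imCLM.comp (fderiv ℝ r x)) x :=
    Complex.imCLM.hasFDerivAt.comp x hr.hasFDerivAt
  have h3 : HasFDerivAt (fun y => (r y).im) (0 : VV →L[ℝ] ℝ) x := by
    have : (fun y => (r y).im) =ᶠ[nhds x] fun _ => (0 : ℝ) := him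
    exact (hasFDerivAt_const (0 : ℝ) x).congr_of_eventuallyEq this
  have h4 (v : VV) : (fderiv ℝ r x v).im = 0 := by
    have := congrArg (fun L => L v) (h2.unique h3)
    simpa using this
  have h5 (v : VV) : (((fderiv ℝ r x v).re : ℝ) : ℂ) = fderiv ℝ r x v := by
    apply Complex.ext <;> simp [h4 v]
  have h6 : fderiv ℝ (fun y => f (r y).re) x =
      (fderiv ℝ f (r x).re).comp (Complex.reCLM.comp (fderiv ℝ r x)) :=
    (hf.hasFDerivAt.comp x h1).fderiv
  have h7 (v : VV) : fderiv ℝ (fun y => f (r y).re) x v = deriv f (r x).re * fderiv ℝ r x v := by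
    rw [h6]
    change fderiv ℝ f (r x).re ((fderiv ℝ r x v).re) = _
    rw [fderiv_eq_smul_deriv, ← h5 v]
    simp [mul_comm]
  rw [db, db, dbv, dbv, h7, h7]
  simp only [smul_eq_mul]
  ring

namespace KData

variable (D : KData A) {U : Set VV}

/-- `f(rr)` -/
def fr (f : ℝ → ℂ) (x : VV) : ℂ := f (D.rr x).re

/-- The kernel `S(f)`, component `jk`. -/
def Sf (f : ℝ → ℂ) (j k : Fin 4) (x : VV) : A :=
  D.S (D.fr f) (D.fr (deriv f)) (D.fr (deriv (deriv f))) j k x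

/-- The kernel `K(h)`, component `j`. -/
def Kf (f : ℝ → ℂ) (j : Fin 4) (x : VV) : A := D.K (D.fr f) (D.fr (deriv f)) j x

variable {D}

namespace Rel

variable (h : D.Rel U) (hU : IsOpen U) {x : VV} (hx : x ∈ U)

include h hU hx

lemma crr : ContDiffAt ℝ ∞ D.rr x :=
  ((h.cb hU hx 0).mul (h.cs hU hx 0)).add ((h.cb hU hx 1).mul (h.cs hU hx 1))

lemma cP (j k : Fin 4) : ContDiffAt ℝ ∞ (D.P j k) x := by
  have := (contDiffAt_const (c := ep j k)).smul (h.cPh hU hx)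
  exact this

lemma cwd (j k : Fin 4) :
    ContDiffAt ℝ ∞ (fun y => wd (fun a => D.B j a y) (fun a => D.Ga k a y)) x :=
  ((h.cB hU hx j 0).smul (h.cGa hU hx k 1)).sub ((h.cB hU hx j 1).smul (h.cGa hU hx k 0))

lemma cQ (j k : Fin 4) : ContDiffAt ℝ ∞ (D.Q j k) x := by
  have e1 : ContDiffAt ℝ ∞ (fun y => D.b 0 y * D.ka 0 y + D.b 1 y * D.ka 1 y) x :=
    ((h.cb hU hx 0).mul (h.cka hU hx 0)).add ((h.cb hU hx 1).mul (h.cka hU hx 1))
  have e3 : ContDiffAt ℝ ∞
      (fun y => ep j k * (D.b 0 y * D.ka 0 y + D.b 1 y * D.ka 1 y)) x := contDiffAt_const.mul e1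
  exact ((e3.smul contDiffAt_const).sub (h.cwd hU hx j k)).add (h.cwd hU hx k j)

lemma cN (j k : Fin 4) : ContDiffAt ℝ ∞ (D.N j k) x :=
  ((h.cB hU hx j 0).mul (h.cB hU hx k 1)).sub ((h.cB hU hx j 1).mul (h.cB hU hx k 0))

lemma cS {F0 F1 F2 : VV → ℂ} (h0 : ContDiffAt ℝ ∞ F0 x) (h1 : ContDiffAt ℝ ∞ F1 x)
    (h2 : ContDiffAt ℝ ∞ F2 x) (j k : Fin 4) : ContDiffAt ℝ ∞ (D.S F0 F1 F2 j k) x := by
  have e : ContDiffAt ℝ ∞ (D.T F0 F1 F2 j k) x :=
    ((h0.smul (h.cP hU hx j k)).add (h1.smul (h.cQ hU hx j k))).sub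
      ((h2.mul (h.cN hU hx j k)).smul contDiffAt_const)
  exact e.mul (h.cm hU hx)

lemma cK {H0 H1 : VV → ℂ} (h0 : ContDiffAt ℝ ∞ H0 x) (h1 : ContDiffAt ℝ ∞ H1 x)
    (j : Fin 4) : ContDiffAt ℝ ∞ (D.K H0 H1 j) x := by
  have e1 : ContDiffAt ℝ ∞ (fun y => wd (fun a => D.b a y) (fun a => D.Ga j a y)) x :=
    ((h.cb hU hx 0).smul (h.cGa hU hx j 1)).sub ((h.cb hU hx 1).smul (h.cGa hU hx j 0))
  have e2 : ContDiffAt ℝ ∞ (fun y => wc (fun a => D.b a y) (fun a => D.B j a y)) x :=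
    ((h.cb hU hx 0).mul (h.cB hU hx j 1)).sub ((h.cb hU hx 1).mul (h.cB hU hx j 0))
  have e : ContDiffAt ℝ ∞ (D.L H0 H1 j) x :=
    (h0.smul e1).neg.sub ((h1.mul e2).smul contDiffAt_const)
  exact e.mul (h.cm hU hx)

lemma cfr {f : ℝ → ℂ} (hf : ContDiffAt ℝ ∞ f (D.rr x).re) : ContDiffAt ℝ ∞ (D.fr f) x := by
  have h1 : ContDiffAt ℝ ∞ (fun y => (D.rr y).re) x :=
    Complex.reCLM.contDiff.contDiffAt.comp x (h.crr hU hx)
  exact hf.comp x h1

omit h hU hx in
lemma _root_.ContDiffAt.deriv_infty {f : ℝ → ℂ} {t : ℝ} (hf : ContDiffAt ℝ ∞ f t) :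
    ContDiffAt ℝ ∞ (deriv f) t := by
  have h1 : ContDiffAt ℝ ∞ (fderiv ℝ f) t := hf.fderiv_right (m := ∞) (by simp)
  have h2 : ContDiffAt ℝ ∞ (fun y => fderiv ℝ f y 1) t := h1.clm_apply contDiffAt_const
  exact h2

lemma cSf {f : ℝ → ℂ} (hf : ContDiffAt ℝ ∞ f (D.rr x).re) (j k : Fin 4) :
    ContDiffAt ℝ ∞ (D.Sf f j k) x :=
  h.cS hU hx (h.cfr hU hx hf) (h.cfr hU hx hf.deriv_infty) (h.cfr hU hx hf.deriv_infty.deriv_infty)
    j k

lemma cKf {f : ℝ → ℂ} (hf : ContDiffAt ℝ ∞ f (D.rr x).re) (j : Fin 4) :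
    ContDiffAt ℝ ∞ (D.Kf f j) x :=
  h.cK hU hx (h.cfr hU hx hf) (h.cfr hU hx hf.deriv_infty) j

lemma db_fr (him : ∀ y ∈ U, (D.rr y).im = 0) {f : ℝ → ℂ}
    (hf : DifferentiableAt ℝ f (D.rr x).re) (i : Fin 4) :
    db i (D.fr f) x = D.fr (deriv f) x * db i D.rr x :=
  db_comp_re ((h.crr hU hx).differentiableAt (by simp))
    (by filter_upwards [hU.mem_nhds hx] with y hy using him y hy) hf i

/-- **CLOSED** for `S(f)`. -/
theorem closed_f (him : ∀ y ∈ U, (D.rr y).im = 0) {f : ℝ → ℂ}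
    (hf : ContDiffAt ℝ ∞ f (D.rr x).re) (i j k : Fin 4) (hij : i < j) (hjk : j < k) :
    db i (D.Sf f j k) x - db j (D.Sf f i k) x + db k (D.Sf f i j) x = 0 := by
  have hf1 := hf.deriv_infty
  have hf2 := hf1.deriv_infty
  exact h.closed hU hx ((h.cfr hU hx hf).differentiableAt (by simp))
    ((h.cfr hU hx hf1).differentiableAt (by simp))
    ((h.cfr hU hx hf2).differentiableAt (by simp))
    (h.db_fr hU hx him (hf.differentiableAt (by simp)))
    (h.db_fr hU hx him (hf1.differentiableAt (by simp)))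
    (h.db_fr hU hx him (hf2.differentiableAt (by simp))) i j k hij hjk

/-- **EXACT** for `S(f)`, where `f = x h(x)` near `rr x` (apply it to a difference `f - g`,
see `Sf_sub`). -/
theorem exact_f (him : ∀ y ∈ U, (D.rr y).im = 0) {f g : ℝ → ℂ}
    (hg : ContDiffAt ℝ ∞ g (D.rr x).re) (hfg : ∀ᶠ t in nhds (D.rr x).re, f t = t * g t)
    (i j : Fin 4) :
    db i (D.Kf g j) x - db j (D.Kf g i) x = D.Sf f i j x := by
  have hg1 := hg.deriv_infty
  have hrr : D.rr x = ((D.rr x).re : ℂ) := by apply Complex.ext <;> simp [him x hx]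
  have dg : ∀ᶠ t in nhds (D.rr x).re, DifferentiableAt ℝ g t ∧ DifferentiableAt ℝ (deriv g) t := by
    have h2 : ContDiffAt ℝ 2 g (D.rr x).re := hg.of_le (WithTop.coe_le_coe.2 le_top)
    have h1 : ContDiffAt ℝ 2 (deriv g) (D.rr x).re := hg1.of_le (WithTop.coe_le_coe.2 le_top)
    filter_upwards [h2.eventually (by simp), h1.eventually (by simp)] with t ht ht'
    exact ⟨ht.differentiableAt (by simp), ht'.differentiableAt (by simp)⟩
  have id1 (t : ℝ) : HasDerivAt (fun t : ℝ => (t : ℂ)) 1 t := Complex.ofRealCLM.hasDerivAt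
  have d1 : ∀ᶠ t in nhds (D.rr x).re, deriv f t = g t + t * deriv g t := by
    filter_upwards [hfg.eventually_nhds, dg] with t ht hdt
    have : f =ᶠ[nhds t] fun t => (t : ℂ) * g t := ht
    rw [this.deriv_eq]
    have := ((id1 t).mul hdt.1.hasDerivAt).deriv
    simp only [Pi.mul_def] at this
    rw [this]
    ring
  have d2 : deriv (deriv f) (D.rr x).re =
      2 * deriv g (D.rr x).re + (D.rr x).re * deriv (deriv g) (D.rr x).re := by
    have : deriv f =ᶠ[nhds (D.rr x).re] fun t => g t + (t : ℂ) * deriv g t := d1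
    rw [this.deriv_eq]
    have hd := dg.self_of_nhds
    have := (hd.1.hasDerivAt.add ((id1 (D.rr x).re).mul hd.2.hasDerivAt)).deriv
    simp only [Pi.add_def, Pi.mul_def] at this
    rw [this]
    ring
  refine h.exact hU hx (H2 := D.fr (deriv (deriv g)) x)
    ((h.cfr hU hx hg).differentiableAt (by simp))
    ((h.cfr hU hx hg1).differentiableAt (by simp))
    (h.db_fr hU hx him (hg.differentiableAt (by simp)))
    (h.db_fr hU hx him (hg1.differentiableAt (by simp))) ?_ ?_ ?_ i j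
  · rw [hrr, fr, fr, hfg.self_of_nhds]
  · rw [hrr, fr, fr, fr, d1.self_of_nhds]
  · rw [hrr, fr, fr, fr, d2]

omit h hU hx in
/-- `S` is linear in `(F0, F1, F2)`. -/
lemma S_sub (F0 F1 F2 G0 G1 G2 : VV → ℂ) (j k : Fin 4) (x : VV) :
    D.S (fun y => F0 y - G0 y) (fun y => F1 y - G1 y) (fun y => F2 y - G2 y) j k x =
      D.S F0 F1 F2 j k x - D.S G0 G1 G2 j k x := by
  simp only [S, ← sub_mul, T]
  congr 1
  module

omit h hU hx in
lemma Sf_sub {f g : ℝ → ℂ} (hf : ContDiffAt ℝ ∞ f (D.rr x).re)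
    (hg : ContDiffAt ℝ ∞ g (D.rr x).re) (j k : Fin 4) :
    D.Sf (fun t => f t - g t) j k x = D.Sf f j k x - D.Sf g j k x := by
  have dd : ∀ᶠ t in nhds (D.rr x).re, DifferentiableAt ℝ f t ∧ DifferentiableAt ℝ g t := by
    have h2 : ContDiffAt ℝ 2 f (D.rr x).re := hf.of_le (WithTop.coe_le_coe.2 le_top)
    have h1 : ContDiffAt ℝ 2 g (D.rr x).re := hg.of_le (WithTop.coe_le_coe.2 le_top)
    filter_upwards [h2.eventually (by simp), h1.eventually (by simp)] with t ht ht'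
    exact ⟨ht.differentiableAt (by simp), ht'.differentiableAt (by simp)⟩
  have e1 : deriv (fun t => f t - g t) =ᶠ[nhds (D.rr x).re] fun t => deriv f t - deriv g t := by
    filter_upwards [dd] with t ht
    exact deriv_fun_sub ht.1 ht.2
  have e2 : deriv (deriv (fun t => f t - g t)) (D.rr x).re =
      deriv (deriv f) (D.rr x).re - deriv (deriv g) (D.rr x).re := by
    rw [e1.deriv_eq]
    exact deriv_fun_sub (hf.deriv_infty.differentiableAt (by simp))
      (hg.deriv_infty.differentiableAt (by simp))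
  have e3 := e1.self_of_nhds
  rw [Sf, Sf, Sf, ← S_sub]
  simp only [S, T, fr, e2, e3]

omit h hU hx in
/-- if `b` vanishes on the diagonal, then `∂̄_{w} b = - ∂̄_{z} b` there. -/
lemma db_diag {f : VV → ℂ} {z : V} (hf : DifferentiableAt ℝ f (z, z))
    (h0 : ∀ᶠ y in nhds z, f (y, y) = 0) :
    db 2 f (z, z) = - db 0 f (z, z) ∧ db 3 f (z, z) = - db 1 f (z, z) := by
  have h1 : HasFDerivAt (fun y : V => f (y, y)) ((fderiv ℝ f (z, z)).comp
      ((ContinuousLinearMap.id ℝ V).prod (ContinuousLinearMap.id ℝ V))) z :=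
    HasFDerivAt.comp z (f := fun y : V => (y, y)) hf.hasFDerivAt
      ((hasFDerivAt_id z).prodMk (hasFDerivAt_id z))
  have h2 : HasFDerivAt (fun y : V => f (y, y)) (0 : V →L[ℝ] ℂ) z := by
    have : (fun y : V => f (y, y)) =ᶠ[nhds z] fun _ => (0 : ℂ) := h0
    exact (hasFDerivAt_const (0 : ℂ) z).congr_of_eventuallyEq this
  have h3 (v : V) : fderiv ℝ f (z, z) (v, v) = 0 := by
    have := congrArg (fun L => L v) (h1.unique h2)
    simpa using this
  have h4 (v : V) : fderiv ℝ f (z, z) (0, v) = - fderiv ℝ f (z, z) (v, 0) := by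
    have e : ((v, v) : VV) = (v, 0) + (0, v) := by simp
    have := h3 v
    rw [e, map_add] at this
    exact eq_neg_of_add_eq_zero_right this
  have e (v : V) : Complex.I • ((v, 0) : VV) = (Complex.I • v, 0) := by simp
  have e' (v : V) : Complex.I • ((0, v) : VV) = (0, Complex.I • v) := by simp
  constructor
  · change dbv ((0, Pi.single 0 1) : VV) f (z, z) = - dbv ((Pi.single 0 1, 0) : VV) f (z, z)
    rw [dbv, dbv, e, e', h4, h4]
    module
  · change dbv ((0, Pi.single 1 1) : VV) f (z, z) = - dbv ((Pi.single 1 1, 0) : VV) f (z, z)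
    rw [dbv, dbv, e, e', h4, h4]
    module

omit hx in
/-- **DIAG** for `S(f)`. -/
theorem diag_f {z : V} (hz : (z, z) ∈ U) (hb : ∀ᶠ y in nhds z, ∀ a, D.b a (y, y) = 0)
    (f : ℝ → ℂ) :
    D.Sf f 0 1 (z, z) + D.Sf f 0 3 (z, z) - D.Sf f 1 2 (z, z) + D.Sf f 2 3 (z, z) =
      f 0 • (D.Ph (z, z) * D.m (z, z)) := by
  have hb0 := hb.self_of_nhds
  have hrr : D.rr (z, z) = 0 := by simp [rr, hb0]
  have hB (j : Fin 4) (a : Fin 2) : D.B j a (z, z) = db j (D.b a) (z, z) := by simp [B, hb0]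
  have hd (a : Fin 2) := db_diag ((h.db' hU hz a)) (hb.mono fun y hy => hy a)
  have := diag (D := D) (D.fr f) (D.fr (deriv f)) (D.fr (deriv (deriv f))) (z, z) hb0
    (fun a => by rw [hB, hB, (hd a).1]) (fun a => by rw [hB, hB, (hd a).2])
    (h.Ga2 _ hz 2 (by decide)) (h.Ga2 _ hz 3 (by decide))
  rw [Sf, Sf, Sf, Sf, this, fr, hrr]
  simp

end Rel

end KData

end

end Vale.Agent.P267.H315
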