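import Vale.Agent.P267.H551.OutT

/-!
# P267, RRK-GLOB (B3): compatible local kernels near the diagonal give global operators

`NK S S' Q L κ` : kernels `κ c z w` for `z ∈ Q c` in each chart `c`, compatible under the changes of
charts. `NK.P` is the global operator with `(P u)_c(z) = ∫ κ c z w u_c(w) dw` for `z ∈ Q c`; for smooth
`κ` it is given by a `Kern`.
-/

set_option linter.unusedSectionVars false

open scoped Manifold ContDiff ComplexConjugate Matrix
open MeasureTheory Set Filter Topology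

noncomputable section

namespace Vale.Agent.P267.H315

open Vale.Agent.P267.FL Vale.Agent.P267.RR Vale.Agent.P267.H462 Vale.Agent.P267.H551

variable {X : Type*} [TopologicalSpace X] [ChartedSpace C2 X] {A : FinAt X}
  {Vf : Type} [NormedAddCommGroup Vf] [NormedSpace ℂ Vf]
  {W : Type} [NormedAddCommGroup W] [NormedSpace ℂ W]

/-- a compatible family of local kernels near the diagonal -/
structure NK (S : SB A Vf) (S' : SB A W) (Q L : Fin A.N → Set C2)
    (κ : Fin A.N → C2 → C2 → (Vf →L[ℂ] W)) : Prop where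
  open_Q : ∀ c, IsOpen (Q c)
  K_sub : ∀ c, A.K c ⊆ Q c
  Q_sub : ∀ c, Q c ⊆ A.O c
  cpt : ∀ c, IsCompact (L c)
  L_sub : ∀ c, L c ⊆ A.O c
  supp : ∀ c, ∀ z ∈ Q c, ∀ w, κ c z w ≠ 0 → w ∈ L c
  cmp : ∀ c c', ∀ z ∈ Q c, z ∈ A.ov c c' → A.tau c c' z ∈ Q c' → ∀ w ∈ A.ov c c', ∀ v,
    ((‖(A.J c c' w).det‖ ^ 2 : ℝ) : ℂ) • κ c' (A.tau c c' z) (A.tau c c' w) (S.T c c' w v) =
      S'.T c c' z (κ c z w v)
  cmp0 : ∀ c c', ∀ z ∈ Q c, z ∈ A.ov c c' → A.tau c c' z ∈ Q c' → ∀ w ∈ A.O c, w ∉ A.ov c c' →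
    κ c z w = 0
  int : ∀ c (u : C2 → Vf), ContDiffOn ℝ ∞ u (A.O c) → ∀ z ∈ Q c,
    Integrable fun w => κ c z w (u w)
  smooth : ∀ c (u : C2 → Vf), ContDiffOn ℝ ∞ u (A.O c) →
    ContDiffOn ℝ ∞ (fun z => ∫ w, κ c z w (u w)) (Q c)
  bound : ∀ c, ∃ B : ℝ, ∀ (u : C2 → Vf) (M : ℝ), ContDiffOn ℝ ∞ u (A.O c) →
    (∀ w ∈ L c, ‖u w‖ ≤ M) → ∀ z ∈ Q c, ‖∫ w, κ c z w (u w)‖ ≤ B * M

theorem r_contDiffOn (c : Fin A.N) : ContDiffOn ℝ ∞ (fun z => (A.r c z : ℂ)) (A.O c) := by
  have h1 : ContDiffOn ℝ ∞ (fun y => (A.rho c ((A.e c).symm y) : ℂ)) (A.O c) :=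
    (rho_contDiffOn c c).mono fun y hy => hy.1
  refine h1.congr fun w hw => ?_
  simp only [FinAt.r, if_pos hw]

theorem r_eq {c : Fin A.N} {z : C2} (hz : z ∈ A.O c) : A.r c z = A.rho c ((A.e c).symm z) := by
  simp only [FinAt.r, if_pos hz]

/-- sections which agree near the supports of the partition of unity are equal -/
theorem sec_ext_Q {S : SB A Vf} {Q : Fin A.N → Set C2} (hK : ∀ c, A.K c ⊆ Q c) {u v : S.Sec}
    (h : ∀ c, ∀ z ∈ Q c, z ∈ A.O c → u.1 c z = v.1 c z) : u = v := by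
  apply Subtype.ext
  funext a z
  by_cases hz : z ∈ A.O a
  · obtain ⟨b, hb⟩ := exists_chart A ((A.e a).symm z)
    have hab : z ∈ A.ov a b := ⟨hz, A.rho_supp b hb⟩
    have h1 : A.tau a b z ∈ A.K b := ⟨(A.e a).symm z, hb, rfl⟩
    have h2 := h b _ (hK b h1) (FinAt.tau_mem_O hab)
    have e1 := sec_compat u (FinAt.tau_mem hab)
    have e2 := sec_compat v (FinAt.tau_mem hab)
    rw [FinAt.tau_tau hab] at e1 e2
    rw [e1, e2, h2]
  · rw [sec_off u hz, sec_off v hz]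

namespace NK

variable {S : SB A Vf} {S' : SB A W} {Q L : Fin A.N → Set C2}
  {κ : Fin A.N → C2 → C2 → (Vf →L[ℂ] W)} (h : NK S S' Q L κ)

/-- the local operator, multiplied by the partition of unity -/
def loc (A : FinAt X) (κ : Fin A.N → C2 → C2 → (Vf →L[ℂ] W)) (c : Fin A.N) (u : C2 → Vf)
    (z : C2) : W := (A.r c z : ℂ) • IK (κ c) u z

include h

theorem loc_smooth [CompactSpace X] (c : Fin A.N) {u : C2 → Vf} (hu : ContDiffOn ℝ ∞ u (A.O c)) :
    ContDiff ℝ ∞ (loc A κ c u) := by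
  refine contDiff_of_supp (h.open_Q c) (isCompact_K c).isClosed (h.K_sub c) ?_ ?_
  · exact ((r_contDiffOn c).mono (h.Q_sub c)).smul (h.smooth c u hu)
  · intro z hz
    rw [loc, r_of_notMem hz, Complex.ofReal_zero, zero_smul]

omit h in
theorem loc_csupp [CompactSpace X] (c : Fin A.N) (u : C2 → Vf) : CSupp A c (loc A κ c u) :=
  ⟨A.K c, isCompact_K c, H462.K_sub c, fun z hz => by
    rw [loc, r_of_notMem hz, Complex.ofReal_zero, zero_smul]⟩

theorem loc_add (c : Fin A.N) {u v : C2 → Vf} (hu : ContDiffOn ℝ ∞ u (A.O c))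
    (hv : ContDiffOn ℝ ∞ v (A.O c)) (z : C2) :
    loc A κ c (u + v) z = loc A κ c u z + loc A κ c v z := by
  by_cases hz : z ∈ A.K c
  · have hz' := h.K_sub c hz
    rw [loc, loc, loc, ← smul_add]
    congr 1
    rw [IK, IK, IK, ← integral_add (h.int c u hu z hz') (h.int c v hv z hz')]
    congr 1
    funext w
    exact map_add _ _ _
  · simp [loc, r_of_notMem hz]

omit h in
theorem loc_smul (c : Fin A.N) (a : ℂ) (u : C2 → Vf) (z : C2) :
    loc A κ c (a • u) z = a • loc A κ c u z := by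
  rw [loc, loc, smul_comm a]
  congr 1
  rw [IK, IK, ← integral_smul]
  congr 1
  funext w
  exact map_smul _ _ _

variable [T2Space X] [IsManifold 𝓘(ℂ, C2) ω X] [FiniteDimensional ℂ W] [CompactSpace X]

/-- the part of the operator from the chart `c` -/
def Pc (c : Fin A.N) : S.Sec →ₗ[ℂ] S'.Sec where
  toFun u := ⟨extz S' c (loc A κ c (u.1 c)),
    extz_mem S' (h.loc_smooth c (sec_smooth u c)).contDiffOn (loc_csupp c _)⟩
  map_add' u v := by
    apply Subtype.ext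
    funext a z
    change extz S' c (loc A κ c (u.1 c + v.1 c)) a z =
      extz S' c (loc A κ c (u.1 c)) a z + extz S' c (loc A κ c (v.1 c)) a z
    by_cases hz : z ∈ A.ov a c
    · rw [extz_of_mem S' _ hz, extz_of_mem S' _ hz, extz_of_mem S' _ hz,
        h.loc_add c (sec_smooth u c) (sec_smooth v c), map_add]
    · rw [extz_of_notMem S' _ hz, extz_of_notMem S' _ hz, extz_of_notMem S' _ hz, add_zero]
  map_smul' r u := by
    apply Subtype.ext
    funext a z
    change extz S' c (loc A κ c (r • u.1 c)) a z = r • extz S' c (loc A κ c (u.1 c)) a z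
    by_cases hz : z ∈ A.ov a c
    · rw [extz_of_mem S' _ hz, extz_of_mem S' _ hz, loc_smul, map_smul]
    · rw [extz_of_notMem S' _ hz, extz_of_notMem S' _ hz, smul_zero]

theorem Pc_val (c : Fin A.N) (u : S.Sec) : (h.Pc c u).1 = extz S' c (loc A κ c (u.1 c)) := rfl

/-- **the global operator** -/
def P : S.Sec →ₗ[ℂ] S'.Sec := ∑ c, h.Pc c

theorem P_val (u : S.Sec) (a : Fin A.N) (z : C2) : (h.P u).1 a z = ∑ c, (h.Pc c u).1 a z := by
  rw [P, LinearMap.sum_apply, Submodule.coe_sum, Finset.sum_apply, Finset.sum_apply]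

/-- the local operators in two charts -/
theorem trans (u : S.Sec) {c c' : Fin A.N} {z : C2} (hz : z ∈ Q c) (hzc : z ∈ A.ov c c')
    (hz' : A.tau c c' z ∈ Q c') :
    IK (κ c') (u.1 c') (A.tau c c' z) = S'.T c c' z (IK (κ c) (u.1 c) z) := by
  have : CompleteSpace W := FiniteDimensional.complete ℂ W
  have hzc' : A.tau c c' z ∈ A.ov c' c := FinAt.tau_mem hzc
  have h0 : ∀ (b b' : Fin A.N) (y : C2), y ∈ Q b → y ∈ A.ov b b' → A.tau b b' y ∈ Q b' →
      ∀ w, w ∉ A.ov b b' → κ b y w = 0 := by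
    intro b b' y hy hyb hy' w hw
    by_cases hwO : w ∈ A.O b
    · exact h.cmp0 b b' y hy hyb hy' w hwO hw
    · by_contra hne
      exact hwO (h.L_sub b (h.supp b y hy w hne))
  have e1 : IK (κ c') (u.1 c') (A.tau c c' z) =
      ∫ y in A.ov c' c, κ c' (A.tau c c' z) y (u.1 c' y) := by
    rw [IK]
    refine (setIntegral_eq_integral_of_forall_compl_eq_zero fun y hy => ?_).symm
    rw [h0 c' c _ hz' hzc' (by rw [FinAt.tau_tau hzc]; exact hz) y hy]
    rfl
  have e2 : IK (κ c) (u.1 c) z = ∫ y in A.ov c c', κ c z y (u.1 c y) := by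
    rw [IK]
    refine (setIntegral_eq_integral_of_forall_compl_eq_zero fun y hy => ?_).symm
    rw [h0 c c' _ hz hzc hz' y hy]
    rfl
  rw [e1, e2, integral_ov c c' (fun y => κ c' (A.tau c c' z) y (u.1 c' y)),
    ← (S'.T c c' z).integral_comp_comm (h.int c _ (sec_smooth u c) z hz).integrableOn]
  refine setIntegral_congr_fun (A.isOpen_ov c c').measurableSet fun w hw => ?_
  rw [sec_compat u hw, ← h.cmp c c' z hz hzc hz' w hw, Complex.coe_smul]

/-- **the global operator in the charts** -/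
theorem P_apply (u : S.Sec) {c : Fin A.N} {z : C2} (hz : z ∈ Q c) :
    (h.P u).1 c z = IK (κ c) (u.1 c) z := by
  have hzO := h.Q_sub c hz
  have key : ∀ b, (h.Pc b u).1 c z = (A.rho b ((A.e c).symm z) : ℂ) • IK (κ c) (u.1 c) z := by
    intro b
    rw [h.Pc_val]
    by_cases hb : z ∈ A.ov c b
    · rw [extz_of_mem S' _ hb, loc, r_eq (FinAt.tau_mem_O hb), FinAt.symm_tau hb, map_smul]
      by_cases h0 : A.rho b ((A.e c).symm z) = 0
      · simp [h0]
      · have h1 : A.tau c b z ∈ A.K b := ⟨(A.e c).symm z, subset_tsupport _ h0, rfl⟩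
        rw [h.trans u hz hb (h.K_sub b h1), sb_inv hb]
    · have h0 : A.rho b ((A.e c).symm z) = 0 :=
        image_eq_zero_of_notMem_tsupport fun h4 => hb ⟨hzO, A.rho_supp b h4⟩
      rw [extz_of_notMem S' _ hb, h0, Complex.ofReal_zero, zero_smul]
  rw [h.P_val]
  simp only [key]
  rw [← Finset.sum_smul]
  have h3 : ∑ b, (A.rho b ((A.e c).symm z) : ℂ) = 1 := by
    exact_mod_cast A.rho_sum ((A.e c).symm z)
  rw [h3, one_smul]

/-- **the sup bound** -/
theorem sbd [FiniteDimensional ℂ Vf] : SBd h.P := by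
  have h1 : ∀ a, ∃ C : ℝ, ∀ (u : S.Sec) (M : ℝ), (∀ b, ∀ w ∈ A.K b, ‖u.1 b w‖ ≤ M) →
      ∀ z ∈ A.K a, ‖(h.P u).1 a z‖ ≤ C * M := by
    intro a
    obtain ⟨B, hB⟩ := h.bound a
    obtain ⟨C, hC0, hC⟩ := exists_sec_bound S (h.cpt a) (h.L_sub a)
    refine ⟨B * C, fun u M hM z hz => ?_⟩
    rw [h.P_apply u (h.K_sub a hz), mul_assoc]
    exact hB (u.1 a) (C * M) (sec_smooth u a) (hC u M hM) z (h.K_sub a hz)
  obtain ⟨C, hC0, hC⟩ := exists_uniform (p := fun a C => ∀ (u : S.Sec) (M : ℝ),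
    (∀ b, ∀ w ∈ A.K b, ‖u.1 b w‖ ≤ M) → ∀ z ∈ A.K a, ‖(h.P u).1 a z‖ ≤ C * M)
    (fun a c c' hc h u M hM z hz => (h u M hM z hz).trans
      (mul_le_mul_of_nonneg_right hc ((norm_nonneg _).trans (hM a z hz)))) h1
  exact ⟨C, hC0, fun u M hM a z hz => hC a u M hM z hz⟩

end NK

/-! ### smooth kernels -/

namespace NK

variable {S : SB A Vf} {Q L : Fin A.N → Set C2} {κ : Fin A.N → C2 → C2 → (Vf →L[ℂ] Vf)}
  (h : NK S S Q L κ)
variable [T2Space X] [IsManifold 𝓘(ℂ, C2) ω X] [FiniteDimensional ℂ Vf] [CompactSpace X]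

include h

theorem sker (hs : ∀ c, ContDiffOn ℝ ∞ (fun p : C2 × C2 => κ c p.1 p.2) (Q c ×ˢ univ))
    (c : Fin A.N) : SKer A c fun z w => (A.r c z : ℂ) • κ c z w where
  smooth := by
    refine contDiff_of_supp (O := Q c ×ˢ univ) (L := A.K c ×ˢ univ)
      ((h.open_Q c).prod isOpen_univ) ((isCompact_K c).isClosed.prod isClosed_univ)
      (Set.prod_mono (h.K_sub c) le_rfl) ?_ ?_
    · have h1 : ContDiffOn ℝ ∞ (fun p : C2 × C2 => (A.r c p.1 : ℂ)) (Q c ×ˢ univ) :=
        ((r_contDiffOn c).mono (h.Q_sub c)).comp contDiffOn_fst fun p hp => hp.1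
      exact h1.smul (hs c)
    · rintro ⟨z, w⟩ hp
      have hz : z ∉ A.K c := fun hz => hp ⟨hz, mem_univ _⟩
      simp only
      rw [r_of_notMem hz, Complex.ofReal_zero, zero_smul]
  supp := by
    refine ⟨A.K c ∪ L c, (isCompact_K c).union (h.cpt c), union_subset (H462.K_sub c) (h.L_sub c),
      fun z w hne => ?_⟩
    have hz : z ∈ A.K c := by
      by_contra hz
      apply hne
      rw [r_of_notMem hz, Complex.ofReal_zero, zero_smul]
    refine ⟨Or.inl hz, Or.inr (h.supp c z (h.K_sub c hz) w fun h0 => hne ?_)⟩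
    rw [h0, smul_zero]

/-- **the kernel** -/
def kern (hs : ∀ c, ContDiffOn ℝ ∞ (fun p : C2 × C2 => κ c p.1 p.2) (Q c ×ˢ univ)) : Kern S :=
  kernSum Finset.univ fun c => kernLO S c (h.sker hs c)

theorem kern_op (hs : ∀ c, ContDiffOn ℝ ∞ (fun p : C2 × C2 => κ c p.1 p.2) (Q c ×ˢ univ))
    (u : S.Sec) : (h.kern hs).op u.1 = (h.P u).1 := by
  rw [kern, kernSum_op]
  funext a z
  rw [h.P_val, Finset.sum_apply, Finset.sum_apply]
  refine Finset.sum_congr rfl fun c _ => ?_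
  rw [← kernLO_op S c (h.sker hs c) (by norm_num : 0 < 4) (h.sker hs c).lker u, LO_val, h.Pc_val]
  congr 2
  funext x
  rw [loc, IK, IK, ← integral_smul]
  rfl

theorem kern_trace (hs : ∀ c, ContDiffOn ℝ ∞ (fun p : C2 × C2 => κ c p.1 p.2) (Q c ×ˢ univ))
    {a : Fin A.N} {z : C2} (hz : z ∈ Q a) :
    trc Vf ((h.kern hs).k a a z z) = trc Vf (κ a z z) := by
  have hzO := h.Q_sub a hz
  have e1 : (h.kern hs).k a a z z =
      ∑ c, lkFun S c (fun z w => (A.r c z : ℂ) • κ c z w) a a z z := rfl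
  rw [e1, map_sum]
  have key : ∀ c, trc Vf (lkFun S c (fun z w => (A.r c z : ℂ) • κ c z w) a a z z) =
      (A.rho c ((A.e a).symm z) : ℂ) * trc Vf (κ a z z) := by
    intro c
    by_cases hc : z ∈ A.ov a c
    · rw [trc_lkFun _ hc, map_smul, r_eq (FinAt.tau_mem_O hc), FinAt.symm_tau hc, smul_eq_mul]
      by_cases h0 : A.rho c ((A.e a).symm z) = 0
      · simp [h0]
      · have h1 : A.tau a c z ∈ A.K c := ⟨(A.e a).symm z, subset_tsupport _ h0, rfl⟩
        have h2 : ((‖(A.J a c z).det‖ ^ 2 : ℝ) : ℂ) • κ c (A.tau a c z) (A.tau a c z) =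
            (S.T a c z).comp ((κ a z z).comp (S.T c a (A.tau a c z))) := by
          ext v
          have h3 := h.cmp a c z hz hc (h.K_sub c h1) z hc (S.T c a (A.tau a c z) v)
          rw [sb_inv' hc] at h3
          exact h3
        have h4 := congrArg (trc Vf) h2
        rw [map_smul, trc_conj (fun v => sb_inv hc v), smul_eq_mul] at h4
        rw [← h4]
        ring
    · have h0 : A.rho c ((A.e a).symm z) = 0 :=
        image_eq_zero_of_notMem_tsupport fun h4 => hc ⟨hzO, A.rho_supp c h4⟩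
      rw [trc_lkFun_zero _ hc, h0, Complex.ofReal_zero, zero_mul]
  simp only [key]
  rw [← Finset.sum_mul]
  have h3 : ∑ b, (A.rho b ((A.e a).symm z) : ℂ) = 1 := by
    exact_mod_cast A.rho_sum ((A.e a).symm z)
  rw [h3, one_mul]

end NK

end Vale.Agent.P267.H315
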