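import Vale.Agent.P267.H315.Db
import Mathlib.Analysis.Calculus.ContDiff.Convolution
import Mathlib.Analysis.Calculus.LineDeriv.IntegrationByParts
import Mathlib.MeasureTheory.Measure.Haar.OfBasis
import Mathlib.MeasureTheory.Measure.Lebesgue.VolumeOfBalls

/-!
# P267, RRK-LOC: integrals depending on parameters, and `∫ ∂̄ g = 0`
-/

open scoped ContDiff Convolution
open MeasureTheory Set Metric

noncomputable section

namespace Vale.Agent.P267.H315

section

variable {E : Type*} [NormedAddCommGroup E] [NormedSpace ℂ E] [FiniteDimensional ℂ E]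
  [MeasurableSpace E] [BorelSpace E] {μ : Measure E} [μ.IsAddHaarMeasure]
  {P : Type*} [NormedAddCommGroup P] [NormedSpace ℂ P]
  {F : Type*} [NormedAddCommGroup F] [NormedSpace ℂ F] [CompleteSpace F]

variable {O : Set P} {wt : E → ℂ} {k : Set E} {G : P × E → F}

/-- convolution form of the parametric integral -/
lemma conv_eq (wt : E → ℂ) (G : P × E → F) (p : P) :
    (wt ⋆[ContinuousLinearMap.lsmul ℝ ℂ, μ] (fun x => G (p, -x))) 0 = ∫ x, wt x • G (p, x) ∂μ := by
  simp [convolution_def]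

theorem contDiffOn_wint (hO : IsOpen O) (hwt : LocallyIntegrable wt μ) (hk : IsCompact k)
    (hG : ContDiffOn ℝ ∞ G (O ×ˢ univ)) (hz : ∀ p ∈ O, ∀ x ∉ k, G (p, x) = 0) :
    ContDiffOn ℝ ∞ (fun p => ∫ x, wt x • G (p, x) ∂μ) O := by
  have hFR : FiniteDimensional ℝ E := FiniteDimensional.complexToReal E
  have h1 := contDiffOn_convolution_right_with_param (𝕜 := ℝ) (μ := μ) (n := ⊤)
    (ContinuousLinearMap.lsmul ℝ ℂ : ℂ →L[ℝ] F →L[ℝ] F) (g := fun p x => G (p, -x)) hO hk.neg
    (fun p x hp hx => hz p hp (-x) (fun h => hx (by simpa using h))) hwt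
    (by
      refine ContDiffOn.comp (t := O ×ˢ univ) hG (f := fun q : P × E => (q.1, -q.2)) ?_ ?_
      · exact (contDiff_fst.prodMk contDiff_snd.neg).contDiffOn
      · rintro ⟨p, x⟩ ⟨hp, -⟩
        exact ⟨hp, mem_univ _⟩)
  have h2 := h1.comp (f := fun p : P => (p, (0 : E))) (s := O)
    (contDiff_id.prodMk contDiff_const).contDiffOn (fun p hp => ⟨hp, mem_univ _⟩)
  refine h2.congr fun p hp => ?_
  exact (conv_eq wt G p).symm

set_option linter.unusedSectionVars false

variable [FiniteDimensional ℂ P]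

/-- on compact sets, `G` and `fderiv G` are bounded -/
lemma exists_bound (hO : IsOpen O) (hk : IsCompact k) (hG : ContDiffOn ℝ ∞ G (O ×ˢ univ))
    {p : P} (hp : p ∈ O) : ∃ ε > 0, ∃ C, closedBall p ε ⊆ O ∧
      (∀ q ∈ closedBall p ε, ∀ x ∈ k, ‖G (q, x)‖ ≤ C) ∧
      ∀ q ∈ closedBall p ε, ∀ x ∈ k, ‖fderiv ℝ G (q, x)‖ ≤ C := by
  have : ProperSpace P := FiniteDimensional.proper ℂ P
  obtain ⟨ε, hε, hsub⟩ := Metric.nhds_basis_closedBall.mem_iff.1 (hO.mem_nhds hp)
  have hK : IsCompact (closedBall p ε ×ˢ k) := (isCompact_closedBall p ε).prod hk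
  have hK' : closedBall p ε ×ˢ k ⊆ O ×ˢ (univ : Set E) :=
    fun q hq => ⟨hsub hq.1, mem_univ _⟩
  obtain ⟨C1, hC1⟩ := hK.exists_bound_of_continuousOn (hG.continuousOn.mono hK')
  obtain ⟨C2, hC2⟩ := hK.exists_bound_of_continuousOn
    ((hG.continuousOn_fderiv_of_isOpen (hO.prod isOpen_univ) (by simp)).mono hK')
  refine ⟨ε, hε, max C1 C2, hsub, fun q hq x hx => ?_, fun q hq x hx => ?_⟩
  · exact (hC1 (q, x) ⟨hq, hx⟩).trans (le_max_left _ _)
  · exact (hC2 (q, x) ⟨hq, hx⟩).trans (le_max_right _ _)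

lemma fderiv_zero_off (hO : IsOpen O) (hk : IsCompact k) (hz : ∀ p ∈ O, ∀ x ∉ k, G (p, x) = 0)
    {p : P} (hp : p ∈ O) {x : E} (hx : x ∉ k) : fderiv ℝ G (p, x) = 0 := by
  refine (hasFDerivAt_zero_of_eventually_const 0 ?_).fderiv
  have M : O ×ˢ kᶜ ∈ nhds (p, x) := (hO.prod hk.isClosed.isOpen_compl).mem_nhds ⟨hp, hx⟩
  filter_upwards [M] with q hq using hz q.1 hq.1 q.2 hq.2

lemma integrable_wt (hk : IsCompact k) (hwt : LocallyIntegrable wt μ) {g : E → F}
    (hg : Continuous g) (hz : ∀ x ∉ k, g x = 0) : Integrable (fun x => wt x • g x) μ := by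
  have h1 : IntegrableOn wt k μ := hwt.integrableOn_isCompact hk
  have h2 : IntegrableOn (fun x => wt x • g x) k μ := h1.smul_continuousOn hg.continuousOn hk
  refine (integrableOn_iff_integrable_of_support_subset ?_).1 h2
  intro x hx
  by_contra hxk
  exact hx (by simp [hz x hxk])

theorem hasFDerivAt_wint (hO : IsOpen O) (hwt : LocallyIntegrable wt μ) (hk : IsCompact k)
    (hG : ContDiffOn ℝ ∞ G (O ×ˢ univ)) (hz : ∀ p ∈ O, ∀ x ∉ k, G (p, x) = 0) {p : P}
    (hp : p ∈ O) :
    HasFDerivAt (fun p => ∫ x, wt x • G (p, x) ∂μ)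
      (∫ x, wt x • (fderiv ℝ G (p, x)).comp (ContinuousLinearMap.inl ℝ P E) ∂μ) p := by
  obtain ⟨ε, hε, C, hsub, hC1, hC2⟩ := exists_bound hO hk hG hp
  have hcont (q : P) (hq : q ∈ O) : Continuous fun x => G (q, x) :=
    hG.continuousOn.comp_continuous (by fun_prop) fun x => ⟨hq, mem_univ _⟩
  have hcont' (q : P) (hq : q ∈ O) : Continuous fun x => fderiv ℝ G (q, x) :=
    (hG.continuousOn_fderiv_of_isOpen (hO.prod isOpen_univ) (by simp)).comp_continuous
      (by fun_prop) fun x => ⟨hq, mem_univ _⟩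
  have hcont'' (q : P) (hq : q ∈ O) : Continuous fun x =>
      (fderiv ℝ G (q, x)).comp (ContinuousLinearMap.inl ℝ P E) :=
    (hcont' q hq).clm_comp continuous_const
  refine hasFDerivAt_integral_of_dominated_of_fderiv_le
    (F := fun q x => wt x • G (q, x))
    (F' := fun q x => wt x • (fderiv ℝ G (q, x)).comp (ContinuousLinearMap.inl ℝ P E))
    (s := ball p ε) (bound := fun x => ‖wt x‖ * k.indicator (fun _ => C) x)
    (ball_mem_nhds p hε) ?_ ?_ ?_ ?_ ?_ ?_
  · filter_upwards [ball_mem_nhds p hε] with q hq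
    exact (integrable_wt hk hwt (hcont q (hsub (ball_subset_closedBall hq)))
      (hz q (hsub (ball_subset_closedBall hq)))).aestronglyMeasurable
  · exact integrable_wt hk hwt (hcont p hp) (hz p hp)
  · refine (integrable_wt hk hwt (hcont'' p hp) fun x hx => ?_).aestronglyMeasurable
    rw [fderiv_zero_off hO hk hz hp hx]
    simp
  · refine Filter.Eventually.of_forall fun x q hq => ?_
    have hq' : q ∈ closedBall p ε := ball_subset_closedBall hq
    rw [norm_smul]
    refine mul_le_mul_of_nonneg_left ?_ (norm_nonneg _)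
    by_cases hx : x ∈ k
    · rw [indicator_of_mem hx]
      refine (ContinuousLinearMap.opNorm_comp_le _ _).trans ?_
      have h1 := hC2 q hq' x hx
      have h2 : ‖ContinuousLinearMap.inl ℝ P E‖ ≤ 1 := ContinuousLinearMap.norm_inl_le_one ℝ P E
      calc _ ≤ C * 1 := mul_le_mul h1 h2 (norm_nonneg _) ((norm_nonneg _).trans h1)
        _ = C := mul_one C
    · rw [indicator_of_notMem hx, fderiv_zero_off hO hk hz (hsub hq') hx]
      simp
  · have h1 : Integrable (fun x => k.indicator (fun x => ‖wt x‖ * C) x) μ := by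
      rw [integrable_indicator_iff hk.measurableSet]
      exact ((hwt.integrableOn_isCompact hk).norm).mul_const C
    refine h1.congr (Filter.Eventually.of_forall fun x => ?_)
    by_cases hx : x ∈ k
    · simp [hx]
    · simp [hx]
  · refine Filter.Eventually.of_forall fun x q hq => ?_
    have hq' : q ∈ O := hsub (ball_subset_closedBall hq)
    have h1 : HasFDerivAt G (fderiv ℝ G (q, x)) (q, x) :=
      (((hG.contDiffAt ((hO.prod isOpen_univ).mem_nhds ⟨hq', mem_univ _⟩)).differentiableAt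
        (by simp))).hasFDerivAt
    have h2 : HasFDerivAt (fun q : P => (q, x)) (ContinuousLinearMap.inl ℝ P E) q :=
      hasFDerivAt_prodMk_left q x
    exact (h1.comp q h2).fun_const_smul (wt x)

/-- `∂̄` under the integral sign -/
theorem dbv_wint (hO : IsOpen O) (hwt : LocallyIntegrable wt μ) (hk : IsCompact k)
    (hG : ContDiffOn ℝ ∞ G (O ×ˢ univ)) (hz : ∀ p ∈ O, ∀ x ∉ k, G (p, x) = 0) {p : P}
    (hp : p ∈ O) (v : P) :
    dbv v (fun p => ∫ x, wt x • G (p, x) ∂μ) p = ∫ x, wt x • dbv ((v, 0) : P × E) G (p, x) ∂μ := by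
  have hcont'' : Continuous fun x =>
      (fderiv ℝ G (p, x)).comp (ContinuousLinearMap.inl ℝ P E) :=
    ((hG.continuousOn_fderiv_of_isOpen (hO.prod isOpen_univ) (by simp)).comp_continuous
      (by fun_prop) fun x => ⟨hp, mem_univ _⟩).clm_comp continuous_const
  have hi := integrable_wt hk hwt hcont'' (fun x hx => by
    rw [fderiv_zero_off hO hk hz hp hx]; simp)
  have key (u : P) : (∫ x, wt x • (fderiv ℝ G (p, x)).comp (ContinuousLinearMap.inl ℝ P E) ∂μ) u =
      ∫ x, wt x • fderiv ℝ G (p, x) (u, 0) ∂μ := by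
    have := (ContinuousLinearMap.apply ℝ F u).integral_comp_comm hi
    simp only [ContinuousLinearMap.apply_apply] at this
    rw [← this]
    rfl
  have hi' (u : P) : Integrable (fun x => wt x • fderiv ℝ G (p, x) (u, 0)) μ := by
    have := (ContinuousLinearMap.apply ℝ F u).integrable_comp hi
    exact this
  have e : Complex.I • ((v, 0) : P × E) = (Complex.I • v, 0) := by simp
  rw [dbv, (hasFDerivAt_wint hO hwt hk hG hz hp).fderiv, key, key]
  simp only [dbv, e]
  have h3 : Integrable (fun x => Complex.I • wt x • fderiv ℝ G (p, x) (Complex.I • v, 0)) μ :=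
    (hi' (Complex.I • v)).smul Complex.I
  rw [← integral_smul, ← integral_add (hi' v) h3, ← integral_smul]
  refine integral_congr_ae (Filter.Eventually.of_forall fun x => ?_)
  simp only
  module

/-- bounds for the parametric integral in terms of the `L¹` norm of the weight -/
theorem wint_bound (hO : IsOpen O) (hk : IsCompact k)
    (hG : ContDiffOn ℝ ∞ G (O ×ˢ univ)) (hz : ∀ p ∈ O, ∀ x ∉ k, G (p, x) = 0) {p : P}
    (hp : p ∈ O) (v : P) : ∃ C, ∀ wt : E → ℂ, Integrable wt μ →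
      ‖∫ x, wt x • G (p, x) ∂μ‖ ≤ C * ∫ x, ‖wt x‖ ∂μ ∧
      ‖dbv v (fun p => ∫ x, wt x • G (p, x) ∂μ) p‖ ≤ C * ∫ x, ‖wt x‖ ∂μ := by
  obtain ⟨ε, hε, C, hsub, hC1, hC2⟩ := exists_bound hO hk hG hp
  have hC0 : 0 ≤ max C 0 := le_max_right _ _
  have hpm : p ∈ closedBall p ε := mem_closedBall_self hε.le
  have hb1 (x : E) : ‖G (p, x)‖ ≤ max C 0 := by
    by_cases hx : x ∈ k
    · exact (hC1 p hpm x hx).trans (le_max_left _ _)
    · rw [hz p hp x hx, norm_zero]; exact hC0
  have hb2 (x : E) : ‖fderiv ℝ G (p, x)‖ ≤ max C 0 := by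
    by_cases hx : x ∈ k
    · exact (hC2 p hpm x hx).trans (le_max_left _ _)
    · rw [fderiv_zero_off hO hk hz hp hx, norm_zero]; exact hC0
  refine ⟨max C 0 + max C 0 * (‖v‖ + ‖v‖), fun wt hwt => ?_⟩
  have hI : 0 ≤ ∫ x, ‖wt x‖ ∂μ := integral_nonneg fun x => norm_nonneg _
  have h0 : ‖∫ x, wt x • G (p, x) ∂μ‖ ≤ max C 0 * ∫ x, ‖wt x‖ ∂μ := by
    rw [← integral_const_mul]
    refine norm_integral_le_of_norm_le (hwt.norm.const_mul _)
      (Filter.Eventually.of_forall fun x => ?_)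
    rw [norm_smul, mul_comm]
    exact mul_le_mul_of_nonneg_right (hb1 x) (norm_nonneg _)
  have h1 : ‖dbv v (fun p => ∫ x, wt x • G (p, x) ∂μ) p‖ ≤
      max C 0 * (‖v‖ + ‖v‖) * ∫ x, ‖wt x‖ ∂μ := by
    rw [dbv_wint hO hwt.locallyIntegrable hk hG hz hp v, ← integral_const_mul]
    refine norm_integral_le_of_norm_le (hwt.norm.const_mul _)
      (Filter.Eventually.of_forall fun x => ?_)
    rw [norm_smul, mul_comm]
    refine mul_le_mul_of_nonneg_right ?_ (norm_nonneg _)
    have e : Complex.I • ((v, 0) : P × E) = (Complex.I • v, 0) := by simp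
    have n1 : ‖((v, 0) : P × E)‖ = ‖v‖ := by simp [Prod.norm_def]
    have n2 : ‖((Complex.I • v, 0) : P × E)‖ = ‖v‖ := by simp [Prod.norm_def, norm_smul]
    have m1 : ‖fderiv ℝ G (p, x) (v, 0)‖ ≤ max C 0 * ‖v‖ :=
      ((fderiv ℝ G (p, x)).le_opNorm _).trans (by
        rw [n1]; exact mul_le_mul_of_nonneg_right (hb2 x) (norm_nonneg _))
    have m2 : ‖fderiv ℝ G (p, x) (Complex.I • v, 0)‖ ≤ max C 0 * ‖v‖ :=
      ((fderiv ℝ G (p, x)).le_opNorm _).trans (by
        rw [n2]; exact mul_le_mul_of_nonneg_right (hb2 x) (norm_nonneg _))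
    rw [dbv, e, norm_smul]
    have n3 : ‖(1 / 2 : ℂ)‖ = 1 / 2 := by norm_num
    rw [n3]
    have m3 : ‖fderiv ℝ G (p, x) (v, 0) + Complex.I • fderiv ℝ G (p, x) (Complex.I • v, 0)‖ ≤
        max C 0 * ‖v‖ + max C 0 * ‖v‖ := by
      refine (norm_add_le _ _).trans (add_le_add m1 ?_)
      rw [norm_smul, Complex.norm_I, one_mul]
      exact m2
    have m4 : 0 ≤ max C 0 * ‖v‖ := mul_nonneg hC0 (norm_nonneg _)
    nlinarith
  have h2 : 0 ≤ max C 0 * ∫ x, ‖wt x‖ ∂μ := mul_nonneg hC0 hI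
  have h3 : 0 ≤ max C 0 * (‖v‖ + ‖v‖) * ∫ x, ‖wt x‖ ∂μ :=
    mul_nonneg (mul_nonneg hC0 (by positivity)) hI
  constructor
  · rw [add_mul]; linarith
  · rw [add_mul]; linarith

/-- `∫ ∂̄ g = 0` -/
theorem integral_dbv_eq_zero {g : E → F} (hg : ContDiff ℝ 1 g) (hk : IsCompact k)
    (hz : ∀ x ∉ k, g x = 0) (v : E) : ∫ x, dbv v g x ∂μ = 0 := by
  have hFR : FiniteDimensional ℝ E := FiniteDimensional.complexToReal E
  have hcs : HasCompactSupport g := HasCompactSupport.intro hk hz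
  have hd : Continuous (fderiv ℝ g) := hg.continuous_fderiv (by simp)
  have hi (u : E) : Integrable (fun x => fderiv ℝ g x u) μ :=
    (hd.clm_apply continuous_const).integrable_of_hasCompactSupport
      (hcs.fderiv_apply (𝕜 := ℝ) u)
  have key (u : E) : ∫ x, fderiv ℝ g x u ∂μ = 0 := by
    have h := integral_bilinear_fderiv_right_eq_neg_left_of_integrable (μ := μ)
      (f := fun _ : E => (1 : ℝ)) (g := g) (v := u)
      (B := (ContinuousLinearMap.lsmul ℝ ℝ : ℝ →L[ℝ] F →L[ℝ] F)) (by simp) (by simpa using hi u)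
      (by simpa using hg.continuous.integrable_of_hasCompactSupport hcs)
      (fun x _ => differentiableAt_const _)
      (fun x _ => (hg.differentiable (by simp)).differentiableAt)
    simpa using h
  have h3 : Integrable (fun x => Complex.I • fderiv ℝ g x (Complex.I • v)) μ :=
    (hi (Complex.I • v)).smul Complex.I
  simp only [dbv]
  rw [integral_smul, integral_add (hi v) h3, integral_smul, key, key]
  simp

end

end Vale.Agent.P267.H315
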