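import Vale.Agent.P267.H315.NKer

/-!
# P267, RRK-GLOB: `PS B` from compatible local kernels with the local identities
-/

set_option linter.unusedSectionVars false

open scoped Manifold ContDiff ComplexConjugate Matrix
open MeasureTheory Set Filter Topology

noncomputable section

namespace Vale.Agent.P267.H315

open Vale.Agent.P267.FL Vale.Agent.P267.RR Vale.Agent.P267.H462 Vale.Agent.P267.H551

variable {X : Type*} [TopologicalSpace X] [ChartedSpace C2 X] {A : FinAt X}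
  [IsManifold 𝓘(ℂ, C2) ω X] {r : ℕ}

/-- kernels in the charts -/
structure LK (A : FinAt X) (r : ℕ) where
  P0 : Fin A.N → C2 → C2 → ((Fin 2 → Fin r → ℂ) →L[ℂ] (Fin r → ℂ))
  P1 : Fin A.N → C2 → C2 → ((Fin r → ℂ) →L[ℂ] (Fin 2 → Fin r → ℂ))
  S0 : Fin A.N → C2 → C2 → ((Fin r → ℂ) →L[ℂ] (Fin r → ℂ))
  S1 : Fin A.N → C2 → C2 → ((Fin 2 → Fin r → ℂ) →L[ℂ] (Fin 2 → Fin r → ℂ))
  S2 : Fin A.N → C2 → C2 → ((Fin r → ℂ) →L[ℂ] (Fin r → ℂ))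

/-- compatible local kernels with the three identities -/
structure PSL (B : Bun A r) (Q L : Fin A.N → Set C2) (k : LK A r) : Prop where
  nP0 : NK B.sb1 B.sb0 Q L k.P0
  nP1 : NK B.sb2 B.sb1 Q L k.P1
  nS0 : NK B.sb0 B.sb0 Q L k.S0
  nS1 : NK B.sb1 B.sb1 Q L k.S1
  nS2 : NK B.sb2 B.sb2 Q L k.S2
  sS0 : ∀ c, ContDiffOn ℝ ∞ (fun p : C2 × C2 => k.S0 c p.1 p.2) (Q c ×ˢ univ)
  sS1 : ∀ c, ContDiffOn ℝ ∞ (fun p : C2 × C2 => k.S1 c p.1 p.2) (Q c ×ˢ univ)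
  sS2 : ∀ c, ContDiffOn ℝ ∞ (fun p : C2 × C2 => k.S2 c p.1 p.2) (Q c ×ˢ univ)
  id0 : ∀ c (u : C2 → Fin r → ℂ), ContDiffOn ℝ ∞ u (A.O c) → ∀ z ∈ Q c,
    IK (k.P0 c) (fun w j => dzb j u w) z = u z - IK (k.S0 c) u z
  id1 : ∀ c (u : C2 → Fin 2 → Fin r → ℂ), ContDiffOn ℝ ∞ u (A.O c) → ∀ z ∈ Q c, ∀ j,
    dzb j (IK (k.P0 c) u) z +
      IK (k.P1 c) (fun w => dzb 0 (fun y => u y 1) w - dzb 1 (fun y => u y 0) w) z j =
      u z j - IK (k.S1 c) u z j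
  id2 : ∀ c (u : C2 → Fin r → ℂ), ContDiffOn ℝ ∞ u (A.O c) → ∀ z ∈ Q c,
    dzb 0 (fun y => IK (k.P1 c) u y 1) z - dzb 1 (fun y => IK (k.P1 c) u y 0) z =
      u z - IK (k.S2 c) u z

namespace PSL

variable {B : Bun A r} {Q L : Fin A.N → Set C2} {k : LK A r} (h : PSL B Q L k)
variable [T2Space X] [CompactSpace X]

include h

theorem e0 (u : B.sb0.Sec) : h.nP0.P (B.d0 u) = u - h.nS0.P u := by
  refine sec_ext_Q h.nP0.K_sub fun c z hz hzO => ?_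
  rw [h.nP0.P_apply _ hz]
  change _ = u.1 c z - (h.nS0.P u).1 c z
  rw [h.nS0.P_apply u hz, ← h.id0 c (u.1 c) (sec_smooth u c) z hz]
  refine IK_congr (fun w hw => h.nP0.supp c z hz w hw) fun w hw => ?_
  change Bun.d0f u.1 c w = _
  simp only [Bun.d0f, if_pos (h.nP0.L_sub c hw)]

theorem e1 (u : B.sb1.Sec) :
    B.d0 (h.nP0.P u) + h.nP1.P (B.d1 u) = u - h.nS1.P u := by
  refine sec_ext_Q h.nP0.K_sub fun c z hz hzO => ?_
  change (B.d0 (h.nP0.P u)).1 c z + (h.nP1.P (B.d1 u)).1 c z = u.1 c z - (h.nS1.P u).1 c z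
  rw [h.nP1.P_apply _ hz, h.nS1.P_apply u hz]
  funext j
  have h1 := h.id1 c (u.1 c) (sec_smooth u c) z hz j
  change (Bun.d0f (h.nP0.P u).1 c z) j + _ = _ - _
  simp only [Bun.d0f, if_pos hzO]
  have h2 : (h.nP0.P u).1 c =ᶠ[𝓝 z] IK (k.P0 c) (u.1 c) := by
    filter_upwards [(h.nP0.open_Q c).mem_nhds hz] with y hy
    exact h.nP0.P_apply u hy
  rw [dzb_congr h2, ← h1]
  congr 1
  refine congrFun (IK_congr (fun w hw => h.nP1.supp c z hz w hw) fun w hw => ?_) j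
  change Bun.d1f u.1 c w = _
  simp only [Bun.d1f, if_pos (h.nP1.L_sub c hw)]

theorem e2 (u : B.sb2.Sec) : B.d1 (h.nP1.P u) = u - h.nS2.P u := by
  refine sec_ext_Q h.nP0.K_sub fun c z hz hzO => ?_
  change (B.d1 (h.nP1.P u)).1 c z = u.1 c z - (h.nS2.P u).1 c z
  rw [h.nS2.P_apply u hz, ← h.id2 c (u.1 c) (sec_smooth u c) z hz]
  change Bun.d1f (h.nP1.P u).1 c z = _
  simp only [Bun.d1f, if_pos hzO]
  have h2 : ∀ i : Fin 2, (fun y => (h.nP1.P u).1 c y i) =ᶠ[𝓝 z]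
      fun y => IK (k.P1 c) (u.1 c) y i := by
    intro i
    filter_upwards [(h.nP1.open_Q c).mem_nhds hz] with y hy
    rw [h.nP1.P_apply u hy]
  rw [dzb_congr (h2 1), dzb_congr (h2 0)]

/-- **the parametrix** -/
def ps : PS B where
  P0 := h.nP0.P
  P1 := h.nP1.P
  bd0 := by
    obtain ⟨C, -, hC⟩ := h.nP0.sbd
    exact ⟨C, hC⟩
  bd1 := by
    obtain ⟨C, -, hC⟩ := h.nP1.sbd
    exact ⟨C, hC⟩
  k0 := h.nS0.kern h.sS0
  k1 := h.nS1.kern h.sS1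
  k2 := h.nS2.kern h.sS2
  eq0 u := by rw [h.nS0.kern_op, h.e0 u]; rfl
  eq1 u := by
    rw [h.nS1.kern_op]
    exact congrArg Subtype.val (h.e1 u)
  eq2 u := by rw [h.nS2.kern_op, h.e2 u]; rfl

theorem ps_dens {a : Fin A.N} {z : C2} (hz : z ∈ Q a) :
    h.ps.dens a z = trc _ (k.S0 a z z) - trc _ (k.S1 a z z) + trc _ (k.S2 a z z) := by
  rw [← h.nS0.kern_trace h.sS0 hz, ← h.nS1.kern_trace h.sS1 hz, ← h.nS2.kern_trace h.sS2 hz]
  rfl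

end PSL

end Vale.Agent.P267.H315
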