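import Vale.Agent.P267.H315.Tube

/-!
# P267, RRK-LOC (R): the homotopy identities for smooth kernels
-/

open scoped ContDiff
open MeasureTheory Set Metric

noncomputable section

namespace Vale.Agent.P267.H315

section

variable {W : Type*} [NormedAddCommGroup W] [NormedSpace ℂ W]

lemma dbv_zero_dir {E : Type*} [NormedAddCommGroup E] [NormedSpace ℂ E] (f : E → W) (x : E) :
    dbv 0 f x = 0 := by simp [dbv]

lemma db_snd {u : V → W} {p : VV} (hu : DifferentiableAt ℝ u p.2) (j : Fin 4) :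
    db j (fun q : VV => u q.2) p = dbv (dir j).2 u p.2 :=
  dbv_comp (Ψ := fun q : VV => q.2) (L := ContinuousLinearMap.snd ℂ V V) hasFDerivAt_snd hu (dir j)

end

/-- the standard basis vectors -/
abbrev e0 : V := Pi.single 0 1
/-- the standard basis vectors -/
abbrev e1 : V := Pi.single 1 1

/-- smooth on the tube `T`, zero off `T1` -/
structure Adm {W : Type*} [NormedAddCommGroup W] [NormedSpace ℂ W] (T T1 : Set VV) (g : VV → W) :
    Prop where
  smooth : ContDiffOn ℝ ∞ g T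
  zero : ∀ q ∈ T, q ∉ T1 → g q = 0

/-- the integral over `w` of the extension by zero -/
def tint {W : Type*} [NormedAddCommGroup W] [NormedSpace ℂ W] (T : Set VV) (g : VV → W) (z : V) : W :=
  ∫ w, T.indicator g (z, w)

namespace Adm

variable {T T1 : Set VV} {W : Type*} [NormedAddCommGroup W] [NormedSpace ℂ W] {g g' : VV → W}

lemma add (hg : Adm T T1 g) (hg' : Adm T T1 g') : Adm T T1 (fun p => g p + g' p) :=
  ⟨hg.smooth.add hg'.smooth, fun q hq hq1 => by simp [hg.zero q hq hq1, hg'.zero q hq hq1]⟩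

lemma sub (hg : Adm T T1 g) (hg' : Adm T T1 g') : Adm T T1 (fun p => g p - g' p) :=
  ⟨hg.smooth.sub hg'.smooth, fun q hq hq1 => by simp [hg.zero q hq hq1, hg'.zero q hq hq1]⟩

lemma neg (hg : Adm T T1 g) : Adm T T1 (fun p => - g p) :=
  ⟨hg.smooth.neg, fun q hq hq1 => by simp [hg.zero q hq hq1]⟩

lemma congr (hg : Adm T T1 g) (he : ∀ p ∈ T, g' p = g p) : Adm T T1 g' :=
  ⟨hg.smooth.congr he, fun q hq hq1 => by rw [he q hq, hg.zero q hq hq1]⟩

end Adm

lemma tint_congr {T : Set VV} {W : Type*} [NormedAddCommGroup W] [NormedSpace ℂ W] {g g' : VV → W}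
    (he : ∀ p ∈ T, g' p = g p) (z : V) : tint T g' z = tint T g z := by
  unfold tint
  rw [indicator_congr he]

namespace Tube

variable {O : Set V} {T T1 : Set VV} (h : Tube O T T1)
  {W : Type*} [NormedAddCommGroup W] [NormedSpace ℂ W] {g g' : VV → W}
  {F : Type*} [NormedAddCommGroup F] [NormedSpace ℂ F]
  {K : Fin 4 → VV → F →L[ℂ] F} {Ω : Set V}

include h

lemma adm_db (hg : Adm T T1 g) (j : Fin 4) : Adm T T1 (db j g) :=
  ⟨h.db_smooth hg.smooth j, h.db_zero hg.zero j⟩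

lemma integrable (hg : Adm T T1 g) {z : V} (hz : z ∈ O) :
    Integrable (fun w => T.indicator g (z, w)) :=
  h.integrable_ind hg.smooth.continuousOn hg.zero hz

lemma tint_add (hg : Adm T T1 g) (hg' : Adm T T1 g') {z : V} (hz : z ∈ O) :
    tint T (fun p => g p + g' p) z = tint T g z + tint T g' z := by
  unfold tint
  rw [← integral_add (h.integrable hg hz) (h.integrable hg' hz)]
  congr 1
  funext w
  exact congrFun (indicator_add T g g') (z, w)

lemma tint_sub (hg : Adm T T1 g) (hg' : Adm T T1 g') {z : V} (hz : z ∈ O) :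
    tint T (fun p => g p - g' p) z = tint T g z - tint T g' z := by
  unfold tint
  rw [← integral_sub (h.integrable hg hz) (h.integrable hg' hz)]
  congr 1
  funext w
  exact congrFun (indicator_sub' T g g') (z, w)

omit h in
lemma tint_neg {z : V} : tint T (fun p => - g p) z = - tint T g z := by
  unfold tint
  rw [← integral_neg]
  congr 1
  funext w
  exact congrFun (indicator_neg T g) (z, w)

variable [CompleteSpace W]

lemma tint_smooth (hg : Adm T T1 g) : ContDiffOn ℝ ∞ (tint T g) O := h.smooth_int hg.smooth hg.zero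

lemma tint_dbv (hg : Adm T T1 g) {z : V} (hz : z ∈ O) (j : Fin 2) :
    dbv (Pi.single j 1) (tint T g) z = tint T (db (c2 j) g) z :=
  h.dbv_int hg.smooth hg.zero hz j

lemma tint_db2 (hg : Adm T T1 g) {z : V} (hz : z ∈ O) : tint T (db 2 g) z = 0 :=
  h.stokes hg.smooth hg.zero hz 0

lemma tint_db3 (hg : Adm T T1 g) {z : V} (hz : z ∈ O) : tint T (db 3 g) z = 0 :=
  h.stokes hg.smooth hg.zero hz 1

lemma app {k : VV → F →L[ℂ] F} {u : V → F} (hk : Adm T T1 k) (hΩ : IsOpen Ω)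
    (hT : ∀ p ∈ T, p.2 ∈ Ω) (hu : ContDiffOn ℝ ∞ u Ω) : Adm T T1 (fun p => k p (u p.2)) :=
  ⟨fun p hp => by
    have h1 : ContDiffAt ℝ ∞ (fun q : VV => u q.2) p :=
      ContDiffAt.comp p (f := fun q : VV => q.2) (hu.contDiffAt (hΩ.mem_nhds (hT p hp)))
        contDiffAt_snd
    exact (contDiffAt_apply (hk.smooth.contDiffAt (h.openT.mem_nhds hp)) h1).contDiffWithinAt,
  fun q hq hq1 => by simp [hk.zero q hq hq1]⟩

/-- product rule -/
lemma db_app {k : VV → F →L[ℂ] F} {u : V → F} (hk : Adm T T1 k) (hΩ : IsOpen Ω)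
    (hT : ∀ p ∈ T, p.2 ∈ Ω) (hu : ContDiffOn ℝ ∞ u Ω) (j : Fin 4) {p : VV} (hp : p ∈ T) :
    db j (fun p => k p (u p.2)) p = db j k p (u p.2) + k p (dbv (dir j).2 u p.2) := by
  have hud : DifferentiableAt ℝ u p.2 :=
    (hu.contDiffAt (hΩ.mem_nhds (hT p hp))).differentiableAt (by simp)
  have h1 : DifferentiableAt ℝ (fun q : VV => u q.2) p :=
    DifferentiableAt.comp p (f := fun q : VV => q.2) hud differentiableAt_snd
  have h2 := dbv_apply (v := dir j) ((hk.smooth.contDiffAt (h.openT.mem_nhds hp)).differentiableAt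
    (by simp)) h1
  rw [← db_snd hud]
  exact h2

omit h in
lemma dbu {u : V → F} (hΩ : IsOpen Ω) (hu : ContDiffOn ℝ ∞ u Ω) (v : V) :
    ContDiffOn ℝ ∞ (dbv v u) Ω := fun p hp =>
  (ContDiffAt.dbv (hu.contDiffAt (hΩ.mem_nhds hp)) _).contDiffWithinAt

variable [CompleteSpace F]

variable (hK : ∀ j, Adm T T1 (K j)) (hΩ : IsOpen Ω) (hT : ∀ p ∈ T, p.2 ∈ Ω)

include hK hΩ hT

/-- integration by parts in `w` -/
lemma parts {u : V → F} (hu : ContDiffOn ℝ ∞ u Ω) {z : V} (hz : z ∈ O) (i : Fin 4) :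
    tint T (fun p => K i p (dbv e0 u p.2)) z = - tint T (fun p => db 2 (K i) p (u p.2)) z ∧
    tint T (fun p => K i p (dbv e1 u p.2)) z = - tint T (fun p => db 3 (K i) p (u p.2)) z := by
  have a := h.app (hK i) hΩ hT hu
  have a2 := h.app (h.adm_db (hK i) 2) hΩ hT hu
  have a3 := h.app (h.adm_db (hK i) 3) hΩ hT hu
  have b0 := h.app (hK i) hΩ hT (dbu hΩ hu e0)
  have b1 := h.app (hK i) hΩ hT (dbu hΩ hu e1)
  constructor
  · have h1 := h.tint_db2 a hz
    rw [tint_congr (g := fun p => db 2 (K i) p (u p.2) + K i p (dbv e0 u p.2))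
      (fun p hp => h.db_app (hK i) hΩ hT hu 2 hp), h.tint_add a2 b0 hz] at h1
    exact eq_neg_of_add_eq_zero_right h1
  · have h1 := h.tint_db3 a hz
    rw [tint_congr (g := fun p => db 3 (K i) p (u p.2) + K i p (dbv e1 u p.2))
      (fun p hp => h.db_app (hK i) hΩ hT hu 3 hp), h.tint_add a3 b1 hz] at h1
    exact eq_neg_of_add_eq_zero_right h1

/-- `∂̄_z` of the operator -/
lemma dz {u : V → F} (hu : ContDiffOn ℝ ∞ u Ω) {z : V} (hz : z ∈ O) (i : Fin 4) (j : Fin 2) :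
    dbv (Pi.single j 1) (tint T (fun p => K i p (u p.2))) z =
      tint T (fun p => db (c2 j) (K i) p (u p.2)) z := by
  rw [h.tint_dbv (h.app (hK i) hΩ hT hu) hz j]
  refine tint_congr (fun p hp => ?_) z
  rw [h.db_app (hK i) hΩ hT hu (c2 j) hp]
  have : (dir (c2 j)).2 = 0 := by fin_cases j <;> rfl
  rw [this, dbv_zero_dir]
  simp

/-- the identity in degree `0`: `K ∂̄ u = (∂̄ K) u` -/
theorem reg0 {u : V → F} (hu : ContDiffOn ℝ ∞ u Ω) {z : V} (hz : z ∈ O) :
    tint T (fun p => K 2 p (dbv e1 u p.2) - K 3 p (dbv e0 u p.2)) z =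
      tint T (fun p => (db 2 (K 3) p - db 3 (K 2) p) (u p.2)) z := by
  have a := h.app (h.adm_db (hK 3) 2) hΩ hT hu
  have b := h.app (h.adm_db (hK 2) 3) hΩ hT hu
  rw [h.tint_sub (h.app (hK 2) hΩ hT (dbu hΩ hu e1)) (h.app (hK 3) hΩ hT (dbu hΩ hu e0)) hz,
    (h.parts hK hΩ hT hu hz 2).2, (h.parts hK hΩ hT hu hz 3).1]
  simp only [ContinuousLinearMap.sub_apply]
  rw [h.tint_sub a b hz]
  abel

/-- the identity in degree `1` -/
theorem reg1 {u0 u1 : V → F} (hu0 : ContDiffOn ℝ ∞ u0 Ω) (hu1 : ContDiffOn ℝ ∞ u1 Ω) {z : V}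
    (hz : z ∈ O) (j : Fin 2) :
    dbv (Pi.single j 1) (tint T (fun p => K 2 p (u1 p.2) - K 3 p (u0 p.2))) z +
      tint T (fun p => K (c2 j) p (dbv e0 u1 p.2 - dbv e1 u0 p.2)) z =
      tint T (fun p => (db (c2 j) (K 2) p - db 2 (K (c2 j)) p) (u1 p.2) -
        (db (c2 j) (K 3) p - db 3 (K (c2 j)) p) (u0 p.2)) z := by
  have f2 := h.app (hK 2) hΩ hT hu1
  have f3 := h.app (hK 3) hΩ hT hu0
  have A2 := h.app (h.adm_db (hK 2) (c2 j)) hΩ hT hu1
  have A3 := h.app (h.adm_db (hK 3) (c2 j)) hΩ hT hu0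
  have B2 := h.app (h.adm_db (hK (c2 j)) 2) hΩ hT hu1
  have B3 := h.app (h.adm_db (hK (c2 j)) 3) hΩ hT hu0
  have C0 := h.app (hK (c2 j)) hΩ hT (dbu hΩ hu1 e0)
  have C1 := h.app (hK (c2 j)) hΩ hT (dbu hΩ hu0 e1)
  have E1 : dbv (Pi.single j 1) (tint T (fun p => K 2 p (u1 p.2) - K 3 p (u0 p.2))) z =
      tint T (fun p => db (c2 j) (K 2) p (u1 p.2)) z - tint T (fun p => db (c2 j) (K 3) p (u0 p.2)) z := by
    rw [← h.dz hK hΩ hT hu1 hz 2 j, ← h.dz hK hΩ hT hu0 hz 3 j]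
    have he : tint T (fun p => K 2 p (u1 p.2) - K 3 p (u0 p.2)) =ᶠ[nhds z]
        fun z => tint T (fun p => K 2 p (u1 p.2)) z - tint T (fun p => K 3 p (u0 p.2)) z := by
      filter_upwards [h.openO.mem_nhds hz] with y hy using h.tint_sub f2 f3 hy
    rw [dbv_congr he]
    exact dbv_sub (((h.tint_smooth f2).contDiffAt (h.openO.mem_nhds hz)).differentiableAt (by simp))
      (((h.tint_smooth f3).contDiffAt (h.openO.mem_nhds hz)).differentiableAt (by simp))
  have E2 : tint T (fun p => K (c2 j) p (dbv e0 u1 p.2 - dbv e1 u0 p.2)) z =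
      - tint T (fun p => db 2 (K (c2 j)) p (u1 p.2)) z +
        tint T (fun p => db 3 (K (c2 j)) p (u0 p.2)) z := by
    simp only [map_sub]
    rw [h.tint_sub C0 C1 hz, (h.parts hK hΩ hT hu1 hz (c2 j)).1,
      (h.parts hK hΩ hT hu0 hz (c2 j)).2]
    abel
  rw [E1, E2]
  simp only [ContinuousLinearMap.sub_apply]
  rw [h.tint_sub (A2.sub B2) (A3.sub B3) hz, h.tint_sub A2 B2 hz, h.tint_sub A3 B3 hz]
  abel

/-- the identity in degree `2` -/
theorem reg2 {v : V → F} (hv : ContDiffOn ℝ ∞ v Ω) {z : V} (hz : z ∈ O) :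
    dbv e0 (tint T (fun p => K 1 p (v p.2))) z - dbv e1 (tint T (fun p => K 0 p (v p.2))) z =
      tint T (fun p => (db 0 (K 1) p - db 1 (K 0) p) (v p.2)) z := by
  have a := h.app (h.adm_db (hK 1) 0) hΩ hT hv
  have b := h.app (h.adm_db (hK 0) 1) hΩ hT hv
  have h0 := h.dz hK hΩ hT hv hz 1 0
  have h1 := h.dz hK hΩ hT hv hz 0 1
  simp only [ContinuousLinearMap.sub_apply]
  rw [h.tint_sub a b hz]
  rw [h0, h1]
  rfl

end Tube

end Vale.Agent.P267.H315
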