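import Vale.Agent.P267.H156.KLim4
import Mathlib.Analysis.Calculus.InverseFunctionTheorem.ContDiff

/-!
# P267, RRK-LOC (S): local coordinates `(z, ξ)` with `rr = |ξ|²`
-/

open scoped ContDiff
open MeasureTheory Set Metric
open Vale.Agent.P267.H156

noncomputable section

namespace Vale.Agent.P267.H315

/-- `ξ = M(z) s`, where `M(z)` is a square root of the hermitian form `h`. -/
def Xi (h : Matrix (Fin 2) (Fin 2) ℂ) (s : V) : V :=
  ![(Real.sqrt (h 0 0).re : ℂ) * (s 0 + h 1 0 / h 0 0 * s 1),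
    (Real.sqrt (h.det.re / (h 0 0).re) : ℂ) * s 1]

/-- the inverse of `Xi` -/
def Ri (h : Matrix (Fin 2) (Fin 2) ℂ) (x : V) : V :=
  ![x 0 / (Real.sqrt (h 0 0).re : ℂ) -
      h 1 0 / h 0 0 * (x 1 / (Real.sqrt (h.det.re / (h 0 0).re) : ℂ)),
    x 1 / (Real.sqrt (h.det.re / (h 0 0).re) : ℂ)]

/-- `|ξ|²` -/
def nq (x : V) : ℝ := ‖x 0‖ ^ 2 + ‖x 1‖ ^ 2

section

variable {h : Matrix (Fin 2) (Fin 2) ℂ} (h0 : 0 < (h 0 0).re) (hd : 0 < h.det.re)

include h0 hd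

lemma sqrt_ne : (Real.sqrt (h 0 0).re : ℂ) ≠ 0 ∧
    (Real.sqrt (h.det.re / (h 0 0).re) : ℂ) ≠ 0 :=
  ⟨by exact_mod_cast (Real.sqrt_pos.2 h0).ne', by
    exact_mod_cast (Real.sqrt_pos.2 (div_pos hd h0)).ne'⟩

lemma Ri_Xi (s : V) : Ri h (Xi h s) = s := by
  obtain ⟨e1, e2⟩ := sqrt_ne h0 hd
  funext a
  fin_cases a
  · simp only [Ri, Xi, Fin.zero_eta, Matrix.cons_val_zero, Matrix.cons_val_one]
    rw [mul_div_cancel_left₀ _ e1, mul_div_cancel_left₀ _ e2]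
    ring
  · change ((Real.sqrt (h.det.re / (h 0 0).re) : ℂ) * s 1) /
      (Real.sqrt (h.det.re / (h 0 0).re) : ℂ) = s 1
    rw [mul_div_cancel_left₀ _ e2]

lemma Xi_Ri (x : V) : Xi h (Ri h x) = x := by
  obtain ⟨e1, e2⟩ := sqrt_ne h0 hd
  funext a
  fin_cases a
  · simp only [Ri, Xi, Fin.zero_eta, Matrix.cons_val_zero, Matrix.cons_val_one]
    rw [sub_add_cancel, mul_div_cancel₀ _ e1]
  · change (Real.sqrt (h.det.re / (h 0 0).re) : ℂ) *
      (x 1 / (Real.sqrt (h.det.re / (h 0 0).re) : ℂ)) = x 1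
    rw [mul_div_cancel₀ _ e2]

omit hd in
lemma herm_Xi (hh : h.IsHermitian) (hd' : 0 ≤ h.det.re) (s : V) :
    (herm h s).re = nq (Xi h s) := by
  rw [herm_eq hh h0, nq]
  simp only [Xi, Matrix.cons_val_zero, Matrix.cons_val_one, norm_mul, mul_pow]
  rw [Complex.norm_real, Complex.norm_real, Real.norm_of_nonneg (Real.sqrt_nonneg _),
    Real.norm_of_nonneg (Real.sqrt_nonneg _), Real.sq_sqrt h0.le,
    Real.sq_sqrt (div_nonneg hd' h0.le)]

omit h0 hd in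
/-- `Xi h` is linear -/
def XiL (h : Matrix (Fin 2) (Fin 2) ℂ) : V →L[ℂ] V :=
  LinearMap.toContinuousLinearMap
    { toFun := Xi h
      map_add' := fun x y => by
        funext a
        fin_cases a <;> simp [Xi] <;> ring
      map_smul' := fun c x => by
        funext a
        fin_cases a <;> simp [Xi] <;> ring }

omit h0 hd in
@[simp] lemma XiL_apply (h : Matrix (Fin 2) (Fin 2) ℂ) (s : V) : XiL h s = Xi h s := rfl

end

lemma norm_sq_le_nq (x : V) : ‖x‖ ^ 2 ≤ nq x := by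
  have h0 : 0 ≤ ‖x 0‖ ^ 2 := by positivity
  have h1 : 0 ≤ ‖x 1‖ ^ 2 := by positivity
  have h2 : 0 ≤ nq x := add_nonneg h0 h1
  have : ‖x‖ ≤ Real.sqrt (nq x) := by
    refine (pi_norm_le_iff_of_nonneg (Real.sqrt_nonneg _)).2 fun a => ?_
    refine Real.le_sqrt_of_sq_le ?_
    fin_cases a
    · show ‖x 0‖ ^ 2 ≤ _
      unfold nq; linarith
    · show ‖x 1‖ ^ 2 ≤ _
      unfold nq; linarith
  calc ‖x‖ ^ 2 ≤ Real.sqrt (nq x) ^ 2 := pow_le_pow_left₀ (norm_nonneg _) this 2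
    _ = nq x := Real.sq_sqrt h2

variable {A : Type*} [NormedRing A] [NormedAlgebra ℂ A] {D : KData A} {U : Set VV} {O : Set V}
  {h : V → Matrix (Fin 2) (Fin 2) ℂ}

/-- `ξ(z, w) = M(z) s(z, w)` -/
def xi (D : KData A) (h : V → Matrix (Fin 2) (Fin 2) ℂ) (p : VV) : V :=
  Xi (h p.1) (fun a => D.s a p)

/-- the map `(z, w) ↦ (z, ξ)` -/
def Th (D : KData A) (h : V → Matrix (Fin 2) (Fin 2) ℂ) (p : VV) : VV := (p.1, xi D h p)

variable (H : LimHyp D U O h)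
include H

/-- the domain -/
lemma dom_open : IsOpen {p : VV | p ∈ U ∧ p.1 ∈ O ∧ p.2 ∈ O} :=
  H.open_U.inter ((H.open_O.preimage continuous_fst).inter (H.open_O.preimage continuous_snd))

lemma smooth_coef {z : V} (hz : z ∈ O) :
    ContDiffAt ℝ ∞ (fun z => (Real.sqrt (h z 0 0).re : ℂ)) z ∧
    ContDiffAt ℝ ∞ (fun z => h z 1 0 / h z 0 0) z ∧
    ContDiffAt ℝ ∞ (fun z => (Real.sqrt ((h z).det.re / (h z 0 0).re) : ℂ)) z := by
  have hs (a c : Fin 2) : ContDiffAt ℝ ∞ (fun z => h z a c) z :=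
    (H.h_smooth a c).contDiffAt (H.open_O.mem_nhds hz)
  have h1 : ContDiffAt ℝ ∞ (fun z => (h z 0 0).re) z :=
    Complex.reCLM.contDiff.contDiffAt.comp z (hs 0 0)
  have h2 : ContDiffAt ℝ ∞ (fun z => (h z).det.re) z := by
    have : ContDiffAt ℝ ∞ (fun z => (h z).det) z := by
      simp only [Matrix.det_fin_two]
      exact ((hs 0 0).mul (hs 1 1)).sub ((hs 0 1).mul (hs 1 0))
    exact Complex.reCLM.contDiff.contDiffAt.comp z this
  have p0 := H.pos z hz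
  have pd := H.det_pos z hz
  have hne : h z 0 0 ≠ 0 := fun e => by rw [e] at p0; simp at p0
  refine ⟨?_, ?_, ?_⟩
  · exact Complex.ofRealCLM.contDiff.contDiffAt.comp z (h1.sqrt p0.ne')
  · have hi : ContDiffAt ℝ ∞ (fun z => (h z 0 0)⁻¹) z := (hs 0 0).inv hne
    simp only [div_eq_mul_inv]
    exact (hs 1 0).mul hi
  · exact Complex.ofRealCLM.contDiff.contDiffAt.comp z
      ((h2.div h1 p0.ne').sqrt (div_pos pd p0).ne')

lemma smooth_xi {p : VV} (hp : p ∈ U) (hz : p.1 ∈ O) : ContDiffAt ℝ ∞ (xi D h) p := by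
  obtain ⟨c1, c2, c3⟩ := smooth_coef H hz
  have s (a : Fin 2) := H.rel.cs H.open_U hp a
  have f1 : ContDiffAt ℝ ∞ (fun p : VV => (Real.sqrt (h p.1 0 0).re : ℂ)) p :=
    ContDiffAt.comp p (f := fun p : VV => p.1) c1 contDiffAt_fst
  have f2 : ContDiffAt ℝ ∞ (fun p : VV => h p.1 1 0 / h p.1 0 0) p :=
    ContDiffAt.comp p (f := fun p : VV => p.1) c2 contDiffAt_fst
  have f3 : ContDiffAt ℝ ∞ (fun p : VV =>
      (Real.sqrt ((h p.1).det.re / (h p.1 0 0).re) : ℂ)) p :=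
    ContDiffAt.comp p (f := fun p : VV => p.1) c3 contDiffAt_fst
  refine contDiffAt_pi.2 fun a => ?_
  fin_cases a
  · exact f1.mul ((s 0).add (f2.mul (s 1)))
  · exact f3.mul (s 1)

lemma smooth_Th {p : VV} (hp : p ∈ U) (hz : p.1 ∈ O) : ContDiffAt ℝ ∞ (Th D h) p :=
  contDiffAt_fst.prodMk (smooth_xi H hp hz)

lemma xi_diag {z : V} (hz : z ∈ O) : xi D h (z, z) = 0 := by
  have : (fun a => D.s a (z, z)) = 0 := by funext a; exact H.s_diag z hz a
  rw [xi, this]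
  exact map_zero (XiL (h z))

/-- injectivity of the derivative on the diagonal -/
lemma fderiv_Th_inj {z : V} (hz : z ∈ O) (v : VV) (hv : fderiv ℝ (Th D h) (z, z) v = 0) : v = 0 := by
  have hzU := H.diag z hz
  have hd := (smooth_Th H hzU hz).differentiableAt (by simp)
  have hx := (smooth_xi H hzU hz).differentiableAt (by simp)
  have e : fderiv ℝ (Th D h) (z, z) v = (v.1, fderiv ℝ (xi D h) (z, z) v) := by
    have h1 : HasFDerivAt (Th D h) ((ContinuousLinearMap.fst ℝ V V).prod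
        (fderiv ℝ (xi D h) (z, z))) (z, z) := hasFDerivAt_fst.prodMk hx.hasFDerivAt
    rw [h1.fderiv]
    rfl
  rw [e] at hv
  have hv1 : v.1 = 0 := congrArg Prod.fst hv
  have hv2 : fderiv ℝ (xi D h) (z, z) v = 0 := congrArg Prod.snd hv
  obtain ⟨v1, v2⟩ := v
  simp only at hv1
  subst hv1
  -- restrict to the slice
  have h2 : HasFDerivAt (fun w : V => xi D h (z, w)) ((fderiv ℝ (xi D h) (z, z)).comp
      (ContinuousLinearMap.inr ℝ V V)) z :=
    HasFDerivAt.comp z (f := fun w : V => (z, w)) hx.hasFDerivAt (hasFDerivAt_prodMk_right z z)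
  have h3 : HasFDerivAt (fun w : V => xi D h (z, w)) (((XiL (h z)).restrictScalars ℝ).comp
      (ContinuousLinearMap.pi fun a => (fderiv ℝ (D.s a) (z, z)).comp
        (ContinuousLinearMap.inr ℝ V V))) z := by
    have h4 : HasFDerivAt (fun w : V => (fun a => D.s a (z, w) : V))
        (ContinuousLinearMap.pi fun a => (fderiv ℝ (D.s a) (z, z)).comp
        (ContinuousLinearMap.inr ℝ V V)) z := by
      refine hasFDerivAt_pi.2 fun a => ?_
      exact HasFDerivAt.comp z (f := fun w : V => (z, w))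
        (H.rel.ds' H.open_U hzU a).hasFDerivAt (hasFDerivAt_prodMk_right z z)
    exact ((XiL (h z)).restrictScalars ℝ).hasFDerivAt.comp z h4
  have h5 := congrArg (fun L => L v2) (h2.unique h3)
  simp only [ContinuousLinearMap.comp_apply, ContinuousLinearMap.inr_apply, hv2,
    ContinuousLinearMap.coe_restrictScalars', XiL_apply] at h5
  have h6 : (ContinuousLinearMap.pi fun a => (fderiv ℝ (D.s a) (z, z)).comp
        (ContinuousLinearMap.inr ℝ V V)) v2 = v2 := by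
    funext a
    simp only [ContinuousLinearMap.pi_apply, ContinuousLinearMap.comp_apply,
      ContinuousLinearMap.inr_apply]
    exact H.ds_diag z hz a v2
  rw [h6] at h5
  have h7 := Ri_Xi (H.pos z hz) (H.det_pos z hz) v2
  rw [← h5] at h7
  have h8 : Ri (h z) 0 = 0 := by
    funext a; fin_cases a <;> simp [Ri]
  rw [h8] at h7
  rw [← h7]
  rfl

omit H in
/-- an injective linear endomorphism is invertible -/
lemma exists_equiv {E : Type*} [NormedAddCommGroup E] [NormedSpace ℝ E] [FiniteDimensional ℝ E]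
    (L : E →L[ℝ] E) (hinj : ∀ v, L v = 0 → v = 0) : ∃ e : E ≃L[ℝ] E, (e : E →L[ℝ] E) = L := by
  have h1 : Function.Injective (L : E →ₗ[ℝ] E) := by
    rw [← LinearMap.ker_eq_bot, LinearMap.ker_eq_bot']
    exact hinj
  refine ⟨(LinearEquiv.ofInjectiveEndo (L : E →ₗ[ℝ] E) h1).toContinuousLinearEquiv, ?_⟩
  ext v
  rfl

/-- local coordinates -/
structure Coord (D : KData A) (U : Set VV) (O : Set V) (h : V → Matrix (Fin 2) (Fin 2) ℂ)
    (O' : Set V) (ρ δ d : ℝ) (Ψ : VV → V) : Prop where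
  open_O' : IsOpen O'
  sub : O' ⊆ O
  ρ_pos : 0 < ρ
  δ_pos : 0 < δ
  smooth : ContDiffOn ℝ ∞ Ψ (O' ×ˢ ball 0 ρ)
  mem_U : ∀ z ∈ O', ∀ x ∈ ball (0 : V) ρ, (z, Ψ (z, x)) ∈ U
  mem_O : ∀ z ∈ O', ∀ x ∈ ball (0 : V) ρ, Ψ (z, x) ∈ O
  near : ∀ z ∈ O', ∀ x ∈ ball (0 : V) ρ, ‖Ψ (z, x) - z‖ < d
  inv : ∀ z ∈ O', ∀ x ∈ ball (0 : V) ρ, xi D h (z, Ψ (z, x)) = x
  surj : ∀ z ∈ O', ∀ w : V, ‖w - z‖ < δ → ∃ x ∈ ball (0 : V) ρ, Ψ (z, x) = w

theorem exists_coord {z0 : V} (hz0 : z0 ∈ O) {d : ℝ} (hd : 0 < d) :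
    ∃ O' ρ δ Ψ, z0 ∈ O' ∧ Coord D U O h O' ρ δ d Ψ := by
  have hU0 := H.diag z0 hz0
  have hs := smooth_Th H hU0 hz0
  obtain ⟨e, he⟩ := exists_equiv (fderiv ℝ (Th D h) (z0, z0)) (fun v => fderiv_Th_inj H hz0 v)
  have hfd : HasFDerivAt (Th D h) (e : VV →L[ℝ] VV) (z0, z0) := by
    rw [he]; exact (hs.differentiableAt (by simp)).hasFDerivAt
  let Φ : OpenPartialHomeomorph VV VV := hs.toOpenPartialHomeomorph (Th D h) hfd (by simp)
  have hΦ : ∀ p, Φ p = Th D h p := fun p => rfl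
  have hsrc : (z0, z0) ∈ Φ.source := hs.mem_toOpenPartialHomeomorph_source hfd (by simp)
  have hΦ0 : Φ (z0, z0) = (z0, 0) := by rw [hΦ, Th, xi_diag H hz0]
  have htgt : (z0, (0 : V)) ∈ Φ.target := by rw [← hΦ0]; exact Φ.map_source hsrc
  -- the good set
  let G0 : Set VV := {p : VV | p ∈ U ∧ p.1 ∈ O ∧ p.2 ∈ O} ∩ {p : VV | ‖p.2 - p.1‖ < d}
  have hG0 : IsOpen G0 := (dom_open H).inter (isOpen_lt (by fun_prop) continuous_const)
  have hcf : ContinuousOn (fderiv ℝ (Th D h)) G0 := fun p hp =>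
    ((((smooth_Th H hp.1.1 hp.1.2.1).fderiv_right (m := ∞) (by simp)).continuousAt)
      ).continuousWithinAt
  let G : Set VV := G0 ∩ (fderiv ℝ (Th D h)) ⁻¹' (range ((↑) : (VV ≃L[ℝ] VV) → VV →L[ℝ] VV))
  have hG : IsOpen G := hcf.isOpen_inter_preimage hG0 ContinuousLinearEquiv.isOpen
  have hzG : (z0, z0) ∈ G := ⟨⟨⟨hU0, hz0, hz0⟩, by simpa using hd⟩, ⟨e, he⟩⟩
  have hopen : IsOpen (Φ.target ∩ Φ.symm ⁻¹' G) := Φ.isOpen_inter_preimage_symm hG
  have hmem : (z0, (0 : V)) ∈ Φ.target ∩ Φ.symm ⁻¹' G := by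
    refine ⟨htgt, ?_⟩
    show Φ.symm (z0, 0) ∈ G
    rw [← hΦ0, Φ.left_inv hsrc]
    exact hzG
  obtain ⟨ρ, hρ, hball⟩ := Metric.isOpen_iff.1 hopen _ hmem
  have hball' : ∀ z ∈ ball z0 ρ, ∀ x ∈ ball (0 : V) ρ, (z, x) ∈ Φ.target ∩ Φ.symm ⁻¹' G := by
    intro z hz x hx
    refine hball ?_
    rw [← ball_prod_same]
    exact ⟨hz, hx⟩
  -- first component of the inverse
  have hfst : ∀ q ∈ Φ.target, (Φ.symm q).1 = q.1 := by
    intro q hq
    have := congrArg Prod.fst (Φ.right_inv hq)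
    rw [hΦ] at this
    exact this
  have hsnd : ∀ q ∈ Φ.target, xi D h (Φ.symm q) = q.2 := by
    intro q hq
    have := congrArg Prod.snd (Φ.right_inv hq)
    rw [hΦ] at this
    exact this
  have hpair : ∀ q ∈ Φ.target, Φ.symm q = (q.1, (Φ.symm q).2) := fun q hq =>
    Prod.ext (hfst q hq) rfl
  have hopen2 : IsOpen (Φ.source ∩ Φ ⁻¹' (ball (z0, (0 : V)) ρ)) :=
    Φ.isOpen_inter_preimage isOpen_ball
  have hmem2 : (z0, z0) ∈ Φ.source ∩ Φ ⁻¹' (ball (z0, (0 : V)) ρ) := by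
    refine ⟨hsrc, ?_⟩
    show Φ (z0, z0) ∈ ball (z0, (0 : V)) ρ
    rw [hΦ0]
    exact mem_ball_self hρ
  obtain ⟨η, hη, hball2⟩ := Metric.isOpen_iff.1 hopen2 _ hmem2
  refine ⟨ball z0 (min ρ (η / 2)), ρ, η / 2, fun q => (Φ.symm q).2,
    mem_ball_self (lt_min hρ (by linarith)), isOpen_ball, ?_, hρ, by linarith, ?_, ?_, ?_, ?_, ?_,
    ?_⟩
  · intro z hz
    have h1 := hball' z (ball_subset_ball (min_le_left _ _) hz) 0 (mem_ball_self hρ)
    have h2 : (Φ.symm (z, 0)).1 ∈ O := h1.2.1.1.2.1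
    rwa [hfst _ h1.1] at h2
  · intro q hq
    have hq' := hball' q.1 (ball_subset_ball (min_le_left _ _) hq.1) q.2 hq.2
    have hq1 : Φ.symm q ∈ G := hq'.2
    obtain ⟨e', he'⟩ := hq1.2
    have h3 : HasFDerivAt Φ (e' : VV →L[ℝ] VV) (Φ.symm q) := by
      rw [he']
      exact ((smooth_Th H hq1.1.1.1 hq1.1.1.2.1).differentiableAt (by simp)).hasFDerivAt
    have h4 : ContDiffAt ℝ ∞ Φ (Φ.symm q) := smooth_Th H hq1.1.1.1 hq1.1.1.2.1
    exact ((Φ.contDiffAt_symm hq'.1 h3 h4).snd).contDiffWithinAt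
  · intro z hz x hx
    have h1 := hball' z (ball_subset_ball (min_le_left _ _) hz) x hx
    have h2 : Φ.symm (z, x) ∈ U := h1.2.1.1.1
    rwa [hpair _ h1.1] at h2
  · intro z hz x hx
    have h1 := hball' z (ball_subset_ball (min_le_left _ _) hz) x hx
    exact h1.2.1.1.2.2
  · intro z hz x hx
    have h1 := hball' z (ball_subset_ball (min_le_left _ _) hz) x hx
    have h2 : ‖(Φ.symm (z, x)).2 - (Φ.symm (z, x)).1‖ < d := h1.2.1.2
    rwa [hfst _ h1.1] at h2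
  · intro z hz x hx
    have h1 := hball' z (ball_subset_ball (min_le_left _ _) hz) x hx
    have h2 := hsnd _ h1.1
    rw [hpair _ h1.1] at h2
    exact h2
  · intro z hz w hw
    have hzη : ‖z - z0‖ < η / 2 := by
      have := ball_subset_ball (min_le_right ρ (η / 2)) hz
      rwa [mem_ball, dist_eq_norm] at this
    have h1 : (z, w) ∈ ball (z0, z0) η := by
      rw [← ball_prod_same]
      refine ⟨by rw [mem_ball, dist_eq_norm]; linarith, ?_⟩
      rw [mem_ball, dist_eq_norm]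
      calc ‖w - z0‖ = ‖(w - z) + (z - z0)‖ := by congr 1; abel
        _ ≤ ‖w - z‖ + ‖z - z0‖ := norm_add_le _ _
        _ < η / 2 + η / 2 := add_lt_add hw hzη
        _ = η := by ring
    have h2 := hball2 h1
    have h3 : Φ (z, w) ∈ ball (z0, (0 : V)) ρ := h2.2
    rw [← ball_prod_same] at h3
    refine ⟨xi D h (z, w), h3.2, ?_⟩
    have h4 : (z, xi D h (z, w)) = Φ (z, w) := rfl
    show (Φ.symm (z, xi D h (z, w))).2 = w
    rw [h4, Φ.left_inv h2.1]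

end Vale.Agent.P267.H315
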