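import Vale.Agent.P267.H315.Sm1
import Vale.Agent.P267.H315.PInt
import Mathlib.MeasureTheory.Function.Jacobian

/-!
# P267, RRK-LOC (S): the Jacobian, change of variables
-/

open scoped ContDiff
open MeasureTheory Set Metric
open Vale.Agent.P267.H156

noncomputable section

namespace Vale.Agent.P267.H315

lemma contDiff_det : ContDiff ℝ ∞ (fun L : V →L[ℝ] V => L.det) := by
  let b := Module.finBasis ℝ V
  have h1 : (fun L : V →L[ℝ] V => L.det) =
      fun L : V →L[ℝ] V => (LinearMap.toMatrix b b (L : V →ₗ[ℝ] V)).det := by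
    funext L
    rw [LinearMap.det_toMatrix]
  rw [h1]
  simp only [Matrix.det_apply]
  refine ContDiff.sum fun σ _ => ?_
  refine ContDiff.const_smul _ ?_
  refine contDiff_prod fun i _ => ?_
  have h2 : (fun L : V →L[ℝ] V => LinearMap.toMatrix b b (L : V →ₗ[ℝ] V) (σ i) i) =
      fun L : V →L[ℝ] V => (LinearMap.toContinuousLinearMap (b.coord (σ i))) (L (b i)) := by
    funext L
    simp [LinearMap.toMatrix_apply]
  rw [h2]
  exact (LinearMap.toContinuousLinearMap (b.coord (σ i))).contDiff.comp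
    (ContinuousLinearMap.apply ℝ V (b i)).contDiff

variable {A : Type*} [NormedRing A] [NormedAlgebra ℂ A] {D : KData A} {U : Set VV} {O : Set V}
  {h : V → Matrix (Fin 2) (Fin 2) ℂ} {O' : Set V} {ρ δ d : ℝ} {Ψ : VV → V}

/-- the derivative of `Ψ(z, ·)` -/
def DPs (Ψ : VV → V) (q : VV) : V →L[ℝ] V := (fderiv ℝ Ψ q).comp (ContinuousLinearMap.inr ℝ V V)

/-- the Jacobian -/
def jac (Ψ : VV → V) (q : VV) : ℝ := |(DPs Ψ q).det|

namespace Coord

variable (C : Coord D U O h O' ρ δ d Ψ)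
include C

lemma openP : IsOpen (O' ×ˢ ball (0 : V) ρ) := C.open_O'.prod isOpen_ball

lemma hasFDerivAt {z x : V} (hz : z ∈ O') (hx : x ∈ ball (0 : V) ρ) :
    HasFDerivAt (fun x => Ψ (z, x)) (DPs Ψ (z, x)) x := by
  have h1 : HasFDerivAt Ψ (fderiv ℝ Ψ (z, x)) (z, x) :=
    ((C.smooth.contDiffAt (C.openP.mem_nhds ⟨hz, hx⟩)).differentiableAt (by simp)).hasFDerivAt
  exact HasFDerivAt.comp x (f := fun x : V => (z, x)) h1 (hasFDerivAt_prodMk_right z x)

lemma smooth_DPs : ContDiffOn ℝ ∞ (DPs Ψ) (O' ×ˢ ball 0 ρ) := fun q hq => by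
  have h1 : ContDiffAt ℝ ∞ (fderiv ℝ Ψ) q :=
    (C.smooth.contDiffAt (C.openP.mem_nhds hq)).fderiv_right (m := ∞) (by simp)
  exact (h1.clm_comp contDiffAt_const).contDiffWithinAt

lemma det_ne (H : LimHyp D U O h) {q : VV} (hq : q ∈ O' ×ˢ ball (0 : V) ρ) :
    (DPs Ψ q).det ≠ 0 := by
  obtain ⟨z, x⟩ := q
  obtain ⟨hz, hx⟩ := hq
  have hz' : z ∈ O' := hz
  have hx' : x ∈ ball (0 : V) ρ := hx
  have hU := C.mem_U z hz' x hx'
  have h1 := C.hasFDerivAt hz' hx'
  have h2 : HasFDerivAt (xi D h) (fderiv ℝ (xi D h) (z, Ψ (z, x))) (z, Ψ (z, x)) :=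
    ((smooth_xi H hU (C.sub hz')).differentiableAt (by simp)).hasFDerivAt
  have h3 : HasFDerivAt (fun w : V => xi D h (z, w))
      ((fderiv ℝ (xi D h) (z, Ψ (z, x))).comp (ContinuousLinearMap.inr ℝ V V)) (Ψ (z, x)) :=
    HasFDerivAt.comp _ (f := fun w : V => (z, w)) h2 (hasFDerivAt_prodMk_right z _)
  have h4 := HasFDerivAt.comp (g := fun w : V => xi D h (z, w)) (f := fun x => Ψ (z, x)) x h3 h1
  have h5 : HasFDerivAt (fun x : V => x) (ContinuousLinearMap.id ℝ V) x := hasFDerivAt_id x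
  have h6 : (fun x => xi D h (z, Ψ (z, x))) =ᶠ[nhds x] fun x => x := by
    filter_upwards [isOpen_ball.mem_nhds hx'] with y hy using C.inv z hz' y hy
  have h7 := (h4.congr_of_eventuallyEq h6.symm).unique h5
  have h8 := congrArg (fun L : V →L[ℝ] V => LinearMap.det (L : V →ₗ[ℝ] V)) h7
  simp only [ContinuousLinearMap.toLinearMap_comp, LinearMap.det_comp] at h8
  intro h9
  have h10 : LinearMap.det ((DPs Ψ (z, x) : V →L[ℝ] V) : V →ₗ[ℝ] V) = 0 := h9
  rw [h10, mul_zero] at h8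
  have h11 : LinearMap.det ((ContinuousLinearMap.id ℝ V : V →L[ℝ] V) : V →ₗ[ℝ] V) = 1 :=
    LinearMap.det_id
  rw [h11] at h8
  exact one_ne_zero h8.symm

lemma smooth_jac (H : LimHyp D U O h) : ContDiffOn ℝ ∞ (jac Ψ) (O' ×ˢ ball 0 ρ) := fun q hq => by
  have h1 : ContDiffAt ℝ ∞ (fun q => (DPs Ψ q).det) q :=
    contDiff_det.contDiffAt.comp q (C.smooth_DPs.contDiffAt (C.openP.mem_nhds hq))
  exact ((contDiffAt_abs (C.det_ne H hq)).comp q h1).contDiffWithinAt

lemma injOn {z : V} (hz : z ∈ O') : InjOn (fun x => Ψ (z, x)) (ball 0 ρ) := by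
  intro x hx y hy hxy
  have h1 := C.inv z hz x hx
  have h2 := C.inv z hz y hy
  simp only at hxy
  rw [hxy] at h1
  exact h1.symm.trans h2

/-- change of variables -/
lemma integral_eq {W : Type*} [NormedAddCommGroup W] [NormedSpace ℝ W] {z : V} (hz : z ∈ O')
    (g : V → W) : ∫ w in (fun x => Ψ (z, x)) '' ball 0 ρ, g w =
      ∫ x in ball (0 : V) ρ, jac Ψ (z, x) • g (Ψ (z, x)) :=
  integral_image_eq_integral_abs_det_fderiv_smul volume measurableSet_ball
    (fun x hx => (C.hasFDerivAt hz hx).hasFDerivWithinAt) (C.injOn hz) g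

/-- the integral of a function supported near `z` -/
lemma integral_near {W : Type*} [NormedAddCommGroup W] [NormedSpace ℝ W] {z : V} (hz : z ∈ O')
    (g : V → W) (hg : ∀ w, δ ≤ ‖w - z‖ → ‖w - z‖ < d → g w = 0) :
    ∫ v in ball (0 : V) d, g (z + v) = ∫ x in ball (0 : V) ρ, jac Ψ (z, x) • g (Ψ (z, x)) := by
  rw [← C.integral_eq hz g]
  have h1 : ∫ v in ball (0 : V) d, g (z + v) = ∫ w in ball z d, g w := by
    rw [← integral_indicator measurableSet_ball, ← integral_indicator measurableSet_ball,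
      ← integral_add_left_eq_self (fun w => (ball z d).indicator g w) z]
    refine integral_congr_ae (Filter.Eventually.of_forall fun v => ?_)
    simp only
    by_cases hv : v ∈ ball (0 : V) d
    · have : z + v ∈ ball z d := by simpa using hv
      rw [indicator_of_mem hv, indicator_of_mem this]
    · have : z + v ∉ ball z d := by simpa using hv
      rw [indicator_of_notMem hv, indicator_of_notMem this]
  rw [h1]
  have hsub : (fun x => Ψ (z, x)) '' ball 0 ρ ⊆ ball z d := by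
    rintro w ⟨x, hx, rfl⟩
    rw [mem_ball, dist_eq_norm]
    exact C.near z hz x hx
  refine setIntegral_eq_of_subset_of_forall_diff_eq_zero measurableSet_ball hsub
    fun w hw => hg w ?_ ?_
  · by_contra hlt
    rw [not_le] at hlt
    obtain ⟨x, hx, hxw⟩ := C.surj z hz w hlt
    exact hw.2 ⟨x, hx, hxw⟩
  · have := hw.1
    rwa [mem_ball, dist_eq_norm] at this

end Coord

end Vale.Agent.P267.H315
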