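import Vale.Agent.P267.H315.Sm2
import Vale.Agent.P267.H156.Ident

/-!
# P267, RRK-LOC (S): smoothness of `K_t u`
-/

open scoped ContDiff
open MeasureTheory Set Metric
open Vale.Agent.P267.H156

noncomputable section

namespace Vale.Agent.P267.H315

/-- the weights -/
def wt0 (f : ℝ → ℝ) (t : ℝ) (i : Fin 2) (x : V) : ℂ := (hK f t (nq x) : ℂ) * star (x i)

/-- the weights -/
def wt1 (f f' : ℝ → ℝ) (t : ℝ) (i : Fin 2) (x : V) : ℂ := (hK' f f' t (nq x) : ℂ) * star (x i)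

lemma continuous_nq : Continuous nq := by unfold nq; fun_prop

lemma sqDist_nq {ρ : ℝ} (hρ : 0 < ρ) : SqDist nq 1 ρ :=
  ⟨one_pos, hρ, fun v _ => by rw [one_mul]; exact norm_sq_le_nq v⟩

lemma wt0_eq (f f' : ℝ → ℝ) (t : ℝ) (i : Fin 2) :
    wt0 f t i = kerK f f' nq (fun x => star (x i)) (fun _ => (0 : ℂ)) t := by
  funext x
  simp only [wt0, kerK, smul_zero, add_zero, Complex.real_smul]

lemma wt1_eq (f f' : ℝ → ℝ) (t : ℝ) (i : Fin 2) :
    wt1 f f' t i = kerK f f' nq (fun _ => (0 : ℂ)) (fun x => star (x i)) t := by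
  funext x
  simp only [wt1, kerK, smul_zero, zero_add, Complex.real_smul]

lemma meas_star (i : Fin 2) {μ : Measure V} : AEStronglyMeasurable (fun x : V => star (x i)) μ :=
  (continuous_star.comp (continuous_apply i)).aestronglyMeasurable

section wts

variable {f f' f'' : ℝ → ℝ} {G r : ℝ} (hf : Cut f f' f'' G r) {t ρ : ℝ} (ht : 0 < t)
  (htρ : r * t ≤ ρ ^ 2)

include hf ht htρ

/-- the weights vanish for `‖x‖ ≥ ρ` -/
lemma wt_zero (hρ : 0 < ρ) (i : Fin 2) {x : V} (hx : ρ ≤ ‖x‖) :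
    wt0 f t i x = 0 ∧ wt1 f f' t i x = 0 := by
  have h1 : r ≤ nq x / t := by
    rw [le_div_iff₀ ht]
    exact htρ.trans ((pow_le_pow_left₀ hρ.le hx 2).trans (norm_sq_le_nq x))
  simp [wt0, wt1, hK_zero hf h1, hK'_zero hf h1]

lemma integrable_wt0 (hρ : 0 < ρ) (i : Fin 2) : Integrable (wt0 f t i) := by
  have h1 : IntegrableOn (wt0 f t i) (ball 0 ρ) := by
    rw [wt0_eq f f' t i]
    exact integrableOn_kerK (sqDist_nq hρ) hf zero_le_one continuous_nq.aestronglyMeasurable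
      (meas_star i) aestronglyMeasurable_const
      (fun v _ => by rw [one_mul, norm_star]; exact norm_le_pi_norm v i)
      (fun v _ => by rw [norm_zero, one_mul]; exact norm_nonneg _) ht
  refine (integrableOn_iff_integrable_of_support_subset fun x hx => ?_).1 h1
  by_contra hxb
  exact hx (wt_zero hf ht htρ hρ i (by simpa using hxb)).1

lemma integrable_wt1 (hρ : 0 < ρ) (i : Fin 2) : Integrable (wt1 f f' t i) := by
  have h1 : IntegrableOn (wt1 f f' t i) (ball 0 ρ) := by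
    rw [wt1_eq f f' t i]
    exact integrableOn_kerK (sqDist_nq hρ) hf zero_le_one continuous_nq.aestronglyMeasurable
      aestronglyMeasurable_const (meas_star i)
      (fun v _ => by rw [norm_zero, one_mul]; exact norm_nonneg _)
      (fun v _ => by rw [one_mul, norm_star]; exact norm_le_pi_norm v i) ht
  refine (integrableOn_iff_integrable_of_support_subset fun x hx => ?_).1 h1
  by_contra hxb
  exact hx (wt_zero hf ht htρ hρ i (by simpa using hxb)).2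

end wts

/-! ### extension by zero in `x` -/

section cut

variable {F : Type*} [NormedAddCommGroup F] [NormedSpace ℂ F] [CompleteSpace F]
  {O' : Set V} {ρ : ℝ} {g : VV → F}

/-- a cut-off function -/
lemma exists_bump {ρ : ℝ} (hρ : 0 < ρ) : ∃ χ : V → ℝ, ContDiff ℝ ∞ χ ∧
    (∀ x, ‖x‖ < ρ / 2 → χ x = 1) ∧ ∀ x, 3 * ρ / 4 ≤ ‖x‖ → χ x = 0 := by
  let B : ContDiffBump (0 : V) := ⟨ρ / 2, 3 * ρ / 4, by linarith, by linarith⟩
  refine ⟨B, B.contDiff, fun x hx => B.one_of_mem_closedBall ?_, fun x hx => ?_⟩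
  · rw [mem_closedBall, dist_zero_right]; exact hx.le
  · refine B.zero_of_le_dist ?_
    rw [dist_zero_right]; exact hx

/-- the extension by zero -/
def exz (O' : Set V) (ρ : ℝ) (χ : V → ℝ) (g : VV → F) : VV → F :=
  (O' ×ˢ ball (0 : V) ρ).indicator fun q => χ q.2 • g q

lemma exz_smooth (hO' : IsOpen O') {χ : V → ℝ} (hχ : ContDiff ℝ ∞ χ)
    (hχ0 : ∀ x, 3 * ρ / 4 ≤ ‖x‖ → χ x = 0) (hρ : 0 < ρ)
    (hg : ContDiffOn ℝ ∞ g (O' ×ˢ ball 0 ρ)) :
    ContDiffOn ℝ ∞ (exz O' ρ χ g) (O' ×ˢ univ) := by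
  intro q hq
  refine ContDiffAt.contDiffWithinAt ?_
  by_cases hx : q.2 ∈ ball (0 : V) ρ
  · have hm : O' ×ˢ ball (0 : V) ρ ∈ nhds q := (hO'.prod isOpen_ball).mem_nhds ⟨hq.1, hx⟩
    have h1 : ContDiffAt ℝ ∞ (fun q : VV => χ q.2 • g q) q :=
      (hχ.contDiffAt.comp q contDiffAt_snd).smul (hg.contDiffAt hm)
    refine h1.congr_of_eventuallyEq ?_
    filter_upwards [hm] with p hp
    rw [exz, indicator_of_mem hp]
  · have hx' : ρ ≤ ‖q.2‖ := by simpa using hx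
    have h1 : {p : VV | 3 * ρ / 4 < ‖p.2‖} ∈ nhds q :=
      (isOpen_lt continuous_const (by fun_prop)).mem_nhds (by
        show 3 * ρ / 4 < ‖q.2‖; linarith)
    refine contDiffAt_const (c := (0 : F)) |>.congr_of_eventuallyEq ?_
    filter_upwards [h1] with p hp
    have hp' : 3 * ρ / 4 < ‖p.2‖ := hp
    by_cases hpm : p ∈ O' ×ˢ ball (0 : V) ρ
    · rw [exz, indicator_of_mem hpm, hχ0 p.2 hp'.le, zero_smul]
    · rw [exz, indicator_of_notMem hpm]

lemma exz_zero {χ : V → ℝ} (z : V) (x : V)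
    (hx : x ∉ closedBall (0 : V) ρ) : exz O' ρ χ g (z, x) = 0 := by
  have : ((z, x) : VV) ∉ O' ×ˢ ball (0 : V) ρ := fun h => hx (ball_subset_closedBall h.2)
  rw [exz, indicator_of_notMem this]

/-- smoothness of the integral of weight times smooth function -/
lemma smooth_wt (hO' : IsOpen O') {χ : V → ℝ} (hχ : ContDiff ℝ ∞ χ)
    (hχ0 : ∀ x, 3 * ρ / 4 ≤ ‖x‖ → χ x = 0) (hρ : 0 < ρ)
    (hg : ContDiffOn ℝ ∞ g (O' ×ˢ ball 0 ρ)) {wt : V → ℂ} (hwt : Integrable wt) :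
    ContDiffOn ℝ ∞ (fun z => ∫ x, wt x • exz O' ρ χ g (z, x)) O' :=
  contDiffOn_wint hO' hwt.locallyIntegrable (isCompact_closedBall 0 ρ)
    (exz_smooth hO' hχ hχ0 hρ hg) (fun p _ x hx => exz_zero p x hx)

lemma integrable_wtx (hO' : IsOpen O') {χ : V → ℝ} (hχ : ContDiff ℝ ∞ χ)
    (hχ0 : ∀ x, 3 * ρ / 4 ≤ ‖x‖ → χ x = 0) (hρ : 0 < ρ)
    (hg : ContDiffOn ℝ ∞ g (O' ×ˢ ball 0 ρ)) {wt : V → ℂ} (hwt : Integrable wt) {z : V}
    (hz : z ∈ O') : Integrable (fun x => wt x • exz O' ρ χ g (z, x)) := by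
  refine integrable_wt (isCompact_closedBall 0 ρ) hwt.locallyIntegrable ?_
    (fun x hx => exz_zero z x hx)
  exact (exz_smooth hO' hχ hχ0 hρ hg).continuousOn.comp_continuous (by fun_prop)
    fun x => ⟨hz, mem_univ _⟩

end cut

/-! ### the coefficients -/

/-- `b_a = ∑_i β_{ai}(z) conj ξ_i` -/
def bet (h : Matrix (Fin 2) (Fin 2) ℂ) (a i : Fin 2) : ℂ :=
  ![h a 0 / (Real.sqrt (h 0 0).re : ℂ),
    (- h a 0 * star (h 1 0 / h 0 0) + h a 1) / (Real.sqrt (h.det.re / (h 0 0).re) : ℂ)] i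

lemma b_Ri (h : Matrix (Fin 2) (Fin 2) ℂ) (x : V) (a : Fin 2) :
    ∑ c, h a c * star (Ri h x c) = bet h a 0 * star (x 0) + bet h a 1 * star (x 1) := by
  have e (y : ℝ) : star (y : ℂ) = y := Complex.conj_ofReal y
  simp only [Fin.sum_univ_two, Ri, bet, Matrix.cons_val_zero, Matrix.cons_val_one, star_sub,
    star_mul', star_div₀, e]
  ring

section coefs

variable {A : Type*} [NormedRing A] [NormedAlgebra ℂ A] {D : KData A} {U : Set VV} {O : Set V}
  {h : V → Matrix (Fin 2) (Fin 2) ℂ} {O' : Set V} {ρ δ d : ℝ} {Ψ : VV → V}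

/-- coefficient -/
def cAb (D : KData A) (h : V → Matrix (Fin 2) (Fin 2) ℂ) (j : Fin 4) (i : Fin 2) (p : VV) : A :=
  -(wd (fun a => bet (h p.1) a i) (fun a => D.Ga j a p) * D.m p)

/-- coefficient -/
def cAb' (D : KData A) (h : V → Matrix (Fin 2) (Fin 2) ℂ) (j : Fin 4) (i : Fin 2) (p : VV) : A :=
  -((wc (fun a => bet (h p.1) a i) (fun a => D.B j a p)) • D.m p)

lemma smooth_bet (H : LimHyp D U O h) {z : V} (hz : z ∈ O) (a i : Fin 2) :
    ContDiffAt ℝ ∞ (fun z => bet (h z) a i) z := by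
  obtain ⟨c1, c2, c3⟩ := smooth_coef H hz
  have hs (a c : Fin 2) : ContDiffAt ℝ ∞ (fun z => h z a c) z :=
    (H.h_smooth a c).contDiffAt (H.open_O.mem_nhds hz)
  obtain ⟨e1, e2⟩ := sqrt_ne (H.pos z hz) (H.det_pos z hz)
  have cs : ContDiffAt ℝ ∞ (fun z => star (h z 1 0 / h z 0 0)) z := by
    have := (Complex.conjCLE : ℂ →L[ℝ] ℂ).contDiff.contDiffAt.comp (n := ∞) z c2
    exact this
  fin_cases i
  · have := (hs a 0).mul (c1.inv e1)
    simpa [bet, div_eq_mul_inv] using this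
  · have := (((hs a 0).neg.mul cs).add (hs a 1)).mul (c3.inv e2)
    simpa [bet, div_eq_mul_inv] using this

lemma smooth_cAb (H : LimHyp D U O h) (j : Fin 4) (i : Fin 2) {p : VV} (hp : p ∈ U)
    (hz : p.1 ∈ O) : ContDiffAt ℝ ∞ (cAb D h j i) p ∧ ContDiffAt ℝ ∞ (cAb' D h j i) p := by
  have hb (a : Fin 2) : ContDiffAt ℝ ∞ (fun p : VV => bet (h p.1) a i) p :=
    ContDiffAt.comp p (f := fun p : VV => p.1) (smooth_bet H hz a i) contDiffAt_fst
  have hG (a : Fin 2) := H.rel.cGa H.open_U hp j a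
  have hB (a : Fin 2) := H.rel.cB H.open_U hp j a
  have hm := H.rel.cm H.open_U hp
  constructor
  · have h1 : ContDiffAt ℝ ∞ (fun p : VV => wd (fun a => bet (h p.1) a i)
        (fun a => D.Ga j a p)) p := ((hb 0).smul (hG 1)).sub ((hb 1).smul (hG 0))
    exact (h1.mul hm).neg
  · have h1 : ContDiffAt ℝ ∞ (fun p : VV => wc (fun a => bet (h p.1) a i)
        (fun a => D.B j a p)) p := ((hb 0).mul (hB 1)).sub ((hb 1).mul (hB 0))
    exact (h1.smul hm).neg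

/-- the coefficients of `K` in the coordinates -/
lemma cA_coord (H : LimHyp D U O h) {p : VV} (hp : p ∈ U) (hz : p.1 ∈ O) (j : Fin 4) :
    cA D j p = star (xi D h p 0) • cAb D h j 0 p + star (xi D h p 1) • cAb D h j 1 p ∧
    cA' D j p = star (xi D h p 0) • cAb' D h j 0 p + star (xi D h p 1) • cAb' D h j 1 p := by
  have hb (a : Fin 2) : D.b a p = bet (h p.1) a 0 * star (xi D h p 0) +
      bet (h p.1) a 1 * star (xi D h p 1) := by
    rw [H.b_eq p hp, ← b_Ri, xi, Ri_Xi (H.pos _ hz) (H.det_pos _ hz)]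
  constructor
  · simp only [cA, cAb, wd, hb, sub_mul, smul_mul_assoc]
    module
  · simp only [cA', cAb', wc, hb]
    module

lemma rr_coord (H : LimHyp D U O h) {p : VV} (hp : p ∈ U) (hz : p.1 ∈ O) :
    (D.rr p).re = nq (xi D h p) := by
  rw [H.rr_eq hp, xi]
  exact herm_Xi (H.pos _ hz) (H.isHerm _ hz) (H.det_pos _ hz).le _

end coefs

/-! ### local smoothness -/

section loc

variable {F : Type} [NormedAddCommGroup F] [NormedSpace ℂ F] [CompleteSpace F]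
  {D : KData (F →L[ℂ] F)} {U : Set VV} {O : Set V}
  {h : V → Matrix (Fin 2) (Fin 2) ℂ} {O' : Set V} {ρ δ d : ℝ} {Ψ : VV → V}

/-- the smooth factors -/
def gcoef (Ψ : VV → V) (k : VV → F →L[ℂ] F) (u : V → F) (q : VV) : F :=
  jac Ψ q • (k (q.1, Ψ q)) (u (Ψ q))

lemma gcoef_smooth (H : LimHyp D U O h) (C : Coord D U O h O' ρ δ d Ψ) {k : VV → F →L[ℂ] F}
    (hk : ∀ p ∈ U, p.1 ∈ O → ContDiffAt ℝ ∞ k p) {u : V → F} (hu : ContDiffOn ℝ ∞ u O) :
    ContDiffOn ℝ ∞ (gcoef Ψ k u) (O' ×ˢ ball 0 ρ) := fun q hq => by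
  have hm := C.openP.mem_nhds hq
  have hΨ : ContDiffAt ℝ ∞ Ψ q := C.smooth.contDiffAt hm
  have hj : ContDiffAt ℝ ∞ (jac Ψ) q := (C.smooth_jac H).contDiffAt hm
  have h1 : ContDiffAt ℝ ∞ (fun q : VV => k (q.1, Ψ q)) q :=
    ContDiffAt.comp q (f := fun q : VV => (q.1, Ψ q))
      (hk _ (C.mem_U q.1 hq.1 q.2 hq.2) (C.sub hq.1)) (contDiffAt_fst.prodMk hΨ)
  have h2 : ContDiffAt ℝ ∞ (fun q : VV => u (Ψ q)) q :=
    ContDiffAt.comp q (hu.contDiffAt (H.open_O.mem_nhds (C.mem_O q.1 hq.1 q.2 hq.2))) hΨ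
  let B : (F →L[ℂ] F) →L[ℝ] F →L[ℝ] F :=
    (ContinuousLinearMap.id ℂ (F →L[ℂ] F)).bilinearRestrictScalars ℝ
  have h3 : ContDiffAt ℝ ∞ (fun q : VV => B (k (q.1, Ψ q)) (u (Ψ q))) q :=
    B.isBoundedBilinearMap.contDiff.contDiffAt.comp q (h1.prodMk h2)
  exact (hj.smul h3).contDiffWithinAt

/-- `K_t u` near `z0` for small `t` -/
theorem smooth_local (H : LimHyp D U O h) (C : Coord D U O h O' ρ δ d Ψ)
    {f f' f'' : ℝ → ℝ} {G r : ℝ} (hf : Cut f f' f'' G r) {t : ℝ} (ht : 0 < t)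
    (htρ : r * t ≤ (ρ / 2) ^ 2) (j : Fin 4)
    (hsupp : ∀ z ∈ O', ∀ w : V, δ ≤ ‖w - z‖ → ‖w - z‖ < d → D.Kf (hKc f t) j (z, w) = 0)
    {u : V → F} (hu : ContDiffOn ℝ ∞ u O) :
    ContDiffOn ℝ ∞ (kint d (D.Kf (hKc f t) j) u) O' := by
  have hρ := C.ρ_pos
  obtain ⟨χ, hχ, hχ1, hχ0⟩ := exists_bump hρ
  have htρ' : r * t ≤ ρ ^ 2 := htρ.trans (pow_le_pow_left₀ (by linarith) (by linarith) 2)
  have gs (i : Fin 2) := gcoef_smooth H C (k := cAb D h j i)
    (fun p hp hz => (smooth_cAb H j i hp hz).1) hu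
  have gs' (i : Fin 2) := gcoef_smooth H C (k := cAb' D h j i)
    (fun p hp hz => (smooth_cAb H j i hp hz).2) hu
  have i0 (i : Fin 2) := integrable_wt0 hf ht htρ' hρ i
  have i1 (i : Fin 2) := integrable_wt1 hf ht htρ' hρ i
  have S0 (i : Fin 2) := smooth_wt C.open_O' hχ hχ0 hρ (gs i) (i0 i)
  have S1 (i : Fin 2) := smooth_wt C.open_O' hχ hχ0 hρ (gs' i) (i1 i)
  refine (((S0 0).add (S0 1)).add ((S1 0).add (S1 1))).congr fun z hz => ?_
  have J0 (i : Fin 2) := integrable_wtx C.open_O' hχ hχ0 hρ (gs i) (i0 i) hz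
  have J1 (i : Fin 2) := integrable_wtx C.open_O' hχ hχ0 hρ (gs' i) (i1 i) hz
  -- change of variables
  have e1 : kint d (D.Kf (hKc f t) j) u z = ∫ x in ball (0 : V) ρ,
      jac Ψ (z, x) • (D.Kf (hKc f t) j (z, Ψ (z, x))) (u (Ψ (z, x))) :=
    C.integral_near hz (fun w => (D.Kf (hKc f t) j (z, w)) (u w)) fun w h1 h2 => by
      rw [hsupp z hz w h1 h2]; rfl
  let T : V → F := fun x =>
    (wt0 f t 0 x • exz O' ρ χ (gcoef Ψ (cAb D h j 0) u) (z, x) +
      wt0 f t 1 x • exz O' ρ χ (gcoef Ψ (cAb D h j 1) u) (z, x)) +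
    (wt1 f f' t 0 x • exz O' ρ χ (gcoef Ψ (cAb' D h j 0) u) (z, x) +
      wt1 f f' t 1 x • exz O' ρ χ (gcoef Ψ (cAb' D h j 1) u) (z, x))
  have e2 : ∀ x ∈ ball (0 : V) ρ,
      jac Ψ (z, x) • (D.Kf (hKc f t) j (z, Ψ (z, x))) (u (Ψ (z, x))) = T x := by
    intro x hx
    have hU := C.mem_U z hz x hx
    have hxi := C.inv z hz x hx
    obtain ⟨c1, c2⟩ := cA_coord H hU (C.sub hz) j
    rw [hxi] at c1 c2
    have hmem : ((z, x) : VV) ∈ O' ×ˢ ball (0 : V) ρ := ⟨hz, hx⟩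
    have hex : ∀ k : VV → F →L[ℂ] F, exz O' ρ χ (gcoef Ψ k u) (z, x) =
        χ x • jac Ψ (z, x) • (k (z, Ψ (z, x))) (u (Ψ (z, x))) := by
      intro k
      rw [exz, indicator_of_mem hmem]
      rfl
    rw [Kf_eq, rr_coord H hU (C.sub hz), hxi]
    simp only [T, hex]
    by_cases hx2 : ‖x‖ < ρ / 2
    · rw [hχ1 x hx2]
      rcases eq_or_ne x 0 with rfl | hx0
      · have z1 : cA D j (z, Ψ (z, 0)) = 0 := by rw [c1]; simp
        have z2 : cA' D j (z, Ψ (z, 0)) = 0 := by rw [c2]; simp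
        rw [z1, z2]
        simp [wt0, wt1]
      · have hpos : 0 < nq x := lt_of_lt_of_le (by
          have := norm_pos_iff.2 hx0
          positivity) (norm_sq_le_nq x)
        rw [deriv_hKc hf ht hpos, c1, c2]
        simp only [hKc, wt0, wt1, one_smul, ContinuousLinearMap.add_apply,
          ContinuousLinearMap.smul_apply, smul_add, mul_smul, smul_comm (jac Ψ (z, x))]
    · have hx3 : ρ / 2 ≤ ‖x‖ := not_lt.1 hx2
      have w0 (i : Fin 2) := (wt_zero hf ht htρ (by linarith : 0 < ρ / 2) i hx3).1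
      have w1 (i : Fin 2) := (wt_zero hf ht htρ (by linarith : 0 < ρ / 2) i hx3).2
      rw [w0, w0, w1, w1]
      have h1 : r ≤ nq x / t := by
        rw [le_div_iff₀ ht]
        exact htρ.trans ((pow_le_pow_left₀ (by linarith) hx3 2).trans (norm_sq_le_nq x))
      have hpos : 0 < nq x := lt_of_lt_of_le (by
          have : 0 < ‖x‖ := lt_of_lt_of_le (by linarith) hx3
          positivity) (norm_sq_le_nq x)
      rw [deriv_hKc hf ht hpos, hKc, hK_zero hf h1, hK'_zero hf h1]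
      simp
  have e3 : ∫ x in ball (0 : V) ρ, T x = ∫ x, T x := by
    refine setIntegral_eq_integral_of_forall_compl_eq_zero fun x hx => ?_
    have hx3 : ρ ≤ ‖x‖ := by simpa using hx
    have w0 (i : Fin 2) := (wt_zero hf ht htρ' hρ i hx3).1
    have w1 (i : Fin 2) := (wt_zero hf ht htρ' hρ i hx3).2
    simp only [T, w0, w1, zero_smul, add_zero]
  rw [e1, setIntegral_congr_fun measurableSet_ball e2, e3]
  simp only [T]
  rw [integral_add (by exact (J0 0).add (J0 1)) (by exact (J1 0).add (J1 1)),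
    integral_add (J0 0) (J0 1), integral_add (J1 0) (J1 1)]

end loc

end Vale.Agent.P267.H315
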