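import Vale.Agent.P267.H315.Sm3

/-!
# P267, RRK-LOC (S): `K_t u` is smooth
-/

open scoped ContDiff Topology
open MeasureTheory Set Metric Filter
open Vale.Agent.P267.H156

noncomputable section

namespace Vale.Agent.P267.H315

variable {F : Type} [NormedAddCommGroup F] [NormedSpace ℂ F] [CompleteSpace F]
  {D : KData (F →L[ℂ] F)} {U : Set VV} {O : Set V}
  {h : V → Matrix (Fin 2) (Fin 2) ℂ} {K : Set V} {c C d : ℝ}

theorem Coord.mono {O' O'' : Set V} {ρ δ : ℝ} {Ψ : VV → V} (Co : Coord D U O h O' ρ δ d Ψ)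
    (ho : IsOpen O'') (hs : O'' ⊆ O') : Coord D U O h O'' ρ δ d Ψ where
  open_O' := ho
  sub := hs.trans Co.sub
  ρ_pos := Co.ρ_pos
  δ_pos := Co.δ_pos
  smooth := Co.smooth.mono (prod_mono hs subset_rfl)
  mem_U := fun z hz => Co.mem_U z (hs hz)
  mem_O := fun z hz => Co.mem_O z (hs hz)
  near := fun z hz => Co.near z (hs hz)
  inv := fun z hz => Co.inv z (hs hz)
  surj := fun z hz => Co.surj z (hs hz)

/-- integrability of `K(z, z+v) u(z+v)` -/
theorem integrableOn_app {k : V → F →L[ℂ] F} {w : V → F} {d : ℝ}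
    (hk : IntegrableOn k (ball (0 : V) d)) (hw : ContinuousOn w (closedBall (0 : V) d)) :
    IntegrableOn (fun v => k v (w v)) (ball (0 : V) d) := by
  obtain ⟨M, hM⟩ := (isCompact_closedBall (0 : V) d).exists_bound_of_continuousOn hw
  have hwm : AEStronglyMeasurable w (volume.restrict (ball (0 : V) d)) :=
    (hw.mono ball_subset_closedBall).aestronglyMeasurable measurableSet_ball
  let B : (F →L[ℂ] F) →L[ℝ] F →L[ℝ] F :=
    (ContinuousLinearMap.id ℂ (F →L[ℂ] F)).bilinearRestrictScalars ℝ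
  have hm : AEStronglyMeasurable (fun v => k v (w v)) (volume.restrict (ball (0 : V) d)) :=
    B.aestronglyMeasurable_comp₂ hk.aestronglyMeasurable hwm
  refine Integrable.mono' (hk.norm.mul_const M) hm ?_
  refine (ae_restrict_iff' measurableSet_ball).2 (Eventually.of_forall fun v hv => ?_)
  exact ((k v).le_opNorm _).trans
    (mul_le_mul_of_nonneg_left (hM v (ball_subset_closedBall hv)) (norm_nonneg _))

/-- **SMOOTHNESS of `K_t u`** -/
theorem smooth_K (T : H156.Tube D U O h K c C d) {f : ℝ → ℝ} (hf : ContDiff ℝ ∞ f) {r : ℝ}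
    (hr : 0 ≤ r) (h0 : ∀ x, r ≤ x → f x = 0) (h1 : ∀ᶠ x in 𝓝 0, f x = f 0) {t : ℝ} (ht : 0 < t)
    (htd : r * t < c / 2 * d ^ 2) (j : Fin 4) {u : V → F} (hu : ContDiffOn ℝ ∞ u O) :
    ContDiffOn ℝ ∞ (kint d (D.Kf (hKc f t) j) u) (interior K) := by
  have hf2 : ContDiff ℝ 2 f := hf.of_le (WithTop.coe_le_coe.2 le_top)
  obtain ⟨G, hcut⟩ := exists_cut hf2 hr h0
  have hc := T.c_pos
  have hd := T.d_pos
  have hH := T.H
  intro z0 hz0
  have hz0K : z0 ∈ K := interior_subset hz0
  obtain ⟨O1, ρ, δ, Ψ, hz01, Co1⟩ := exists_coord hH (T.sub_O hz0K) hd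
  have hO'' : IsOpen (O1 ∩ interior K) := Co1.open_O'.inter isOpen_interior
  have Co := Co1.mono hO'' inter_subset_left
  have hρ := Co.ρ_pos
  have hδ := Co.δ_pos
  -- the small parameter
  obtain ⟨s, hs, hst, hsρ, hsδ⟩ : ∃ s, 0 < s ∧ s ≤ t ∧ r * s ≤ (ρ / 2) ^ 2 ∧
      r * s ≤ c / 2 * δ ^ 2 := by
    refine ⟨min t (min ((ρ / 2) ^ 2 / (r + 1)) (c / 2 * δ ^ 2 / (r + 1))), ?_, min_le_left _ _,
      ?_, ?_⟩
    · exact lt_min ht (lt_min (by positivity) (by positivity))
    · calc r * min t (min ((ρ / 2) ^ 2 / (r + 1)) (c / 2 * δ ^ 2 / (r + 1))) ≤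
          (r + 1) * ((ρ / 2) ^ 2 / (r + 1)) := by
            refine mul_le_mul (by linarith) ((min_le_right _ _).trans (min_le_left _ _)) ?_
              (by linarith)
            exact le_min ht.le (le_min (by positivity) (by positivity))
        _ = _ := by field_simp
    · calc r * min t (min ((ρ / 2) ^ 2 / (r + 1)) (c / 2 * δ ^ 2 / (r + 1))) ≤
          (r + 1) * (c / 2 * δ ^ 2 / (r + 1)) := by
            refine mul_le_mul (by linarith) ((min_le_right _ _).trans (min_le_right _ _)) ?_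
              (by linarith)
            exact le_min ht.le (le_min (by positivity) (by positivity))
        _ = _ := by field_simp
  -- the singular part
  have A1 : ContDiffOn ℝ ∞ (kint d (D.Kf (hKc f s) j) u) (O1 ∩ interior K) := by
    refine smooth_local hH Co hcut hs hsρ j (fun z hz w hw1 hw2 => ?_) hu
    have hzK : z ∈ K := interior_subset hz.2
    have := T.support_K hf2 hr h0 hs hzK (v := w - z) hw2
      (hsδ.trans (mul_le_mul_of_nonneg_left (pow_le_pow_left₀ hδ.le hw1 2) (by positivity))) j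
    rwa [add_sub_cancel] at this
  -- the regular part
  set R := Real.sqrt (r * t / (c / 2)) with hR
  have hR0 : 0 ≤ R := Real.sqrt_nonneg _
  have hRd : R < d := by
    rw [hR, Real.sqrt_lt' hd, div_lt_iff₀ (by positivity)]
    linarith
  have Ge : Geo K O U d R := ⟨T.compact, hH.open_U, hH.open_O, hR0, hRd, T.sub⟩
  set g : ℝ → ℂ := fun x => (ft f t x - ft f s x) / x with hg
  have hgs : ContDiff ℝ ∞ g := smooth_profile hf h1 ht hs
  have hks : ContDiffOn ℝ ∞ (D.Kf g j) U := fun x hx =>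
    (hH.rel.cKf hH.open_U hx hgs.contDiffAt j).contDiffWithinAt
  have Ke : Ker K U d R (D.Kf g j) := by
    refine ⟨hks.of_le (WithTop.coe_le_coe.2 le_top), fun z hz v hv1 hv2 => ?_⟩
    have hv3 : r * t ≤ c / 2 * ‖v‖ ^ 2 := by
      have h2 : r * t / (c / 2) ≤ ‖v‖ ^ 2 := (Real.sqrt_le_left (norm_nonneg v)).1 hv1
      rw [div_le_iff₀ (by positivity)] at h2
      linarith
    have hv4 : r * s ≤ c / 2 * ‖v‖ ^ 2 := (mul_le_mul_of_nonneg_left hst hr).trans hv3
    rw [T.Kf_diff hf2 hr h0 ht hs hz hv2 j, T.support_K hf2 hr h0 ht hz hv2 hv3 j,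
      T.support_K hf2 hr h0 hs hz hv2 hv4 j, sub_zero]
  have A2 : ContDiffOn ℝ ∞ (kint d (D.Kf g j) u) (interior K) := Ge.contDiffOn_kint Ke hks hu
  -- sum
  have A3 : ContDiffOn ℝ ∞ (fun z => kint d (D.Kf (hKc f s) j) u z + kint d (D.Kf g j) u z)
      (O1 ∩ interior K) := A1.add (A2.mono inter_subset_right)
  have A4 : ContDiffOn ℝ ∞ (kint d (D.Kf (hKc f t) j) u) (O1 ∩ interior K) := by
    refine A3.congr fun z hz => ?_
    have hzK : z ∈ K := interior_subset hz.2
    have hw : ContinuousOn (fun v => u (z + v)) (closedBall (0 : V) d) :=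
      hu.continuousOn.comp (by fun_prop) fun v hv => (T.sub z hzK v (by simpa using hv)).2
    obtain ⟨C2, -, hC2⟩ := T.bound_K hf2 hr h0 j
    have I1 := integrableOn_app (hC2 s hs z hzK).2.1 hw
    have I2 : IntegrableOn (fun v => (D.Kf g j (z, z + v)) (u (z + v))) (ball (0 : V) d) := by
      have hk : IntegrableOn (fun v => D.Kf g j (z, z + v)) (ball (0 : V) d) := by
        have : ContinuousOn (fun v : V => D.Kf g j (z, z + v)) (closedBall (0 : V) d) :=
          hks.continuousOn.comp (by fun_prop) fun v hv => (T.sub z hzK v (by simpa using hv)).1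
        exact (this.integrableOn_compact (isCompact_closedBall _ _)).mono_set
          ball_subset_closedBall
      exact integrableOn_app hk hw
    unfold kint
    rw [← integral_add (by exact I1) (by exact I2)]
    refine setIntegral_congr_fun measurableSet_ball fun v hv => ?_
    have hv' : ‖v‖ < d := by simpa using hv
    have e := T.Kf_diff hf2 hr h0 ht hs hzK hv' j
    have e' : D.Kf (hKc f t) j (z, z + v) = D.Kf (hKc f s) j (z, z + v) + D.Kf g j (z, z + v) := by
      rw [hg, e]; abel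
    show (D.Kf (hKc f t) j (z, z + v)) (u (z + v)) = _
    rw [e']
    rfl
  exact (A4.contDiffAt (hO''.mem_nhds ⟨hz01, hz0⟩)).contDiffWithinAt

end Vale.Agent.P267.H315
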