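import Vale.Agent.P267.H315.PInt
import Vale.Agent.P267.H315.Equiv2

/-!
# P267, RRK-LOC: kernels supported near the diagonal, extension by zero, `∂̄` and Stokes
-/

open scoped ContDiff
open MeasureTheory Set Metric

noncomputable section

namespace Vale.Agent.P267.H315

section apply

variable {E : Type*} [NormedAddCommGroup E] [NormedSpace ℂ E]
  {F : Type*} [NormedAddCommGroup F] [NormedSpace ℂ F]
  {G : Type*} [NormedAddCommGroup G] [NormedSpace ℂ G]

/-- product rule for the application of a linear map -/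
lemma dbv_apply {v : E} {K : E → F →L[ℂ] G} {f : E → F} {x : E} (hK : DifferentiableAt ℝ K x)
    (hf : DifferentiableAt ℝ f x) :
    dbv v (fun y => K y (f y)) x = dbv v K x (f x) + K x (dbv v f x) := by
  let B : (F →L[ℂ] G) →L[ℝ] F →L[ℝ] G :=
    (ContinuousLinearMap.id ℂ (F →L[ℂ] G)).bilinearRestrictScalars ℝ
  have h1 : HasFDerivAt (fun y => B (K y) (f y))
      (B.precompR E (K x) (fderiv ℝ f x) + B.precompL E (fderiv ℝ K x) (f x)) x :=
    B.hasFDerivAt_of_bilinear hK.hasFDerivAt hf.hasFDerivAt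
  have h2 (u : E) : fderiv ℝ (fun y => K y (f y)) x u =
      K x (fderiv ℝ f x u) + fderiv ℝ K x u (f x) := by
    have : fderiv ℝ (fun y => K y (f y)) x = _ := h1.fderiv
    rw [this]
    rfl
  rw [dbv, dbv, dbv, h2, h2]
  simp only [ContinuousLinearMap.smul_apply, ContinuousLinearMap.add_apply, map_smul, map_add]
  module

lemma contDiffAt_apply {K : E → F →L[ℂ] G} {f : E → F} {x : E} {n : WithTop ℕ∞}
    (hK : ContDiffAt ℝ n K x) (hf : ContDiffAt ℝ n f x) :
    ContDiffAt ℝ n (fun y => K y (f y)) x := by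
  let B : (F →L[ℂ] G) →L[ℝ] F →L[ℝ] G :=
    (ContinuousLinearMap.id ℂ (F →L[ℂ] G)).bilinearRestrictScalars ℝ
  have : ContDiffAt ℝ n (fun y => B (K y) (f y)) x :=
    B.isBoundedBilinearMap.contDiff.contDiffAt.comp x (hK.prodMk hf)
  exact this

end apply

/-- `T` is an open tube around the diagonal of `O`, `T1` a smaller tube, closed in `O × ℂ²`. -/
structure Tube (O : Set V) (T T1 : Set VV) : Prop where
  openO : IsOpen O
  openT : IsOpen T
  sub : ∀ p ∈ T, p.1 ∈ O
  sub1 : T1 ⊆ T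
  cl : ∀ p : VV, p.1 ∈ O → p ∉ T1 → ∀ᶠ q in nhds p, q ∉ T1
  cpt : ∀ z ∈ O, ∃ O' k, IsOpen O' ∧ z ∈ O' ∧ O' ⊆ O ∧ IsCompact k ∧
    ∀ z' ∈ O', ∀ w ∉ k, (z', w) ∉ T1

namespace Tube

variable {O : Set V} {T T1 : Set VV} (h : Tube O T T1)
  {W : Type*} [NormedAddCommGroup W] [NormedSpace ℂ W] {g : VV → W}

include h

lemma ev (h0 : ∀ q ∈ T, q ∉ T1 → g q = 0) {p : VV} (hp : p.1 ∈ O) (hpT : p ∉ T) :
    T.indicator g =ᶠ[nhds p] fun _ => 0 := by
  filter_upwards [h.cl p hp (fun hp1 => hpT (h.sub1 hp1))] with q hq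
  by_cases hqT : q ∈ T
  · rw [indicator_of_mem hqT, h0 q hqT hq]
  · rw [indicator_of_notMem hqT]

omit [NormedSpace ℂ W] in
lemma ev' {p : VV} (hpT : p ∈ T) : T.indicator g =ᶠ[nhds p] g := by
  filter_upwards [h.openT.mem_nhds hpT] with q hq
  rw [indicator_of_mem hq]

/-- the extension by zero is smooth -/
lemma smooth (hg : ContDiffOn ℝ ∞ g T) (h0 : ∀ q ∈ T, q ∉ T1 → g q = 0) :
    ContDiffOn ℝ ∞ (T.indicator g) (O ×ˢ univ) := by
  intro p hp
  refine ContDiffAt.contDiffWithinAt ?_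
  by_cases hpT : p ∈ T
  · exact (hg.contDiffAt (h.openT.mem_nhds hpT)).congr_of_eventuallyEq (h.ev' hpT)
  · exact contDiffAt_const.congr_of_eventuallyEq (h.ev h0 hp.1 hpT)

lemma db_ind (h0 : ∀ q ∈ T, q ∉ T1 → g q = 0) {p : VV} (hp : p.1 ∈ O) (j : Fin 4) :
    db j (T.indicator g) p = T.indicator (db j g) p := by
  by_cases hpT : p ∈ T
  · rw [indicator_of_mem hpT, db, dbv_congr (h.ev' hpT), db]
  · rw [indicator_of_notMem hpT, db, dbv_congr (h.ev h0 hp hpT), dbv_const]

lemma db_zero (h0 : ∀ q ∈ T, q ∉ T1 → g q = 0) (j : Fin 4) :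
    ∀ q ∈ T, q ∉ T1 → db j g q = 0 := by
  intro q hq hq1
  have : g =ᶠ[nhds q] fun _ => 0 := by
    filter_upwards [h.cl q (h.sub q hq) hq1, h.openT.mem_nhds hq] with p hp hpT using h0 p hpT hp
  rw [db, dbv_congr this, dbv_const]

lemma db_smooth (hg : ContDiffOn ℝ ∞ g T) (j : Fin 4) : ContDiffOn ℝ ∞ (db j g) T := fun p hp =>
  (ContDiffAt.dbv (hg.contDiffAt (h.openT.mem_nhds hp)) _).contDiffWithinAt

variable [CompleteSpace W]

/-- The integral over `w` is smooth in `z`. -/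
theorem smooth_int (hg : ContDiffOn ℝ ∞ g T) (h0 : ∀ q ∈ T, q ∉ T1 → g q = 0) :
    ContDiffOn ℝ ∞ (fun z => ∫ w, T.indicator g (z, w)) O := by
  intro z hz
  obtain ⟨O', k, hO', hzO', hsub, hk, hk'⟩ := h.cpt z hz
  have h1 := contDiffOn_wint (μ := (volume : Measure V)) (wt := fun _ => (1 : ℂ)) hO'
    (locallyIntegrable_const (1 : ℂ)) hk ((h.smooth hg h0).mono (prod_mono hsub subset_rfl))
    (fun p hp x hx => by
      by_cases hpT : (p, x) ∈ T
      · rw [indicator_of_mem hpT, h0 _ hpT (hk' p hp x hx)]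
      · rw [indicator_of_notMem hpT])
  simp only [one_smul] at h1
  exact (h1.contDiffAt (hO'.mem_nhds hzO')).contDiffWithinAt

omit [CompleteSpace W] in
lemma integrable_ind (hg : ContinuousOn g T) (h0 : ∀ q ∈ T, q ∉ T1 → g q = 0) {z : V}
    (hz : z ∈ O) : Integrable (fun w => T.indicator g (z, w)) := by
  obtain ⟨O', k, hO', hzO', hsub, hk, hk'⟩ := h.cpt z hz
  have hc : Continuous fun w : V => T.indicator g (z, w) := by
    rw [continuous_iff_continuousAt]
    intro w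
    have : ContinuousAt (T.indicator g) (z, w) := by
      by_cases hpT : (z, w) ∈ T
      · exact (hg.continuousAt (h.openT.mem_nhds hpT)).congr (h.ev' hpT).symm
      · exact continuousAt_const.congr (h.ev h0 hz hpT).symm
    exact this.comp (f := fun w => (z, w)) (by fun_prop)
  refine hc.integrable_of_hasCompactSupport (HasCompactSupport.intro hk fun w hw => ?_)
  by_cases hpT : (z, w) ∈ T
  · rw [indicator_of_mem hpT, h0 _ hpT (hk' z hzO' w hw)]
  · rw [indicator_of_notMem hpT]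

/-- `∂̄_z` under the integral sign -/
theorem dbv_int (hg : ContDiffOn ℝ ∞ g T) (h0 : ∀ q ∈ T, q ∉ T1 → g q = 0) {z : V} (hz : z ∈ O)
    (j : Fin 2) : dbv (Pi.single j 1) (fun z => ∫ w, T.indicator g (z, w)) z =
      ∫ w, T.indicator (db (c2 j) g) (z, w) := by
  obtain ⟨O', k, hO', hzO', hsub, hk, hk'⟩ := h.cpt z hz
  have h1 := dbv_wint (μ := (volume : Measure V)) (wt := fun _ => (1 : ℂ)) hO'
    (locallyIntegrable_const (1 : ℂ)) hk ((h.smooth hg h0).mono (prod_mono hsub subset_rfl))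
    (fun p hp x hx => by
      by_cases hpT : (p, x) ∈ T
      · rw [indicator_of_mem hpT, h0 _ hpT (hk' p hp x hx)]
      · rw [indicator_of_notMem hpT]) hzO' (Pi.single j 1)
  simp only [one_smul] at h1
  rw [h1]
  refine integral_congr_ae (Filter.Eventually.of_forall fun w => ?_)
  simp only
  rw [← h.db_ind h0 hz]
  fin_cases j <;> rfl

/-- Stokes in the variable `w` -/
theorem stokes (hg : ContDiffOn ℝ ∞ g T) (h0 : ∀ q ∈ T, q ∉ T1 → g q = 0) {z : V} (hz : z ∈ O)
    (l : Fin 2) : ∫ w, T.indicator (db (![2, 3] l) g) (z, w) = 0 := by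
  obtain ⟨O', k, hO', hzO', hsub, hk, hk'⟩ := h.cpt z hz
  have hsm : ContDiff ℝ 1 fun w : V => T.indicator g (z, w) := by
    rw [contDiff_iff_contDiffAt]
    intro w
    have h1 : ContDiffAt ℝ ∞ (T.indicator g) (z, w) :=
      (h.smooth hg h0).contDiffAt ((h.openO.prod isOpen_univ).mem_nhds ⟨hz, mem_univ _⟩)
    have h2 : ContDiffAt ℝ 1 (T.indicator g) (z, w) := h1.of_le (by simp)
    exact h2.comp w (f := fun w => (z, w)) (contDiffAt_const.prodMk contDiffAt_id)
  have h2 := integral_dbv_eq_zero (μ := (volume : Measure V)) hsm hk (fun w hw => by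
    by_cases hpT : (z, w) ∈ T
    · rw [indicator_of_mem hpT, h0 _ hpT (hk' z hzO' w hw)]
    · rw [indicator_of_notMem hpT]) (Pi.single l 1)
  rw [← h2]
  refine integral_congr_ae (Filter.Eventually.of_forall fun w => ?_)
  simp only
  rw [← h.db_ind h0 hz]
  have h3 : DifferentiableAt ℝ (T.indicator g) (z, w) :=
    ((h.smooth hg h0).contDiffAt ((h.openO.prod isOpen_univ).mem_nhds
      ⟨hz, mem_univ _⟩)).differentiableAt (by simp)
  have h4 : HasFDerivAt (fun w : V => ((z, w) : VV)) (ContinuousLinearMap.inr ℂ V V) w :=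
    hasFDerivAt_prodMk_right z w
  have h5 := dbv_comp (Ψ := fun w : V => ((z, w) : VV)) h4 h3 (Pi.single l 1)
  rw [h5]
  fin_cases l <;> rfl

end Tube

end Vale.Agent.P267.H315
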